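import Mathlib

/-!
Factors of i.i.d. labels by soft sequential revelation: the deterministic rule, its naturality,
its measurability and the contraction estimate.
-/

open Filter Topology

namespace Crest.Agent.FIID

variable {I : Type*}

/-- Clamp to `[-1,1]`. -/
noncomputable def cl (x : ℝ) : ℝ := max (-1) (min x 1)

/-- Likelihood ratio of one soft observation. -/
noncomputable def rho (x : ℝ) : ℝ := (1 + cl x / 20) / (1 - cl x / 20)

/-- Weight at site `j` built from the observations preceding `(r, i)`. -/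
noncomputable def wt (T : I → ℝ) (x : ℕ × I → ℝ) (r : ℕ) (i j : I) : ℝ :=
  (∏ r' ∈ Finset.range r, rho (x (r', j))) * (if T j < T i then rho (x (r, j)) else 1)

/-- Tilted partition function. -/
noncomputable def den (q : Finset I → ℝ) (F : Finset I) (z : I → ℝ) : ℝ :=
  ∑ S ∈ F.powerset, q S * ∏ j ∈ S, (z j - 1)

/-- Tilted numerator. -/
noncomputable def num [DecidableEq I] (q : Finset I → ℝ) (F : Finset I) (i : I) (z : I → ℝ) : ℝ :=
  ∑ S ∈ F.powerset, q (insert i S) * ∏ j ∈ S, (z j - 1)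

/-- Tilted occupation probability of `i`. -/
noncomputable def ratio [DecidableEq I] (q : Finset I → ℝ) (F : Finset I) (i : I) (z : I → ℝ) : ℝ :=
  num q F i z / den q F z

/-- The predicted spin at `(r, i)`. -/
noncomputable def drift [DecidableEq I] (q : Finset I → ℝ) (Fs : I → ℕ → Finset I) (T : I → ℝ)
    (x : ℕ × I → ℝ) (a : ℕ × I) : ℝ :=
  limsup (fun k => 2 * ratio q (Fs a.2 k) a.2 (wt T x a.1 a.2) - 1) atTop

/-- One step of the fixed point iteration. -/
noncomputable def step [DecidableEq I] (q : Finset I → ℝ) (Fs : I → ℕ → Finset I) (T : I → ℝ)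
    (v x : ℕ × I → ℝ) (a : ℕ × I) : ℝ :=
  v a + drift q Fs T x a * (1 - cl (x a) ^ 2) / 40

/-- The fixed point iteration. -/
noncomputable def iter [DecidableEq I] (q : Finset I → ℝ) (Fs : I → ℕ → Finset I) (T : I → ℝ)
    (v : ℕ × I → ℝ) : ℕ → ℕ × I → ℝ
  | 0 => fun _ => 0
  | n + 1 => step q Fs T v (iter q Fs T v n)

/-- The reconstructed observations. -/
noncomputable def recon [DecidableEq I] (q : Finset I → ℝ) (Fs : I → ℕ → Finset I) (T : I → ℝ)
    (v : ℕ × I → ℝ) (a : ℕ × I) : ℝ :=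
  limsup (fun n => iter q Fs T v n a) atTop

/-- Read the bit at `i` from the observations. -/
noncomputable def readBit (x : ℕ × I → ℝ) (i : I) : Bool :=
  decide (0 < limsup (fun n : ℕ => (∑ r ∈ Finset.range n, x (r, i)) / n) atTop)

/-- The output rule. -/
noncomputable def out [DecidableEq I] (q : Finset I → ℝ) (Fs : I → ℕ → Finset I) (T : I → ℝ)
    (v : ℕ × I → ℝ) (i : I) : Bool :=
  readBit (recon q Fs T v) i

/-! ### Naturality -/

section Nat

variable {I' : Type*} [DecidableEq I] [DecidableEq I'] (τ : I' ↪ I)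

lemma ratio_map (q : Finset I → ℝ) (q' : Finset I' → ℝ) (hq : ∀ S, q' S = q (S.map τ))
    (F : Finset I') (i : I') (z : I → ℝ) :
    ratio q' F i (z ∘ τ) = ratio q (F.map τ) (τ i) z := by
  have key : ∀ g : Finset I → ℝ, ∑ S ∈ (F.map τ).powerset, g S
      = ∑ S ∈ F.powerset, g (S.map τ) := by
    intro g
    have : (F.map τ).powerset = F.powerset.map (Finset.mapEmbedding τ).toEmbedding := by
      ext S
      simp only [Finset.mem_powerset, Finset.mem_map, RelEmbedding.coe_toEmbedding,
        Finset.mapEmbedding_apply]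
      constructor
      · intro h
        obtain ⟨u, hu, rfl⟩ := Finset.subset_map_iff.1 h
        exact ⟨u, hu, rfl⟩
      · rintro ⟨u, hu, rfl⟩
        exact Finset.map_subset_map.2 hu
    rw [this, Finset.sum_map]
    rfl
  unfold ratio num den
  rw [key, key]
  simp only [Finset.prod_map, hq, Finset.map_insert, Function.comp]

lemma out_map (q : Finset I → ℝ) (q' : Finset I' → ℝ) (hq : ∀ S, q' S = q (S.map τ))
    (Fs : I → ℕ → Finset I) (Fs' : I' → ℕ → Finset I')
    (hF : ∀ i k, (Fs' i k).map τ = Fs (τ i) k) (T : I → ℝ) (v : ℕ × I → ℝ) (i : I') :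
    out q' Fs' (T ∘ τ) (fun a => v (a.1, τ a.2)) i = out q Fs T v (τ i) := by
  have hd : ∀ (x : ℕ × I → ℝ) (a : ℕ × I'),
      drift q' Fs' (T ∘ τ) (fun a => x (a.1, τ a.2)) a = drift q Fs T x (a.1, τ a.2) := by
    intro x a
    unfold drift
    congr 1
    ext k
    rw [← hF, ← ratio_map τ q q' hq]
    rfl
  have hi : ∀ n, iter q' Fs' (T ∘ τ) (fun a => v (a.1, τ a.2)) n
      = fun a => iter q Fs T v n (a.1, τ a.2) := by
    intro n
    induction n with
    | zero => rfl
    | succ n ih =>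
      ext a
      simp only [iter, step, ih, hd]
  have hr : recon q' Fs' (T ∘ τ) (fun a => v (a.1, τ a.2))
      = fun a => recon q Fs T v (a.1, τ a.2) := by
    ext a
    simp only [recon, hi]
  unfold out readBit
  rw [hr]

end Nat

/-! ### Measurability -/

section Meas

variable {Θ : Type*} [MeasurableSpace Θ]

lemma continuous_cl : Continuous cl := by unfold cl; fun_prop

@[fun_prop]
lemma measurable_cl : Measurable cl := continuous_cl.measurable

@[fun_prop]
lemma measurable_rho : Measurable rho := by unfold rho; fun_prop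

lemma measurable_wt {T : Θ → I → ℝ} (hT : ∀ i, Measurable fun θ => T θ i)
    {x : Θ → ℕ × I → ℝ} (hx : ∀ a, Measurable fun θ => x θ a) (r : ℕ) (i j : I) :
    Measurable fun θ => wt (T θ) (x θ) r i j := by
  unfold wt
  refine Measurable.mul (Finset.measurable_prod _ fun r' _ => measurable_rho.comp (hx _)) ?_
  exact Measurable.ite (measurableSet_lt (hT j) (hT i)) (measurable_rho.comp (hx _))
    measurable_const

lemma measurable_ratio [DecidableEq I] {q : Θ → Finset I → ℝ} (hq : ∀ S, Measurable fun θ => q θ S)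
    (F : Finset I) (i : I) {z : Θ → I → ℝ} (hz : ∀ j, Measurable fun θ => z θ j) :
    Measurable fun θ => ratio (q θ) F i (z θ) := by
  unfold ratio num den
  refine Measurable.div ?_ ?_
  · exact Finset.measurable_sum _ fun S _ =>
      (hq _).mul (Finset.measurable_prod _ fun j _ => (hz j).sub_const _)
  · exact Finset.measurable_sum _ fun S _ =>
      (hq _).mul (Finset.measurable_prod _ fun j _ => (hz j).sub_const _)

lemma measurable_select {A β : Type*} [Countable A] [MeasurableSpace β] {F : Θ → A}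
    (hF : ∀ a, MeasurableSet {θ | F θ = a}) {g : A → Θ → β} (hg : ∀ a, Measurable (g a)) :
    Measurable fun θ => g (F θ) θ := by
  intro s hs
  have : (fun θ => g (F θ) θ) ⁻¹' s = ⋃ a, ({θ | F θ = a} ∩ g a ⁻¹' s) := by
    ext θ; simp
  rw [this]
  exact MeasurableSet.iUnion fun a => (hF a).inter (hg a hs)

variable [DecidableEq I] [Countable I] {q : Θ → Finset I → ℝ} {Fs : Θ → I → ℕ → Finset I}
  {T : Θ → I → ℝ}

lemma measurable_drift (hq : ∀ S, Measurable fun θ => q θ S)
    (hF : ∀ i k F, MeasurableSet {θ | Fs θ i k = F}) (hT : ∀ i, Measurable fun θ => T θ i)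
    {x : Θ → ℕ × I → ℝ} (hx : ∀ a, Measurable fun θ => x θ a) (a : ℕ × I) :
    Measurable fun θ => drift (q θ) (Fs θ) (T θ) (x θ) a := by
  unfold drift
  refine Measurable.limsup fun k => ?_
  refine Measurable.sub_const (Measurable.const_mul ?_ _) _
  exact measurable_select (F := fun θ => Fs θ a.2 k) (hF a.2 k)
    (g := fun F θ => ratio (q θ) F a.2 (wt (T θ) (x θ) a.1 a.2))
    (fun F => measurable_ratio hq F a.2 fun j => measurable_wt hT hx _ _ j)

lemma measurable_iter (hq : ∀ S, Measurable fun θ => q θ S)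
    (hF : ∀ i k F, MeasurableSet {θ | Fs θ i k = F}) (hT : ∀ i, Measurable fun θ => T θ i)
    {v : Θ → ℕ × I → ℝ} (hv : ∀ a, Measurable fun θ => v θ a) (n : ℕ) :
    ∀ a, Measurable fun θ => iter (q θ) (Fs θ) (T θ) (v θ) n a := by
  induction n with
  | zero => intro a; exact measurable_const
  | succ n ih =>
    intro a
    simp only [iter, step]
    refine (hv a).add (Measurable.div_const ((measurable_drift hq hF hT ih a).mul ?_) _)
    exact measurable_const.sub ((measurable_cl.comp (ih a)).pow_const 2)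

omit [DecidableEq I] [Countable I] in
lemma measurable_readBit {x : Θ → ℕ × I → ℝ} (hx : ∀ a, Measurable fun θ => x θ a) (i : I) :
    Measurable fun θ => readBit (x θ) i := by
  unfold readBit
  have h : Measurable fun θ =>
      limsup (fun n : ℕ => (∑ r ∈ Finset.range n, x θ (r, i)) / n) atTop :=
    Measurable.limsup fun n => (Finset.measurable_sum _ fun r _ => hx _).div_const _
  refine measurable_to_bool ?_
  have : (fun θ => decide (0 < limsup (fun n : ℕ => (∑ r ∈ Finset.range n, x θ (r, i)) / n) atTop))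
      ⁻¹' {true} = {θ | 0 < limsup (fun n : ℕ => (∑ r ∈ Finset.range n, x θ (r, i)) / n) atTop} := by
    ext θ; simp
  rw [this]
  exact measurableSet_lt measurable_const h

lemma measurable_out (hq : ∀ S, Measurable fun θ => q θ S)
    (hF : ∀ i k F, MeasurableSet {θ | Fs θ i k = F}) (hT : ∀ i, Measurable fun θ => T θ i)
    {v : Θ → ℕ × I → ℝ} (hv : ∀ a, Measurable fun θ => v θ a) :
    Measurable fun θ => out (q θ) (Fs θ) (T θ) (v θ) := by
  refine measurable_pi_iff.2 fun i => ?_
  unfold out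
  refine measurable_readBit (x := fun θ => recon (q θ) (Fs θ) (T θ) (v θ)) (fun a => ?_) i
  unfold recon
  exact Measurable.limsup fun n => measurable_iter hq hF hT hv n a

end Meas

/-! ### Contraction -/

lemma abs_cl_le (x : ℝ) : |cl x| ≤ 1 := by
  unfold cl
  rw [abs_le]
  constructor
  · exact le_max_left _ _
  · exact max_le (by norm_num) (min_le_right _ _)

lemma cl_of_abs_le {x : ℝ} (h : |x| ≤ 1) : cl x = x := by
  unfold cl
  rw [abs_le] at h
  rw [min_eq_left h.2, max_eq_right h.1]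

lemma abs_cl_sub_cl_le (x y : ℝ) : |cl x - cl y| ≤ |x - y| := by
  unfold cl
  refine (abs_max_sub_max_le_max _ _ _ _).trans ?_
  simp only [sub_self, abs_zero]
  refine max_le (abs_nonneg _) ?_
  refine (abs_min_sub_min_le_max _ _ _ _).trans ?_
  simp

lemma rho_pos (x : ℝ) : 0 < rho x := by
  have := abs_le.1 (abs_cl_le x)
  unfold rho
  apply div_pos <;> linarith [this.1, this.2]

lemma rho_le (x y : ℝ) : rho x ≤ Real.exp (|x - y| / 9) * rho y := by
  have hx := abs_le.1 (abs_cl_le x)
  have hy := abs_le.1 (abs_cl_le y)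
  have hd := abs_cl_sub_cl_le x y
  set d := |x - y| with hdd
  have hd0 : 0 ≤ d := abs_nonneg _
  have hd' := abs_le.1 hd
  have h1 : 1 + cl x / 20 ≤ (1 + d / 18) * (1 + cl y / 20) := by nlinarith
  have h2 : 1 - cl y / 20 ≤ (1 + d / 18) * (1 - cl x / 20) := by nlinarith
  have h3 : (1 + d / 18) * (1 + d / 18) ≤ Real.exp (d / 9) := by
    have : 1 + d / 18 ≤ Real.exp (d / 18) := by linarith [Real.add_one_le_exp (d / 18)]
    calc (1 + d / 18) * (1 + d / 18) ≤ Real.exp (d / 18) * Real.exp (d / 18) := by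
          gcongr
      _ = Real.exp (d / 9) := by rw [← Real.exp_add]; congr 1; ring
  unfold rho
  have hxp : 0 < 1 - cl x / 20 := by linarith
  have hyp : 0 < 1 - cl y / 20 := by linarith
  have hyq : 0 < 1 + cl y / 20 := by linarith
  rw [← mul_div_assoc, div_le_div_iff₀ hxp hyp]
  calc (1 + cl x / 20) * (1 - cl y / 20)
      ≤ ((1 + d / 18) * (1 + cl y / 20)) * ((1 + d / 18) * (1 - cl x / 20)) := by
        apply mul_le_mul h1 h2 hyp.le
        positivity
    _ = ((1 + d / 18) * (1 + d / 18)) * (1 + cl y / 20) * (1 - cl x / 20) := by ring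
    _ ≤ Real.exp (d / 9) * (1 + cl y / 20) * (1 - cl x / 20) := by gcongr

lemma wt_pos (T : I → ℝ) (x : ℕ × I → ℝ) (r : ℕ) (i j : I) : 0 < wt T x r i j := by
  unfold wt
  refine mul_pos (Finset.prod_pos fun _ _ => rho_pos _) ?_
  split_ifs
  · exact rho_pos _
  · exact one_pos

lemma wt_le (T : I → ℝ) (x y : ℕ × I → ℝ) (D : ℝ) (hD : ∀ a, |x a - y a| ≤ D * 2 ^ a.1)
    (r : ℕ) (i j : I) : wt T x r i j ≤ Real.exp (D * 2 ^ (r + 1) / 9) * wt T y r i j := by
  have hD0 : 0 ≤ D := by
    have := (abs_nonneg _).trans (hD (0, i))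
    simpa using this
  have h1 : ∀ r', rho (x (r', j)) ≤ Real.exp (D * 2 ^ r' / 9) * rho (y (r', j)) := by
    intro r'
    refine (rho_le _ (y (r', j))).trans ?_
    have := hD (r', j)
    gcongr
    exact (rho_pos _).le
  have h2 : ∀ r, ∏ r' ∈ Finset.range r, rho (x (r', j))
      ≤ Real.exp (D * 2 ^ r / 9) * ∏ r' ∈ Finset.range r, rho (y (r', j)) := by
    intro r
    induction r with
    | zero =>
      simp only [Finset.range_zero, Finset.prod_empty, mul_one]
      exact Real.one_le_exp (by positivity)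
    | succ r ih =>
      rw [Finset.prod_range_succ, Finset.prod_range_succ]
      have hp : 0 ≤ ∏ r' ∈ Finset.range r, rho (y (r', j)) :=
        (Finset.prod_pos fun _ _ => rho_pos _).le
      calc (∏ r' ∈ Finset.range r, rho (x (r', j))) * rho (x (r, j))
          ≤ (Real.exp (D * 2 ^ r / 9) * ∏ r' ∈ Finset.range r, rho (y (r', j))) *
            (Real.exp (D * 2 ^ r / 9) * rho (y (r, j))) :=
            mul_le_mul ih (h1 r) (rho_pos _).le (by positivity)
        _ = Real.exp (D * 2 ^ (r + 1) / 9) *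
            ((∏ r' ∈ Finset.range r, rho (y (r', j))) * rho (y (r, j))) := by
            have : Real.exp (D * 2 ^ (r + 1) / 9)
                = Real.exp (D * 2 ^ r / 9) * Real.exp (D * 2 ^ r / 9) := by
              rw [← Real.exp_add]; congr 1; ring
            rw [this]; ring
  unfold wt
  have hp : 0 ≤ ∏ r' ∈ Finset.range r, rho (y (r', j)) :=
    (Finset.prod_pos fun _ _ => rho_pos _).le
  split_ifs with h
  · have := h2 (r + 1)
    rw [Finset.prod_range_succ, Finset.prod_range_succ] at this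
    exact this
  · simp only [mul_one]
    refine (h2 r).trans ?_
    gcongr
    · norm_num
    · omega

/-- The Lipschitz property of the tilted occupation probabilities. -/
def LipAt [DecidableEq I] (q : Finset I → ℝ) (F : Finset I) (i : I) : Prop :=
  ∀ (z z' : I → ℝ) (η : ℝ), 0 ≤ η → (∀ j, 0 < z j) → (∀ j, 0 < z' j) →
    (∀ j, z j ≤ Real.exp η * z' j) → (∀ j, z' j ≤ Real.exp η * z j) →
    |ratio q F i z - ratio q F i z'| ≤ 20 * η

/-- The tilted occupation probabilities are probabilities. -/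
def ProbAt [DecidableEq I] (q : Finset I → ℝ) (F : Finset I) (i : I) : Prop :=
  ∀ z : I → ℝ, (∀ j, 0 < z j) → 0 ≤ ratio q F i z ∧ ratio q F i z ≤ 1

lemma abs_limsup_sub_limsup_le {u w : ℕ → ℝ} {c : ℝ} (hu : ∀ k, |u k| ≤ 1) (hw : ∀ k, |w k| ≤ 1)
    (h : ∀ k, |u k - w k| ≤ c) : |limsup u atTop - limsup w atTop| ≤ c := by
  have key : ∀ {u w : ℕ → ℝ}, (∀ k, |u k| ≤ 1) → (∀ k, |w k| ≤ 1) → (∀ k, u k ≤ w k + c) →
      limsup u atTop ≤ limsup w atTop + c := by
    intro u w hu hw h
    have hb : IsBoundedUnder (· ≤ ·) atTop w :=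
      isBoundedUnder_of ⟨1, fun k => (abs_le.1 (hw k)).2⟩
    have hc : IsCoboundedUnder (· ≤ ·) atTop w :=
      isCoboundedUnder_le_of_le atTop (x := -1) fun k => (abs_le.1 (hw k)).1
    rw [← limsup_add_const atTop w c hb hc]
    refine limsup_le_limsup (Eventually.of_forall h) ?_ ?_
    · exact isCoboundedUnder_le_of_le atTop (x := -1) fun k => (abs_le.1 (hu k)).1
    · exact isBoundedUnder_of ⟨1 + c, fun k => by linarith [(abs_le.1 (hw k)).2]⟩
  rw [abs_le]
  constructor
  · have := key hw hu fun k => by linarith [(abs_le.1 (h k)).1]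
    linarith
  · have := key hu hw fun k => by linarith [(abs_le.1 (h k)).2]
    linarith

lemma abs_limsup_le_one {u : ℕ → ℝ} (hu : ∀ k, |u k| ≤ 1) : |limsup u atTop| ≤ 1 := by
  have := abs_limsup_sub_limsup_le (w := fun _ => 0) (c := 1) hu (by simp) (by simpa using hu)
  simpa using this

variable [DecidableEq I] {q : Finset I → ℝ} {Fs : I → ℕ → Finset I}

lemma abs_two_ratio_le (hP : ∀ i k, ProbAt q (Fs i k) i) (T : I → ℝ) (x : ℕ × I → ℝ) (a : ℕ × I)
    (k : ℕ) : |2 * ratio q (Fs a.2 k) a.2 (wt T x a.1 a.2) - 1| ≤ 1 := by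
  have := hP a.2 k _ (wt_pos T x a.1 a.2)
  rw [abs_le]; constructor <;> linarith [this.1, this.2]

lemma abs_drift_le (hP : ∀ i k, ProbAt q (Fs i k) i) (T : I → ℝ) (x : ℕ × I → ℝ) (a : ℕ × I) :
    |drift q Fs T x a| ≤ 1 :=
  abs_limsup_le_one fun k => abs_two_ratio_le hP T x a k

lemma abs_drift_sub_le (hP : ∀ i k, ProbAt q (Fs i k) i) (hL : ∀ i k, LipAt q (Fs i k) i)
    (T : I → ℝ) (x y : ℕ × I → ℝ) (D : ℝ) (hD : ∀ a, |x a - y a| ≤ D * 2 ^ a.1) (a : ℕ × I) :
    |drift q Fs T x a - drift q Fs T y a| ≤ 9 * (D * 2 ^ a.1) := by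
  have hD0 : 0 ≤ D := by
    have := (abs_nonneg _).trans (hD (0, a.2))
    simpa using this
  refine abs_limsup_sub_limsup_le (fun k => abs_two_ratio_le hP T x a k)
    (fun k => abs_two_ratio_le hP T y a k) fun k => ?_
  have hD' : ∀ a, |y a - x a| ≤ D * 2 ^ a.1 := fun a => by rw [abs_sub_comm]; exact hD a
  have := hL a.2 k (wt T x a.1 a.2) (wt T y a.1 a.2) (D * 2 ^ (a.1 + 1) / 9) (by positivity)
    (wt_pos T x _ _) (wt_pos T y _ _) (wt_le T x y D hD _ _) (wt_le T y x D hD' _ _)
  have e : 2 * ratio q (Fs a.2 k) a.2 (wt T x a.1 a.2) - 1 -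
      (2 * ratio q (Fs a.2 k) a.2 (wt T y a.1 a.2) - 1)
      = 2 * (ratio q (Fs a.2 k) a.2 (wt T x a.1 a.2) - ratio q (Fs a.2 k) a.2 (wt T y a.1 a.2)) := by
    ring
  rw [e, abs_mul, abs_two, pow_succ] at *
  have : 0 ≤ D * 2 ^ a.1 := by positivity
  nlinarith

lemma abs_step_sub_le (hP : ∀ i k, ProbAt q (Fs i k) i) (hL : ∀ i k, LipAt q (Fs i k) i)
    (T : I → ℝ) (v x y : ℕ × I → ℝ) (D : ℝ) (hD : ∀ a, |x a - y a| ≤ D * 2 ^ a.1) (a : ℕ × I) :
    |step q Fs T v x a - step q Fs T v y a| ≤ D / 2 * 2 ^ a.1 := by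
  have h1 := abs_drift_sub_le hP hL T x y D hD a
  have h2 := abs_drift_le hP T y a
  have h3 := (abs_cl_sub_cl_le (x a) (y a)).trans (hD a)
  have h4 := abs_cl_le (x a)
  have h5 := abs_cl_le (y a)
  set E := D * 2 ^ a.1 with hE
  have e : step q Fs T v x a - step q Fs T v y a =
      ((drift q Fs T x a - drift q Fs T y a) * (1 - cl (x a) ^ 2)
        - drift q Fs T y a * ((cl (x a) - cl (y a)) * (cl (x a) + cl (y a)))) / 40 := by
    unfold step; ring
  have h6 : |1 - cl (x a) ^ 2| ≤ 1 := by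
    have := abs_le.1 h4
    rw [abs_le]; constructor <;> nlinarith [this.1, this.2]
  have h7 : |cl (x a) + cl (y a)| ≤ 2 := (abs_add_le _ _).trans (by linarith)
  have hE0 : 0 ≤ E := (abs_nonneg _).trans h3
  have h8 : |(drift q Fs T x a - drift q Fs T y a) * (1 - cl (x a) ^ 2)| ≤ 9 * E := by
    rw [abs_mul]
    calc _ ≤ 9 * E * 1 := mul_le_mul h1 h6 (abs_nonneg _) (by positivity)
      _ = _ := by ring
  have h9 : |drift q Fs T y a * ((cl (x a) - cl (y a)) * (cl (x a) + cl (y a)))| ≤ 2 * E := by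
    rw [abs_mul, abs_mul]
    calc _ ≤ 1 * (E * 2) := by gcongr
      _ = _ := by ring
  rw [e, abs_div, abs_of_pos (by norm_num : (0 : ℝ) < 40), div_le_iff₀ (by norm_num)]
  have := abs_sub (((drift q Fs T x a - drift q Fs T y a) * (1 - cl (x a) ^ 2)))
    (drift q Fs T y a * ((cl (x a) - cl (y a)) * (cl (x a) + cl (y a))))
  have e2 : D / 2 * 2 ^ a.1 * 40 = 20 * E := by rw [hE]; ring
  rw [e2]
  linarith

/-- A bounded fixed point of the step map is what the iteration reconstructs. -/
lemma recon_eq_of_fixed (hP : ∀ i k, ProbAt q (Fs i k) i) (hL : ∀ i k, LipAt q (Fs i k) i)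
    (T : I → ℝ) (v x : ℕ × I → ℝ) (hx : ∀ a, |x a| ≤ 1) (hfix : step q Fs T v x = x) :
    recon q Fs T v = x := by
  have key : ∀ n a, |iter q Fs T v n a - x a| ≤ (1 / 2) ^ n * 2 ^ a.1 := by
    intro n
    induction n with
    | zero =>
      intro a
      simp only [iter, zero_sub, abs_neg, pow_zero, one_mul]
      exact (hx a).trans (one_le_pow₀ (by norm_num))
    | succ n ih =>
      intro a
      have := abs_step_sub_le hP hL T v _ x _ ih a
      rw [hfix] at this
      simp only [iter]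
      refine this.trans (le_of_eq ?_)
      ring
  ext a
  unfold recon
  apply Tendsto.limsup_eq
  rw [tendsto_iff_norm_sub_tendsto_zero]
  refine squeeze_zero (fun _ => norm_nonneg _) (fun n => key n a) ?_
  have := (tendsto_pow_atTop_nhds_zero_of_lt_one (r := (1 / 2 : ℝ)) (by norm_num)
    (by norm_num)).mul_const ((2 : ℝ) ^ a.1)
  simpa using this

end Crest.Agent.FIID
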