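import Mathlib

/-!
Passing a finite-window prediction identity to the limit by Lévy's upward theorem.
-/

open MeasureTheory Set Filter Topology

namespace Crest.Agent.FIID

lemma measurable_indicator_pi {J : Type*} (B : Set J) :
    Measurable fun x : J → ℝ => B.indicator x := by
  classical
  refine measurable_pi_iff.2 fun a => ?_
  by_cases ha : a ∈ B
  · simp only [indicator_of_mem ha]; exact measurable_pi_apply a
  · simp only [indicator_of_notMem ha]; exact measurable_const

lemma integrable_of_bdd {Ω : Type*} [MeasurableSpace Ω] {P : Measure Ω} [IsFiniteMeasure P]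
    {f : Ω → ℝ} (hf : Measurable f) (C : ℝ) (hC : ∀ x, |f x| ≤ C) : Integrable f P :=
  Integrable.of_bound hf.aestronglyMeasurable C (Eventually.of_forall hC)

lemma levy_window {Ω J : Type*} [mΩ : MeasurableSpace Ω] (P : Measure Ω) [IsProbabilityMeasure P]
    (Y : Ω → J → ℝ) (hY : Measurable Y) (B : ℕ → Set J) (hB : Monotone B)
    (g : Ω → ℝ) (hg : Measurable g) (hg1 : ∀ ω, |g ω| ≤ 1)
    (m : ℕ → (J → ℝ) → ℝ) (hm : ∀ k, Measurable (m k)) (hm1 : ∀ k x, |m k x| ≤ 1)
    (hmB : ∀ k x, m k ((B k).indicator x) = m k x)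
    (hid : ∀ k (h : (J → ℝ) → ℝ), Measurable h → (∀ x, |h x| ≤ 1) →
      ∫ ω, h ((B k).indicator (Y ω)) * g ω ∂P = ∫ ω, h ((B k).indicator (Y ω)) * m k (Y ω) ∂P)
    (H : (J → ℝ) → ℝ) (hH : Measurable H) (hH1 : ∀ x, |H x| ≤ 1) :
    ∫ ω, H ((⋃ k, B k).indicator (Y ω)) * g ω ∂P =
      ∫ ω, H ((⋃ k, B k).indicator (Y ω)) * limsup (fun k => m k (Y ω)) atTop ∂P := by
  classical
  set Z : ℕ → Ω → J → ℝ := fun k ω => (B k).indicator (Y ω) with hZ
  have hZm : ∀ k, Measurable (Z k) := fun k => (measurable_indicator_pi _).comp hY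
  let ℱ : Filtration ℕ mΩ :=
    { seq := fun k => MeasurableSpace.comap (Z k) MeasurableSpace.pi
      mono' := by
        intro k l hkl
        have : Z k = (fun x : J → ℝ => (B k).indicator x) ∘ Z l := by
          ext ω a
          simp only [hZ, Function.comp]
          by_cases ha : a ∈ B k
          · simp [indicator_of_mem ha, indicator_of_mem (hB hkl ha)]
          · simp [indicator_of_notMem ha]
        show MeasurableSpace.comap (Z k) _ ≤ MeasurableSpace.comap (Z l) _
        rw [this, ← MeasurableSpace.comap_comp]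
        exact MeasurableSpace.comap_mono (measurable_indicator_pi _).comap_le
      le' := fun k => (hZm k).comap_le }
  have hgi : Integrable g P := integrable_of_bdd hg 1 hg1
  have hce : ∀ k, (fun ω => m k (Y ω)) =ᵐ[P] P[g | ℱ k] := by
    intro k
    refine ae_eq_condExp_of_forall_setIntegral_eq (ℱ.le k) hgi ?_ ?_ ?_
    · intro s _ _
      exact (integrable_of_bdd ((hm k).comp hY) 1 fun ω => hm1 k _).integrableOn
    · rintro s ⟨t, ht, rfl⟩ _
      have h1 := hid k (t.indicator 1) (measurable_one.indicator ht) (by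
        intro x; by_cases hx : x ∈ t <;> simp [hx])
      have hs : MeasurableSet (Z k ⁻¹' t) := hZm k ht
      rw [← integral_indicator hs, ← integral_indicator hs]
      convert h1.symm using 2 <;> ext ω <;> by_cases hx : Z k ω ∈ t
      all_goals
        have hx' := hx
        simp only [hZ] at hx'
        simp [indicator, hx, hx']
    · have : (fun ω => m k (Y ω)) = m k ∘ Z k := by
        ext ω; simp only [Function.comp, hZ, hmB]
      rw [this]
      refine StronglyMeasurable.aestronglyMeasurable (Measurable.stronglyMeasurable ?_)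
      exact (hm k).comp (comap_measurable (Z k))
  have hlim : ∀ᵐ ω ∂P, limsup (fun k => m k (Y ω)) atTop = (P[g | ⨆ k, ℱ k]) ω := by
    have h1 := tendsto_ae_condExp (μ := P) (ℱ := ℱ) g
    have h2 := ae_all_iff.2 hce
    filter_upwards [h1, h2] with ω h1 h2
    apply Tendsto.limsup_eq
    exact h1.congr fun k => (h2 k).symm
  have hle : (⨆ k, ℱ k) ≤ mΩ := iSup_le fun k => ℱ.le k
  have hHm : Measurable[⨆ k, ℱ k] fun ω => H ((⋃ k, B k).indicator (Y ω)) := by
    refine hH.comp ?_
    refine (@measurable_pi_iff Ω J (fun _ => ℝ) (⨆ k, ℱ k) _ _).2 fun a => ?_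
    by_cases ha : a ∈ ⋃ k, B k
    · simp only [indicator_of_mem ha]
      obtain ⟨k, hk⟩ := mem_iUnion.1 ha
      have : (fun ω => Y ω a) = (fun x : J → ℝ => x a) ∘ Z k := by
        ext ω; simp [hZ, indicator_of_mem hk]
      rw [this]
      refine Measurable.mono ?_ (le_iSup (fun k => ℱ k) k) le_rfl
      exact (measurable_pi_apply a).comp (comap_measurable (Z k))
    · simp only [indicator_of_notMem ha]
      exact @measurable_const _ _ _ (⨆ k, ℱ k) _
  have hpull := condExp_stronglyMeasurable_mul_of_bound (μ := P) hle hHm.stronglyMeasurable hgi 1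
    (Eventually.of_forall fun ω => hH1 _)
  have e1 : ∫ ω, H ((⋃ k, B k).indicator (Y ω)) * g ω ∂P =
      ∫ ω, (P[(fun ω => H ((⋃ k, B k).indicator (Y ω))) * g | ⨆ k, ℱ k]) ω ∂P := by
    rw [integral_condExp hle]; rfl
  rw [e1]
  refine integral_congr_ae ?_
  filter_upwards [hpull, hlim] with ω h1 h2
  rw [h1, h2]; rfl

end Crest.Agent.FIID
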