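import Mathlib

/-!
General facts on infinite product measures: finite-dimensional densities and resampling of one
coordinate.
-/

open MeasureTheory Set ProbabilityTheory
open scoped ENNReal

namespace Crest.Agent.FIID

variable {ι X : Type*} [MeasurableSpace X] [DecidableEq ι]

omit [DecidableEq ι] in
lemma lintegral_prod_infinitePi (μ : ι → Measure X) [∀ i, IsProbabilityMeasure (μ i)]
    (s : Finset ι) (g : ι → X → ℝ≥0∞) (hg : ∀ i, Measurable (g i)) :
    ∫⁻ x, ∏ i ∈ s, g i (x i) ∂Measure.infinitePi μ = ∏ i ∈ s, ∫⁻ t, g i t ∂μ i := by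
  have hind : iIndepFun (fun i (x : ι → X) => g i (x i)) (Measure.infinitePi μ) :=
    iIndepFun_infinitePi (X := fun i t => g i t) hg
  rw [lintegral_prod_eq_prod_lintegral_of_indepFun s _ hind
    (fun i => (hg i).comp (measurable_pi_apply i))]
  refine Finset.prod_congr rfl fun i _ => ?_
  rw [← Measure.infinitePi_map_eval μ i, lintegral_map (hg i) (measurable_pi_apply i)]

lemma infinitePi_withDensity (μ : ι → Measure X) [∀ i, IsProbabilityMeasure (μ i)]
    (B : Finset ι) (f : ι → X → ℝ≥0∞) (hf : ∀ i, Measurable (f i))
    (hp : ∀ i, IsProbabilityMeasure ((μ i).withDensity (f i))) :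
    (Measure.infinitePi μ).withDensity (fun x => ∏ b ∈ B, f b (x b)) =
      Measure.infinitePi (fun a => if a ∈ B then (μ a).withDensity (f a) else μ a) := by
  have : ∀ a, IsProbabilityMeasure (if a ∈ B then (μ a).withDensity (f a) else μ a) := by
    intro a; split_ifs
    · exact hp a
    · infer_instance
  refine Measure.eq_infinitePi _ fun s t ht => ?_
  have hm : MeasurableSet (Set.pi (s : Set ι) t) := .pi s.countable_toSet fun _ _ => ht _
  rw [withDensity_apply _ hm, ← lintegral_indicator hm]
  set g : ι → X → ℝ≥0∞ := fun c y =>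
    (if c ∈ s then (t c).indicator 1 y else 1) * (if c ∈ B then f c y else 1) with hg
  have hgm : ∀ c, Measurable (g c) := by
    intro c
    refine Measurable.mul ?_ ?_
    · split_ifs
      · exact measurable_one.indicator (ht c)
      · exact measurable_const
    · split_ifs
      · exact hf c
      · exact measurable_const
  have e1 : ∀ x : ι → X, (Set.pi (s : Set ι) t).indicator (fun x => ∏ b ∈ B, f b (x b)) x
      = ∏ c ∈ s ∪ B, g c (x c) := by
    intro x
    simp only [hg, Finset.prod_mul_distrib]
    rw [Finset.prod_ite_mem, Finset.prod_ite_mem, Finset.union_inter_cancel_left,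
      Finset.union_inter_cancel_right]
    by_cases hx : x ∈ Set.pi (s : Set ι) t
    · rw [indicator_of_mem hx, Finset.prod_eq_one (s := s), one_mul]
      intro c hc
      rw [indicator_of_mem (hx c hc)]; rfl
    · rw [indicator_of_notMem hx]
      simp only [mem_pi, Finset.mem_coe, not_forall] at hx
      obtain ⟨c, hc, hxc⟩ := hx
      rw [Finset.prod_eq_zero hc (indicator_of_notMem hxc _), zero_mul]
  simp_rw [e1]
  rw [lintegral_prod_infinitePi μ _ g hgm]
  symm
  refine Finset.prod_subset_one_on_sdiff Finset.subset_union_left ?_ ?_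
  · intro c hc
    have hcs : c ∉ s := (Finset.mem_sdiff.1 hc).2
    have hcB : c ∈ B := by
      rcases Finset.mem_union.1 (Finset.mem_sdiff.1 hc).1 with h | h
      · exact absurd h hcs
      · exact h
    simp only [hg, hcs, hcB, if_true, if_false, one_mul]
    have := (hp c).measure_univ
    rwa [withDensity_apply _ MeasurableSet.univ, Measure.restrict_univ] at this
  · intro c hc
    by_cases hcB : c ∈ B
    · simp only [hg, hc, hcB, if_true]
      rw [withDensity_apply _ (ht c), ← lintegral_indicator (ht c)]
      congr 1; ext y
      by_cases hy : y ∈ t c <;> simp [hy]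
    · simp only [hg, hc, hcB, if_true, if_false, mul_one]
      rw [lintegral_indicator_one (ht c)]

lemma map_update_infinitePi (μ : ι → Measure X) [∀ i, IsProbabilityMeasure (μ i)] (a : ι) :
    ((Measure.infinitePi μ).prod (μ a)).map (fun p => Function.update p.1 a p.2)
      = Measure.infinitePi μ := by
  refine Measure.eq_infinitePi _ fun s t ht => ?_
  have hm : MeasurableSet (Set.pi (s : Set ι) t) := .pi s.countable_toSet fun _ _ => ht _
  rw [Measure.map_apply measurable_update' hm]
  by_cases ha : a ∈ s
  · have : (fun p : (ι → X) × X => Function.update p.1 a p.2) ⁻¹' Set.pi (s : Set ι) t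
        = (Set.pi ((s.erase a : Finset ι) : Set ι) t) ×ˢ t a := by
      ext ⟨x, y⟩
      simp only [mem_preimage, mem_pi, Finset.mem_coe, mem_prod, Finset.mem_erase]
      constructor
      · intro h
        refine ⟨fun i hi => ?_, ?_⟩
        · have := h i hi.2
          rwa [Function.update_of_ne hi.1] at this
        · simpa using h a ha
      · rintro ⟨h1, h2⟩ i hi
        by_cases hia : i = a
        · subst hia; simpa using h2
        · rw [Function.update_of_ne hia]; exact h1 i ⟨hia, hi⟩
    rw [this, Measure.prod_prod, Measure.infinitePi_pi _ (fun i _ => ht i),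
      Finset.prod_erase_mul _ _ ha]
  · have : (fun p : (ι → X) × X => Function.update p.1 a p.2) ⁻¹' Set.pi (s : Set ι) t
        = (Set.pi (s : Set ι) t) ×ˢ univ := by
      ext ⟨x, y⟩
      simp only [mem_preimage, mem_pi, Finset.mem_coe, mem_prod, mem_univ, and_true]
      refine forall_congr' fun i => forall_congr' fun hi => ?_
      rw [Function.update_of_ne (by rintro rfl; exact ha hi)]
    rw [this, Measure.prod_prod, Measure.infinitePi_pi _ (fun i _ => ht i)]
    simp

end Crest.Agent.FIID
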