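import Crest.Agent.FIID.OneDim
import Crest.Agent.FIID.Prod
import Crest.Agent.FIID.Levy

/-!
The true process and the Bayes formula for its finite windows.
-/

open MeasureTheory Set Filter Topology

namespace Crest.Agent.FIID

variable {I : Type*}

/-- The observations of the true process. -/
noncomputable def obs (p : (I → Bool) × (ℕ × I → ℝ)) (a : ℕ × I) : ℝ := sg (p.1 a.2) * p.2 a

/-- The noise law. -/
noncomputable def noise (I : Type*) : Measure (ℕ × I → ℝ) :=
  Measure.infinitePi fun _ : ℕ × I => lam 1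

/-- The innovation law. -/
noncomputable def innovLaw (I : Type*) : Measure (ℕ × I → ℝ) :=
  Measure.infinitePi fun _ : ℕ × I => unif

instance : IsProbabilityMeasure (noise I) := by unfold noise; infer_instance
instance : IsProbabilityMeasure (innovLaw I) := by unfold innovLaw; infer_instance

/-- The inclusion probabilities of a law on configurations. -/
noncomputable def incl (ν : Measure (I → Bool)) (S : Finset I) : ℝ :=
  ν.real {ω | ∀ j ∈ S, ω j = true}

/-- Indices preceding `a`. -/
def before (T : I → ℝ) (a : ℕ × I) : Set (ℕ × I) :=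
  {b | b.1 < a.1 ∨ (b.1 = a.1 ∧ T b.2 < T a.2)}

lemma measurable_obs : Measurable (obs : (I → Bool) × (ℕ × I → ℝ) → ℕ × I → ℝ) := by
  refine measurable_pi_iff.2 fun a => ?_
  unfold obs
  fun_prop

lemma integral_window [DecidableEq I] (B : Finset (ℕ × I)) (ω : I → Bool)
    (h : (ℕ × I → ℝ) → ℝ) (hh : Measurable h) :
    ∫ ξ, h ((B : Set (ℕ × I)).indicator (obs (ω, ξ))) ∂noise I =
      ∫ x, (∏ b ∈ B, (1 + sg (ω b.2) * cl (x b) / 20)) * h ((B : Set (ℕ × I)).indicator x)
        ∂innovLaw I := by
  have hp : ∀ b : ℕ × I, IsProbabilityMeasure (lam (sg (ω b.2))) := fun b =>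
    isProbabilityMeasure_lam (abs_sg _).le
  have hd := infinitePi_withDensity (fun _ : ℕ × I => unif) B
    (fun b y => ENNReal.ofReal (1 + sg (ω b.2) * cl y / 20)) (fun b => by fun_prop) hp
  have hpos : ∀ (b : ℕ × I) (y : ℝ), 0 < 1 + sg (ω b.2) * cl y / 20 := fun b y =>
    dens_pos (abs_sg _).le y
  have e1 : ∫ x, (∏ b ∈ B, (1 + sg (ω b.2) * cl (x b) / 20)) * h ((B : Set (ℕ × I)).indicator x)
        ∂innovLaw I = ∫ x, h ((B : Set (ℕ × I)).indicator x) ∂(innovLaw I).withDensity
          (fun x => ∏ b ∈ B, ENNReal.ofReal (1 + sg (ω b.2) * cl (x b) / 20)) := by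
    rw [integral_withDensity_eq_integral_toReal_smul]
    · refine integral_congr_ae (Eventually.of_forall fun x => ?_)
      simp only [smul_eq_mul, ENNReal.toReal_prod]
      congr 1
      exact Finset.prod_congr rfl fun b _ => (ENNReal.toReal_ofReal (hpos b _).le).symm
    · exact Finset.measurable_prod _ fun b _ => by fun_prop
    · exact Eventually.of_forall fun x => ENNReal.prod_lt_top fun b _ => ENNReal.ofReal_lt_top
  rw [e1]
  unfold innovLaw
  rw [hd]
  have : ∀ a : ℕ × I, IsProbabilityMeasure (if a ∈ B then unif.withDensity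
      (fun y => ENNReal.ofReal (1 + sg (ω a.2) * cl y / 20)) else unif) := by
    intro a; split_ifs
    · exact hp a
    · infer_instance
  set f1 : ℕ × I → ℝ → ℝ := fun a t => if a ∈ B then sg (ω a.2) * t else 0 with hf1
  set f2 : ℕ × I → ℝ → ℝ := fun a t => if a ∈ B then t else 0 with hf2
  have hf1m : ∀ a, Measurable (f1 a) := by
    intro a; simp only [hf1]; split_ifs <;> fun_prop
  have hf2m : ∀ a, Measurable (f2 a) := by
    intro a; simp only [hf2]; split_ifs <;> fun_prop
  have l1 : ∀ ξ, (B : Set (ℕ × I)).indicator (obs (ω, ξ)) = fun a => f1 a (ξ a) := by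
    intro ξ; ext a; by_cases ha : a ∈ B <;> simp [hf1, ha, obs]
  have l2 : ∀ x : ℕ × I → ℝ, (B : Set (ℕ × I)).indicator x = fun a => f2 a (x a) := by
    intro ξ; ext a; by_cases ha : a ∈ B <;> simp [hf2, ha]
  simp_rw [l1, l2]
  have m1 : Measurable fun (ξ : ℕ × I → ℝ) a => f1 a (ξ a) :=
    measurable_pi_iff.2 fun a => (hf1m a).comp (measurable_pi_apply a)
  have m2 : Measurable fun (ξ : ℕ × I → ℝ) a => f2 a (ξ a) :=
    measurable_pi_iff.2 fun a => (hf2m a).comp (measurable_pi_apply a)
  rw [← integral_map m1.aemeasurable hh.aestronglyMeasurable,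
    ← integral_map m2.aemeasurable hh.aestronglyMeasurable]
  unfold noise
  rw [Measure.infinitePi_map_pi _ hf1m, Measure.infinitePi_map_pi _ hf2m]
  congr 2
  ext1 a
  by_cases ha : a ∈ B
  · simp only [hf1, hf2, ha, if_true]
    rw [lam_map_sg, Measure.map_id']
    rfl
  · simp only [hf1, hf2, ha, if_false, Measure.map_const, measure_univ]

/-- The finite window of observations before `(r, i)` at sites of `F`. -/
noncomputable def window [DecidableEq I] (T : I → ℝ) (F : Finset I) (r : ℕ) (i : I) :
    Finset (ℕ × I) :=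
  (Finset.range r ×ˢ F) ∪ ({r} ×ˢ F.filter (fun j => T j < T i))

lemma mem_window [DecidableEq I] (T : I → ℝ) (F : Finset I) (r : ℕ) (i : I) (b : ℕ × I) :
    b ∈ window T F r i ↔ b.2 ∈ F ∧ b ∈ before T (r, i) := by
  unfold window before
  simp only [Finset.mem_union, Finset.mem_product, Finset.mem_range, Finset.mem_singleton,
    Finset.mem_filter, mem_ofPred_eq]
  tauto

lemma prod_window [DecidableEq I] (T : I → ℝ) (F : Finset I) (r : ℕ) (i : I) (f : ℕ × I → ℝ) :
    ∏ b ∈ window T F r i, f b = ∏ j ∈ F, ((∏ r' ∈ Finset.range r, f (r', j)) *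
      (if T j < T i then f (r, j) else 1)) := by
  unfold window
  rw [Finset.prod_union, Finset.prod_product_right, Finset.prod_product, Finset.prod_singleton,
    Finset.prod_filter, Finset.prod_mul_distrib]
  rw [Finset.disjoint_left]
  rintro ⟨a, b⟩ h1 h2
  simp only [Finset.mem_product, Finset.mem_range, Finset.mem_singleton] at h1 h2
  omega

lemma dens_eq (b : Bool) (y : ℝ) :
    1 + sg b * cl y / 20 = (1 - cl y / 20) * (if b then rho y else 1) := by
  have := abs_le.1 (abs_cl_le y)
  cases b
  · simp [sg]; ring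
  · have h : 1 - cl y / 20 ≠ 0 := by linarith [this.2]
    simp only [sg, if_true, rho]
    rw [mul_div_cancel₀ _ h, one_mul]

lemma prod_dens_window [DecidableEq I] (T : I → ℝ) (F : Finset I) (r : ℕ) (i : I) (ω : I → Bool)
    (x : ℕ × I → ℝ) :
    ∏ b ∈ window T F r i, (1 + sg (ω b.2) * cl (x b) / 20) =
      (∏ b ∈ window T F r i, (1 - cl (x b) / 20)) *
        ∑ S ∈ F.powerset, (if ∀ j ∈ S, ω j = true then 1 else 0) *
          ∏ j ∈ S, (wt T x r i j - 1) := by
  simp_rw [dens_eq]
  rw [Finset.prod_mul_distrib]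
  congr 1
  rw [prod_window]
  have : ∀ j ∈ F, (∏ r' ∈ Finset.range r, (if ω j = true then rho (x (r', j)) else 1)) *
      (if T j < T i then (if ω j = true then rho (x (r, j)) else 1) else 1)
      = 1 + (if ω j = true then 1 else 0) * (wt T x r i j - 1) := by
    intro j _
    by_cases h : ω j = true
    · simp [h, wt]
    · simp [h]
  rw [Finset.prod_congr rfl this, Finset.prod_one_add]
  refine Finset.sum_congr rfl fun S _ => ?_
  rw [Finset.prod_mul_distrib, Finset.prod_ite_zero]
  simp

lemma measurableSet_incl (S : Finset I) : MeasurableSet {ω : I → Bool | ∀ j ∈ S, ω j = true} := by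
  have : {ω : I → Bool | ∀ j ∈ S, ω j = true} = ⋂ j ∈ S, {ω | ω j = true} := by
    ext; simp
  rw [this]
  exact Finset.measurableSet_biInter _ fun j _ =>
    measurableSet_eq_fun (measurable_pi_apply j) measurable_const

lemma integral_incl (ν : Measure (I → Bool)) (S : Finset I)
    [∀ ω : I → Bool, Decidable (∀ j ∈ S, ω j = true)] :
    ∫ ω, (if ∀ j ∈ S, ω j = true then (1 : ℝ) else 0) ∂ν = incl ν S := by
  unfold incl
  rw [← integral_indicator_one (measurableSet_incl S)]
  congr 1; ext ω
  simp [indicator]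

lemma measurable_ite_incl (S : Finset I) [∀ ω : I → Bool, Decidable (∀ j ∈ S, ω j = true)] :
    Measurable fun ω : I → Bool => (if ∀ j ∈ S, ω j = true then (1 : ℝ) else 0) :=
  Measurable.ite (measurableSet_incl S) measurable_const measurable_const

variable [DecidableEq I] (ν : Measure (I → Bool)) [IsProbabilityMeasure ν]

lemma integral_dens_den (T : I → ℝ) (F : Finset I) (r : ℕ) (i : I) (x : ℕ × I → ℝ) :
    ∫ ω, ∏ b ∈ window T F r i, (1 + sg (ω b.2) * cl (x b) / 20) ∂ν =
      (∏ b ∈ window T F r i, (1 - cl (x b) / 20)) * den (incl ν) F (wt T x r i) := by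
  simp_rw [prod_dens_window]
  rw [integral_const_mul, integral_finsetSum]
  · congr 1
    unfold den
    refine Finset.sum_congr rfl fun S _ => ?_
    rw [integral_mul_const, integral_incl]
  · intro S _
    refine Integrable.mul_const (integrable_of_bdd (measurable_ite_incl S) 1 fun ω => ?_) _
    split_ifs <;> simp

lemma integral_dens_num (T : I → ℝ) (F : Finset I) (r : ℕ) (i i' : I) (x : ℕ × I → ℝ) :
    ∫ ω, (if ω i' = true then 1 else 0) *
        ∏ b ∈ window T F r i, (1 + sg (ω b.2) * cl (x b) / 20) ∂ν =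
      (∏ b ∈ window T F r i, (1 - cl (x b) / 20)) * num (incl ν) F i' (wt T x r i) := by
  have : ∀ ω : I → Bool, (if ω i' = true then (1 : ℝ) else 0) *
        ∏ b ∈ window T F r i, (1 + sg (ω b.2) * cl (x b) / 20) =
      (∏ b ∈ window T F r i, (1 - cl (x b) / 20)) *
        ∑ S ∈ F.powerset, (if ∀ j ∈ insert i' S, ω j = true then 1 else 0) *
          ∏ j ∈ S, (wt T x r i j - 1) := by
    intro ω
    rw [prod_dens_window]
    by_cases h : ω i' = true
    · simp [h]
    · simp [h]
  simp_rw [this]
  rw [integral_const_mul, integral_finsetSum]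
  · congr 1
    unfold num
    refine Finset.sum_congr rfl fun S _ => ?_
    rw [integral_mul_const, integral_incl]
  · intro S _
    refine Integrable.mul_const (integrable_of_bdd (measurable_ite_incl _) 1 fun ω => ?_) _
    split_ifs <;> simp

omit [DecidableEq I] in
lemma prod_dens_bounds (B : Finset (ℕ × I)) (ω : I → Bool) (x : ℕ × I → ℝ) :
    (1 / 2) ^ B.card ≤ ∏ b ∈ B, (1 + sg (ω b.2) * cl (x b) / 20) ∧
      ∏ b ∈ B, (1 + sg (ω b.2) * cl (x b) / 20) ≤ 2 ^ B.card := by
  have h : ∀ b : ℕ × I, |sg (ω b.2) * cl (x b)| ≤ 1 := fun b => by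
    rw [abs_mul, abs_sg, one_mul]; exact abs_cl_le _
  rw [← Finset.prod_const, ← Finset.prod_const]
  constructor
  · exact Finset.prod_le_prod (fun _ _ => by norm_num) fun b _ => by
      linarith [(abs_le.1 (h b)).1]
  · exact Finset.prod_le_prod (fun b _ => by linarith [(abs_le.1 (h b)).1]) fun b _ => by
      linarith [(abs_le.1 (h b)).2]

omit [DecidableEq I] in
lemma abs_prod_dens_le (B : Finset (ℕ × I)) (ω : I → Bool) (x : ℕ × I → ℝ) :
    |∏ b ∈ B, (1 + sg (ω b.2) * cl (x b) / 20)| ≤ 2 ^ B.card := by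
  have := prod_dens_bounds B ω x
  rw [abs_of_nonneg (le_trans (by positivity) this.1)]
  exact this.2

omit [DecidableEq I] in
lemma measurable_prod_dens (B : Finset (ℕ × I)) :
    Measurable fun p : (I → Bool) × (ℕ × I → ℝ) =>
      ∏ b ∈ B, (1 + sg (p.1 b.2) * cl (p.2 b) / 20) :=
  Finset.measurable_prod _ fun b _ => by fun_prop

lemma den_pos (T : I → ℝ) (F : Finset I) (r : ℕ) (i : I) (x : ℕ × I → ℝ) :
    den (incl ν) F (wt T x r i) ≠ 0 := by
  intro h
  have h1 := integral_dens_den ν T F r i x
  rw [h, mul_zero] at h1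
  have h2 : ∫ _ω, ((1 / 2 : ℝ)) ^ (window T F r i).card ∂ν ≤
      ∫ ω, ∏ b ∈ window T F r i, (1 + sg (ω b.2) * cl (x b) / 20) ∂ν := by
    refine integral_mono (integrable_const _) ?_ fun ω => (prod_dens_bounds _ ω x).1
    exact integrable_of_bdd ((measurable_prod_dens _).comp (measurable_prodMk_right (y := x))) _
      fun ω => abs_prod_dens_le _ ω x
  rw [h1] at h2
  simp only [integral_const, probReal_univ, smul_eq_mul, one_mul] at h2
  have : (0 : ℝ) < (1 / 2) ^ (window T F r i).card := by positivity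
  linarith

lemma bayes_swap (B : Finset (ℕ × I)) (ψ : (I → Bool) → ℝ) (hψ : Measurable ψ)
    (hψ1 : ∀ ω, |ψ ω| ≤ 1) (H : (ℕ × I → ℝ) → ℝ) (hH : Measurable H) (hH1 : ∀ x, |H x| ≤ 1) :
    ∫ p, H ((B : Set (ℕ × I)).indicator (obs p)) * ψ p.1 ∂(ν.prod (noise I)) =
      ∫ x, H ((B : Set (ℕ × I)).indicator x) *
        (∫ ω, ψ ω * ∏ b ∈ B, (1 + sg (ω b.2) * cl (x b) / 20) ∂ν) ∂innovLaw I := by
  have hm := measurable_indicator_pi (B : Set (ℕ × I))
  rw [integral_prod]
  · simp only [integral_mul_const]
    simp_rw [integral_window B _ H hH, ← integral_mul_const, ← integral_const_mul]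
    rw [integral_integral_swap]
    · congr 1; ext x; congr 1; ext ω; ring
    · refine integrable_of_bdd ?_ (2 ^ B.card) ?_
      · exact ((measurable_prod_dens B).mul ((hH.comp hm).comp measurable_snd)).mul
          (hψ.comp measurable_fst)
      · rintro ⟨ω, x⟩
        simp only [Function.uncurry_apply_pair, abs_mul]
        have h1 := abs_prod_dens_le B ω x
        have h2 := hH1 ((B : Set (ℕ × I)).indicator x)
        have h3 := hψ1 ω
        refine le_trans (b := (2 : ℝ) ^ B.card * 1 * 1) ?_ (by simp)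
        gcongr
  · refine integrable_of_bdd (((hH.comp hm).comp measurable_obs).mul (hψ.comp measurable_fst)) 1 ?_
    intro p
    rw [abs_mul]
    exact mul_le_one₀ (hH1 _) (abs_nonneg _) (hψ1 _)

omit [IsProbabilityMeasure ν] in
lemma ratio_congr (q : Finset I → ℝ) (F : Finset I) (i : I) {z z' : I → ℝ}
    (h : ∀ j ∈ F, z j = z' j) : ratio q F i z = ratio q F i z' := by
  unfold ratio num den
  congr 1 <;> refine Finset.sum_congr rfl fun S hS => ?_ <;> congr 1 <;>
    exact Finset.prod_congr rfl fun j hj => by rw [h j (Finset.mem_powerset.1 hS hj)]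

omit [DecidableEq I] in
lemma wt_congr (T : I → ℝ) (r : ℕ) (i j : I) {x x' : ℕ × I → ℝ}
    (h : ∀ r', (r', j) ∈ before T (r, i) → x (r', j) = x' (r', j)) :
    wt T x r i j = wt T x' r i j := by
  unfold wt
  congr 1
  · exact Finset.prod_congr rfl fun r' hr' => by
      rw [h r' (Or.inl (Finset.mem_range.1 hr'))]
  · split_ifs with hT
    · rw [h r (Or.inr ⟨rfl, hT⟩)]
    · rfl

lemma ratio_window (q : Finset I → ℝ) (T : I → ℝ) (F : Finset I) (r : ℕ) (i : I)
    (x : ℕ × I → ℝ) :
    ratio q F i (wt T ((window T F r i : Set (ℕ × I)).indicator x) r i) =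
      ratio q F i (wt T x r i) := by
  refine ratio_congr q F i fun j hj => wt_congr T r i j fun r' hr' => ?_
  rw [indicator_of_mem]
  exact (mem_window T F r i (r', j)).2 ⟨hj, hr'⟩

/-- Bayes formula on a finite window. -/
lemma bayes (T : I → ℝ) (F : Finset I) (r : ℕ) (i : I) (hP : ProbAt (incl ν) F i)
    (h : (ℕ × I → ℝ) → ℝ) (hh : Measurable h) (hh1 : ∀ x, |h x| ≤ 1) :
    ∫ p, h ((window T F r i : Set (ℕ × I)).indicator (obs p)) * sg (p.1 i) ∂(ν.prod (noise I)) =
      ∫ p, h ((window T F r i : Set (ℕ × I)).indicator (obs p)) *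
        (2 * ratio (incl ν) F i (wt T (obs p) r i) - 1) ∂(ν.prod (noise I)) := by
  have hR : ∀ x, |2 * ratio (incl ν) F i (wt T x r i) - 1| ≤ 1 := fun x => by
    have := hP _ (wt_pos T x r i)
    rw [abs_le]; constructor <;> linarith [this.1, this.2]
  have hRm : Measurable fun x => 2 * ratio (incl ν) F i (wt T x r i) - 1 :=
    ((measurable_ratio (q := fun _ => incl ν) (fun _ => measurable_const) F i
      fun j => measurable_wt (T := fun _ => T) (fun _ => measurable_const)
        (fun a => measurable_pi_apply a) r i j).const_mul _).sub_const _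
  have e1 := bayes_swap ν (window T F r i) (fun ω => sg (ω i)) (by fun_prop)
    (fun ω => (abs_sg _).le) h hh hh1
  have e2 := bayes_swap ν (window T F r i) (fun _ => 1) measurable_const (by simp)
    (fun x => h x * (2 * ratio (incl ν) F i (wt T x r i) - 1)) (hh.mul hRm) (fun x => by
      rw [abs_mul]; exact mul_le_one₀ (hh1 _) (abs_nonneg _) (hR x))
  simp only [ratio_window, mul_one, one_mul] at e2
  rw [e1, e2]
  congr 1; ext x
  have e3 : ∀ ω : I → Bool, sg (ω i) * ∏ b ∈ window T F r i, (1 + sg (ω b.2) * cl (x b) / 20)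
      = 2 * ((if ω i = true then 1 else 0) *
        ∏ b ∈ window T F r i, (1 + sg (ω b.2) * cl (x b) / 20))
        - ∏ b ∈ window T F r i, (1 + sg (ω b.2) * cl (x b) / 20) := by
    intro ω
    generalize (∏ b ∈ window T F r i, (1 + sg (ω b.2) * cl (x b) / 20)) = D
    cases ω i <;> simp [sg]
    ring
  have hD : Integrable (fun ω : I → Bool =>
      ∏ b ∈ window T F r i, (1 + sg (ω b.2) * cl (x b) / 20)) ν :=
    integrable_of_bdd ((measurable_prod_dens _).comp (measurable_prodMk_right (y := x))) _
      fun ω => abs_prod_dens_le _ ω x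
  simp_rw [e3]
  rw [integral_sub _ hD, integral_const_mul, integral_dens_num, integral_dens_den]
  · have := den_pos ν T F r i x
    unfold ratio
    generalize den (incl ν) F (wt T x r i) = d at *
    generalize num (incl ν) F i (wt T x r i) = n
    generalize (∏ b ∈ window T F r i, (1 - cl (x b) / 20)) = W
    generalize h ((window T F r i : Set (ℕ × I)).indicator x) = c
    field_simp
  · refine Integrable.const_mul (Integrable.bdd_mul (c := 1) hD ?_ ?_) _
    · exact (Measurable.ite (measurableSet_eq_fun (measurable_pi_apply i) measurable_const)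
        measurable_const measurable_const).aestronglyMeasurable
    · exact Eventually.of_forall fun ω => by split_ifs <;> simp

end Crest.Agent.FIID
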