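import Crest.Agent.FIID.Bayes

/-!
The core theorem: the soft revelation rule turns independent uniform innovations into the law `ν`.
-/

open MeasureTheory Set Filter Topology ProbabilityTheory

namespace Crest.Agent.FIID

variable {I : Type*} [DecidableEq I]

lemma drift_congr (q : Finset I → ℝ) (Fs : I → ℕ → Finset I) (T : I → ℝ) (a : ℕ × I)
    {x x' : ℕ × I → ℝ} (h : ∀ b ∈ before T a, x b = x' b) :
    drift q Fs T x a = drift q Fs T x' a := by
  unfold drift
  congr 1; ext k
  have : wt T x a.1 a.2 = wt T x' a.1 a.2 := by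
    ext j
    exact wt_congr T a.1 a.2 j fun r' hr' => h _ hr'
  rw [this]

omit [DecidableEq I] in
lemma not_mem_before (T : I → ℝ) (a : ℕ × I) : a ∉ before T a := by
  simp [before]

omit [DecidableEq I] in
lemma before_trans (T : I → ℝ) {a b c : ℕ × I} (h1 : c ∈ before T b) (h2 : b ∈ before T a) :
    c ∈ before T a := by
  unfold before at *
  simp only [mem_ofPred_eq] at *
  rcases h1 with h1 | ⟨h1, h1'⟩ <;> rcases h2 with h2 | ⟨h2, h2'⟩
  · left; omega
  · left; omega
  · left; omega
  · right; exact ⟨by omega, h1'.trans h2'⟩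

/-- The innovation extracted from observations. -/
noncomputable def innov (q : Finset I → ℝ) (Fs : I → ℕ → Finset I) (T : I → ℝ)
    (x : ℕ × I → ℝ) (a : ℕ × I) : ℝ :=
  x a - drift q Fs T x a * (1 - cl (x a) ^ 2) / 40

variable [Countable I]

lemma measurable_drift' (q : Finset I → ℝ) (Fs : I → ℕ → Finset I) (T : I → ℝ) (a : ℕ × I) :
    Measurable fun x => drift q Fs T x a :=
  measurable_drift (q := fun _ => q) (Fs := fun _ => Fs) (T := fun _ => T)
    (fun _ => measurable_const) (fun _ _ _ => MeasurableSet.const _) (fun _ => measurable_const)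
    (fun a => measurable_pi_apply a) a

lemma measurable_innov (q : Finset I → ℝ) (Fs : I → ℕ → Finset I) (T : I → ℝ) :
    Measurable (innov q Fs T) := by
  refine measurable_pi_iff.2 fun a => ?_
  unfold innov
  refine (measurable_pi_apply a).sub (Measurable.div_const ((measurable_drift' q Fs T a).mul ?_) _)
  exact measurable_const.sub ((measurable_cl.comp (measurable_pi_apply a)).pow_const 2)

variable (ν : Measure (I → Bool)) [IsProbabilityMeasure ν] {Fs : I → ℕ → Finset I}

omit [Countable I] in
/-- The drift is the conditional mean of the spin given the past. -/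
lemma drift_predicts (hP : ∀ i k, ProbAt (incl ν) (Fs i k) i) (hmono : ∀ i, Monotone (Fs i))
    (hex : ∀ i j, ∃ k, j ∈ Fs i k) (T : I → ℝ) (a : ℕ × I)
    (H : (ℕ × I → ℝ) → ℝ) (hH : Measurable H) (hH1 : ∀ x, |H x| ≤ 1) :
    ∫ p, H ((before T a).indicator (obs p)) * sg (p.1 a.2) ∂(ν.prod (noise I)) =
      ∫ p, H ((before T a).indicator (obs p)) * drift (incl ν) Fs T (obs p) a
        ∂(ν.prod (noise I)) := by
  have hU : (⋃ k, (window T (Fs a.2 k) a.1 a.2 : Set (ℕ × I))) = before T a := by
    ext b
    simp only [mem_iUnion, Finset.mem_coe, mem_window]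
    constructor
    · rintro ⟨k, _, h⟩; exact h
    · intro h
      obtain ⟨k, hk⟩ := hex a.2 b.2
      exact ⟨k, hk, h⟩
  have := levy_window (ν.prod (noise I)) obs measurable_obs
    (fun k => (window T (Fs a.2 k) a.1 a.2 : Set (ℕ × I))) (by
      intro k l hkl b hb
      simp only [Finset.mem_coe, mem_window] at hb ⊢
      exact ⟨hmono a.2 hkl hb.1, hb.2⟩)
    (fun p => sg (p.1 a.2)) (by fun_prop) (fun p => (abs_sg _).le)
    (fun k x => 2 * ratio (incl ν) (Fs a.2 k) a.2 (wt T x a.1 a.2) - 1)
    (fun k => ((measurable_ratio (q := fun _ => incl ν) (fun _ => measurable_const) _ _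
      fun j => measurable_wt (T := fun _ => T) (fun _ => measurable_const)
        (fun a => measurable_pi_apply a) _ _ j).const_mul _).sub_const _)
    (fun k x => abs_two_ratio_le hP T x a k)
    (fun k x => by rw [ratio_window])
    (fun k h hh hh1 => bayes ν T _ a.1 a.2 (hP a.2 k) h hh hh1) H hH hH1
  rw [hU] at this
  exact this

omit [Countable I] in
lemma integral_resample (a : ℕ × I) (f : (I → Bool) × (ℕ × I → ℝ) → ℝ) (hf : Measurable f)
    (hf1 : ∀ p, |f p| ≤ 1) :
    ∫ p, f p ∂(ν.prod (noise I)) =
      ∫ p, ∫ t, f (p.1, Function.update p.2 a t) ∂lam 1 ∂(ν.prod (noise I)) := by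
  have hm : Measurable fun z : ((I → Bool) × (ℕ × I → ℝ)) × ℝ =>
      f (z.1.1, Function.update z.1.2 a z.2) := by
    refine hf.comp (Measurable.prodMk (by fun_prop) ?_)
    exact measurable_update'.comp (f := fun z : ((I → Bool) × (ℕ × I → ℝ)) × ℝ => (z.1.2, z.2))
      (by fun_prop)
  rw [integral_prod _ (integrable_of_bdd hf 1 hf1), integral_prod]
  · congr 1; ext ω
    have h1 : noise I = ((noise I).prod (lam 1)).map (fun p => Function.update p.1 a p.2) :=
      (map_update_infinitePi (fun _ : ℕ × I => lam 1) a).symm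
    have hfω : Measurable fun y => f (ω, y) := hf.comp measurable_prodMk_left
    conv_lhs => rw [h1]
    rw [integral_map measurable_update'.aemeasurable hfω.aestronglyMeasurable, integral_prod]
    exact integrable_of_bdd (hfω.comp measurable_update') 1 fun _ => hf1 _
  · refine integrable_of_bdd hm.stronglyMeasurable.integral_prod_right'.measurable 1 fun p => ?_
    have := norm_integral_le_of_norm_le_const (μ := lam 1)
      (f := fun t => f (p.1, Function.update p.2 a t)) (C := 1)
      (Eventually.of_forall fun t => hf1 _)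
    simpa using this

/-- One innovation is uniform and independent of the past. -/
lemma innov_step (hP : ∀ i k, ProbAt (incl ν) (Fs i k) i) (hmono : ∀ i, Monotone (Fs i))
    (hex : ∀ i j, ∃ k, j ∈ Fs i k) (T : I → ℝ) (a : ℕ × I)
    (H : (ℕ × I → ℝ) → ℝ) (hH : Measurable H) (hH1 : ∀ x, |H x| ≤ 1)
    (φ : ℝ → ℝ) (hφ : Measurable φ) (hφ1 : ∀ x, |φ x| ≤ 1) :
    ∫ p, H ((before T a).indicator (obs p)) * φ (innov (incl ν) Fs T (obs p) a)
        ∂(ν.prod (noise I)) =
      (∫ p, H ((before T a).indicator (obs p)) ∂(ν.prod (noise I))) * ∫ x, φ x ∂unif := by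
  set A : ℝ → ℝ := fun m => ∫ x, φ (x - m * (1 - cl x ^ 2) / 40) ∂unif with hA
  set B : ℝ → ℝ := fun m => ∫ x, cl x / 20 * φ (x - m * (1 - cl x ^ 2) / 40) ∂unif with hB
  have hφm : Measurable fun z : ℝ × ℝ => φ (z.2 - z.1 * (1 - cl z.2 ^ 2) / 40) := by
    refine hφ.comp ?_; fun_prop
  have hφm' : Measurable fun z : ℝ × ℝ => cl z.2 / 20 * φ (z.2 - z.1 * (1 - cl z.2 ^ 2) / 40) := by
    refine Measurable.mul (by fun_prop) hφm
  have hAm : Measurable A := hφm.stronglyMeasurable.integral_prod_right'.measurable
  have hBm : Measurable B := hφm'.stronglyMeasurable.integral_prod_right'.measurable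
  have hb' : ∀ m x, |cl x / 20 * φ (x - m * (1 - cl x ^ 2) / 40)| ≤ 1 := by
    intro m x
    rw [abs_mul]
    refine mul_le_one₀ ?_ (abs_nonneg _) (hφ1 _)
    rw [abs_div]
    have := abs_cl_le x
    rw [div_le_one (by norm_num)]
    norm_num; linarith
  have hA1 : ∀ m, |A m| ≤ 1 := fun m => by
    simpa using norm_integral_le_of_norm_le_const (μ := unif)
      (f := fun x => φ (x - m * (1 - cl x ^ 2) / 40)) (C := 1) (Eventually.of_forall fun t => hφ1 _)
  have hB1 : ∀ m, |B m| ≤ 1 := fun m => by
    have := norm_integral_le_of_norm_le_const (μ := unif)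
      (f := fun x => cl x / 20 * φ (x - m * (1 - cl x ^ 2) / 40)) (C := 1)
      (Eventually.of_forall fun t => hb' m t)
    simpa only [probReal_univ, mul_one, Real.norm_eq_abs] using this
  have hAB : ∀ m s : ℝ, ∫ x, (1 + s * cl x / 20) * φ (x - m * (1 - cl x ^ 2) / 40) ∂unif
      = A m + s * B m := by
    intro m s
    simp only [hA, hB]
    rw [← integral_const_mul, ← integral_add]
    · congr 1; ext x; ring
    · exact integrable_of_bdd (hφm.comp measurable_prodMk_left) 1 fun _ => hφ1 _
    · exact (integrable_of_bdd (hφm'.comp measurable_prodMk_left) 1 fun _ => hb' _ _).const_mul _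
  have hind := measurable_indicator_pi (before T a)
  have hdm := measurable_drift' (incl ν) Fs T a
  have hHo : Measurable fun p => H ((before T a).indicator (obs p)) :=
    (hH.comp hind).comp measurable_obs
  rw [integral_resample ν a]
  rotate_left
  · exact hHo.mul (hφ.comp ((measurable_pi_apply a).comp
      ((measurable_innov _ Fs T).comp measurable_obs)))
  · intro p; rw [abs_mul]; exact mul_le_one₀ (hH1 _) (abs_nonneg _) (hφ1 _)
  have e1 : ∀ p : (I → Bool) × (ℕ × I → ℝ),
      ∫ t, H ((before T a).indicator (obs (p.1, Function.update p.2 a t))) *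
        φ (innov (incl ν) Fs T (obs (p.1, Function.update p.2 a t)) a) ∂lam 1
      = H ((before T a).indicator (obs p)) * A (drift (incl ν) Fs T (obs p) a) +
        (H ((before T a).indicator (obs p)) * B (drift (incl ν) Fs T (obs p) a)) * sg (p.1 a.2) := by
    intro p
    have hb : ∀ t, ∀ b ∈ before T a, obs (p.1, Function.update p.2 a t) b = obs p b := by
      intro t b hb
      have : b ≠ a := by rintro rfl; exact not_mem_before T _ hb
      simp [obs, Function.update_of_ne this]
    have h1 : ∀ t, (before T a).indicator (obs (p.1, Function.update p.2 a t))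
        = (before T a).indicator (obs p) := fun t => indicator_congr (hb t)
    have h2 : ∀ t, innov (incl ν) Fs T (obs (p.1, Function.update p.2 a t)) a
        = sg (p.1 a.2) * t - drift (incl ν) Fs T (obs p) a * (1 - cl (sg (p.1 a.2) * t) ^ 2) / 40 := by
      intro t
      unfold innov
      rw [drift_congr _ _ _ _ (hb t)]
      simp [obs]
    simp_rw [h1, h2]
    rw [integral_const_mul]
    have h3 := integral_map (μ := lam 1) (φ := fun t => sg (p.1 a.2) * t) (by fun_prop)
      (f := fun x => φ (x - drift (incl ν) Fs T (obs p) a * (1 - cl x ^ 2) / 40))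
      (hφm.comp measurable_prodMk_left).aestronglyMeasurable
    rw [← h3, lam_map_sg, integral_lam (abs_sg _).le, hAB]
    ring
  simp_rw [e1]
  have hd : ∀ p : (I → Bool) × (ℕ × I → ℝ), drift (incl ν) Fs T (obs p) a
      = drift (incl ν) Fs T ((before T a).indicator (obs p)) a := fun p =>
    drift_congr _ _ _ _ fun b hb => (indicator_of_mem hb _).symm
  have e2 := drift_predicts ν hP hmono hex T a (fun x => H x * B (drift (incl ν) Fs T x a))
    (hH.mul (hBm.comp hdm)) (fun x => by
      rw [abs_mul]; exact mul_le_one₀ (hH1 _) (abs_nonneg _) (hB1 _))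
  simp only [← hd] at e2
  have hdo : Measurable fun p => drift (incl ν) Fs T (obs p) a := hdm.comp measurable_obs
  have i1 : Integrable (fun p => H ((before T a).indicator (obs p)) *
      A (drift (incl ν) Fs T (obs p) a)) (ν.prod (noise I)) :=
    integrable_of_bdd (hHo.mul (hAm.comp hdo)) 1 fun p => by
      rw [abs_mul]; exact mul_le_one₀ (hH1 _) (abs_nonneg _) (hA1 _)
  rw [integral_add i1, e2, ← integral_add i1, ← integral_mul_const]
  · congr 1; ext p
    have hm := abs_drift_le hP T (obs p) a
    rw [← integral_pit hm φ, hAB]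
    ring
  · refine integrable_of_bdd ((hHo.mul (hBm.comp hdo)).mul hdo) 1 fun p => ?_
    rw [abs_mul, abs_mul]
    exact mul_le_one₀ (mul_le_one₀ (hH1 _) (abs_nonneg _) (hB1 _)) (abs_nonneg _)
      (abs_drift_le hP T _ a)
  · refine integrable_of_bdd ((hHo.mul (hBm.comp hdo)).mul (by fun_prop)) 1 fun p => ?_
    rw [abs_mul, abs_mul]
    exact mul_le_one₀ (mul_le_one₀ (hH1 _) (abs_nonneg _) (hB1 _)) (abs_nonneg _) (abs_sg _).le

/-- The innovations are independent and uniform. -/
lemma map_innov (hP : ∀ i k, ProbAt (incl ν) (Fs i k) i) (hmono : ∀ i, Monotone (Fs i))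
    (hex : ∀ i j, ∃ k, j ∈ Fs i k) (T : I → ℝ) (hT : Function.Injective T) :
    (ν.prod (noise I)).map (fun p => innov (incl ν) Fs T (obs p)) = innovLaw I := by
  have hV : Measurable fun p => innov (incl ν) Fs T (obs p) :=
    (measurable_innov _ Fs T).comp measurable_obs
  have key : ∀ (φ : ℕ × I → ℝ → ℝ), (∀ a, Measurable (φ a)) → (∀ a x, |φ a x| ≤ 1) →
      ∀ s : Finset (ℕ × I), ∫ p, ∏ a ∈ s, φ a (innov (incl ν) Fs T (obs p) a) ∂(ν.prod (noise I))
        = ∏ a ∈ s, ∫ x, φ a x ∂unif := by
    intro φ hφ hφ1 s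
    induction s using Finset.induction_on_max_value (fun a : ℕ × I => toLex (a.1, T a.2)) with
    | empty => simp
    | insert a s has hmax ih =>
      have hs : ∀ b ∈ s, b ∈ before T a := by
        intro b hb
        have h1 := hmax b hb
        rw [Prod.Lex.toLex_le_toLex] at h1
        rcases h1 with h1 | ⟨h1, h2⟩
        · exact Or.inl h1
        · refine Or.inr ⟨h1, lt_of_le_of_ne h2 fun h => has ?_⟩
          have : b = a := Prod.ext h1 (hT h)
          rwa [← this]
      have e : ∀ x, ∏ b ∈ s, φ b (innov (incl ν) Fs T ((before T a).indicator x) b)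
          = ∏ b ∈ s, φ b (innov (incl ν) Fs T x b) := by
        intro x
        refine Finset.prod_congr rfl fun b hb => ?_
        unfold innov
        rw [indicator_of_mem (hs b hb), drift_congr _ _ _ b (x' := x)]
        exact fun c hc => indicator_of_mem (before_trans T hc (hs b hb)) _
      have := innov_step ν hP hmono hex T a (fun x => ∏ b ∈ s, φ b (innov (incl ν) Fs T x b))
        (Finset.measurable_prod _ fun b _ => (hφ b).comp
          ((measurable_pi_apply b).comp (measurable_innov _ Fs T)))
        (fun x => by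
          rw [Finset.abs_prod]
          exact Finset.prod_le_one (fun _ _ => abs_nonneg _) fun b _ => hφ1 _ _)
        (φ a) (hφ a) (hφ1 a)
      simp only [e] at this
      simp_rw [Finset.prod_insert has]
      rw [← ih, mul_comm, ← this]
      congr 1; ext p; ring
  refine Measure.eq_infinitePi _ fun s t ht => ?_
  have hm : MeasurableSet (Set.pi (s : Set (ℕ × I)) t) := .pi s.countable_toSet fun _ _ => ht _
  have h1 := key (fun a => (t a).indicator 1) (fun a => measurable_one.indicator (ht a))
    (fun a x => by by_cases hx : x ∈ t a <;> simp [hx]) s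
  simp only [integral_indicator_one (ht _)] at h1
  have h2 : ∀ p, ∏ a ∈ s, (t a).indicator (1 : ℝ → ℝ) (innov (incl ν) Fs T (obs p) a)
      = ((fun p => innov (incl ν) Fs T (obs p)) ⁻¹' (Set.pi (s : Set (ℕ × I)) t)).indicator 1 p := by
    intro p
    by_cases hp : p ∈ (fun p => innov (incl ν) Fs T (obs p)) ⁻¹' (Set.pi (s : Set (ℕ × I)) t)
    · rw [indicator_of_mem hp, Finset.prod_eq_one]
      · rfl
      · intro a ha; rw [indicator_of_mem (hp a ha)]; rfl
    · rw [indicator_of_notMem hp]
      simp only [mem_preimage, Set.mem_pi, Finset.mem_coe, not_forall] at hp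
      obtain ⟨c, hc, hxc⟩ := hp
      exact Finset.prod_eq_zero hc (indicator_of_notMem hxc _)
  simp only [h2, integral_indicator_one (hV hm)] at h1
  rw [Measure.map_apply hV hm, ← ENNReal.toReal_eq_toReal_iff' (measure_ne_top _ _)
    (ENNReal.prod_ne_top fun _ _ => measure_ne_top _ _), ENNReal.toReal_prod]
  exact h1

omit [DecidableEq I] in
lemma ae_readBit : ∀ᵐ ξ ∂noise I, ∀ ω : I → Bool, readBit (obs (ω, ξ)) = ω := by
  have h : ∀ i : I, ∀ᵐ ξ ∂noise I,
      Tendsto (fun n : ℕ => (∑ r ∈ Finset.range n, ξ (r, i)) / (n : ℝ)) atTop (𝓝 (1 / 60)) := by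
    intro i
    have hlaw : ∀ a : ℕ × I, (noise I).map (fun ξ => ξ a) = lam 1 := fun a =>
      Measure.infinitePi_map_eval _ a
    have hint : Integrable (fun ξ : ℕ × I → ℝ => ξ (0, i)) (noise I) := by
      have : Integrable (fun x : ℝ => x) ((noise I).map (fun ξ => ξ (0, i))) := by
        rw [hlaw]
        exact Integrable.of_bound measurable_id.aestronglyMeasurable 1 (ae_lam 1)
      exact (integrable_map_measure measurable_id.aestronglyMeasurable
        (measurable_pi_apply _).aemeasurable).1 this
    have hind : iIndepFun (fun (a : ℕ × I) (ξ : ℕ × I → ℝ) => ξ a) (noise I) :=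
      iIndepFun_infinitePi (X := fun _ t => t) (fun _ => measurable_id)
    have := strong_law_ae_real (μ := noise I) (fun r ξ => ξ (r, i)) hint
      (fun r r' hr => hind.indepFun (by simpa using hr))
      (fun r => ⟨(measurable_pi_apply _).aemeasurable, (measurable_pi_apply _).aemeasurable, by
        rw [hlaw, hlaw]⟩)
    have e : ∫ ξ, ξ (0, i) ∂noise I = 1 / 60 := by
      rw [← integral_id_lam, ← hlaw (0, i)]
      exact (integral_map (φ := fun ξ : ℕ × I → ℝ => ξ (0, i)) (f := fun x : ℝ => x)
        (measurable_pi_apply _).aemeasurable measurable_id'.aestronglyMeasurable).symm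
    rw [e] at this
    exact this
  filter_upwards [ae_all_iff.2 h] with ξ hξ ω
  ext i
  unfold readBit
  have h1 : Tendsto (fun n : ℕ => (∑ r ∈ Finset.range n, obs (ω, ξ) (r, i)) / n) atTop
      (𝓝 (sg (ω i) * (1 / 60))) := by
    refine ((hξ i).const_mul (sg (ω i))).congr fun n => ?_
    simp only [obs, ← Finset.mul_sum]
    ring
  rw [h1.limsup_eq]
  cases ω i <;> simp [sg]

omit [DecidableEq I] in
lemma ae_abs_noise : ∀ᵐ ξ ∂noise I, ∀ a, |ξ a| ≤ 1 := by
  refine ae_all_iff.2 fun a => ?_
  have := ae_lam 1
  rw [← Measure.infinitePi_map_eval (fun _ : ℕ × I => lam 1) a] at this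
  exact ae_of_ae_map (measurable_pi_apply a).aemeasurable this

/-- **Core theorem.** -/
theorem map_out (hP : ∀ i k, ProbAt (incl ν) (Fs i k) i) (hL : ∀ i k, LipAt (incl ν) (Fs i k) i)
    (hmono : ∀ i, Monotone (Fs i)) (hex : ∀ i j, ∃ k, j ∈ Fs i k) (T : I → ℝ)
    (hT : Function.Injective T) : (innovLaw I).map (out (incl ν) Fs T) = ν := by
  have hV : Measurable fun p => innov (incl ν) Fs T (obs p) :=
    (measurable_innov _ Fs T).comp measurable_obs
  have hout : Measurable (out (incl ν) Fs T) :=
    measurable_out (q := fun _ => incl ν) (Fs := fun _ => Fs) (T := fun _ => T)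
      (fun _ => measurable_const) (fun _ _ _ => MeasurableSet.const _) (fun _ => measurable_const)
      (fun a => measurable_pi_apply a)
  rw [← map_innov ν hP hmono hex T hT, Measure.map_map hout hV]
  have h : (out (incl ν) Fs T ∘ fun p => innov (incl ν) Fs T (obs p)) =ᵐ[ν.prod (noise I)]
      Prod.fst := by
    have h1 := (Measure.quasiMeasurePreserving_snd (μ := ν) (ν := noise I)).ae
      ((ae_readBit (I := I)).and (ae_abs_noise (I := I)))
    filter_upwards [h1] with p hp
    have hx : ∀ a, |obs p a| ≤ 1 := fun a => by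
      unfold obs; rw [abs_mul, abs_sg, one_mul]; exact hp.2 a
    have hr := recon_eq_of_fixed hP hL T (innov (incl ν) Fs T (obs p)) (obs p) hx (by
      ext a; simp [step, innov])
    show readBit (recon (incl ν) Fs T (innov (incl ν) Fs T (obs p))) = p.1
    rw [hr]
    exact hp.1 p.1
  rw [Measure.map_congr h, Measure.map_fst_prod]
  simp

end Crest.Agent.FIID
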