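import Crest.Agent.FIID.Core
import Crest.Prelude.Def_Labels

/-!
Splitting independent labels.
-/

open MeasureTheory Set Filter Topology ProbabilityTheory

namespace Crest.Agent.FIID

lemma prod_infinitePi_map_sum {A B X : Type*} [MeasurableSpace X] (μ : Measure X)
    [IsProbabilityMeasure μ] :
    ((Measure.infinitePi fun _ : A => μ).prod (Measure.infinitePi fun _ : B => μ)).map
      (MeasurableEquiv.sumPiEquivProdPi (fun _ : A ⊕ B => X)).symm =
      Measure.infinitePi fun _ : A ⊕ B => μ := by
  refine Measure.eq_infinitePi _ fun s t ht => ?_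
  have hm : MeasurableSet (Set.pi (s : Set (A ⊕ B)) t) := .pi s.countable_toSet fun _ _ => ht _
  rw [Measure.map_apply (MeasurableEquiv.measurable _) hm]
  have : (MeasurableEquiv.sumPiEquivProdPi (fun _ : A ⊕ B => X)).symm ⁻¹'
      Set.pi (s : Set (A ⊕ B)) t = (Set.pi (s.toLeft : Set A) fun a => t (Sum.inl a)) ×ˢ
        (Set.pi (s.toRight : Set B) fun b => t (Sum.inr b)) := by
    ext ⟨x, y⟩
    simp only [mem_preimage, Set.mem_pi, Finset.mem_coe, mem_prod, Finset.mem_toLeft,
      Finset.mem_toRight, Sum.forall]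
    rfl
  rw [this, Measure.prod_prod, Measure.infinitePi_pi _ (fun i _ => ht _),
    Measure.infinitePi_pi _ (fun i _ => ht _),
    Finset.prod_sum_eq_prod_toLeft_mul_prod_toRight]

lemma map_split {A B K X : Type*} [MeasurableSpace X] (μ : Measure X) [IsProbabilityMeasure μ]
    (f : A → K) (g : B → K) (h : Function.Injective (Sum.elim f g)) :
    (Measure.infinitePi fun _ : K => μ).map (fun w => (fun a => w (f a), fun b => w (g b))) =
      (Measure.infinitePi fun _ : A => μ).prod (Measure.infinitePi fun _ : B => μ) := by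
  have h1 := Measure.map_infinitePi_infinitePi_of_inj (P := fun _ : K => μ) h
  have h2 := prod_infinitePi_map_sum (A := A) (B := B) μ
  replace h2 := (MeasurableEquiv.map_apply_eq_iff_map_symm_apply_eq _).2 h2.symm
  rw [← h2, ← h1, Measure.map_map (MeasurableEquiv.measurable _) (by fun_prop)]
  rfl

instance : NullSingletonClass unif := by
  constructor
  intro x
  simp [unif]

lemma ae_injective (A : Type*) [Countable A] :
    ∀ᵐ T ∂(Measure.infinitePi fun _ : A => unif), Function.Injective T := by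
  have : ∀ i j : A, ∀ᵐ T ∂(Measure.infinitePi fun _ : A => unif), T i = T j → i = j := by
    intro i j
    by_cases hij : i = j
    · exact Eventually.of_forall fun _ _ => hij
    · have h1 := Measure.infinitePi_map_eval_prod (P := fun _ : A => unif) hij
      have h2 : ∀ᵐ z ∂(unif.prod unif), z.1 ≠ z.2 := by
        have hm : MeasurableSet {z : ℝ × ℝ | z.1 ≠ z.2} :=
          (measurableSet_eq_fun measurable_fst measurable_snd).compl
        rw [Measure.ae_prod_iff_ae_ae hm]
        refine Eventually.of_forall fun x => ?_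
        have : unif {x} = 0 := measure_singleton x
        rw [ae_iff]
        simpa [eq_comm] using this
      rw [← h1] at h2
      filter_upwards [ae_of_ae_map (by fun_prop) h2] with T hT h
      exact absurd h hT
  filter_upwards [ae_all_iff.2 fun i => ae_all_iff.2 (this i)] with T hT
  exact fun i j h => hT i j h

lemma map_of_split {I Y : Type*} [Countable I] [MeasurableSpace Y] (ν : Measure Y)
    (Φ : (I → ℝ) × (ℕ × I → ℝ) → Y) (hΦ : Measurable Φ)
    (h : ∀ T, Function.Injective T → (innovLaw I).map (fun v => Φ (T, v)) = ν) :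
    (innovLaw I).map (fun w => Φ (fun i => w (0, i), fun a => w (a.1 + 1, a.2))) = ν := by
  have h1 := map_split unif (fun i : I => ((0, i) : ℕ × I)) (fun a : ℕ × I => (a.1 + 1, a.2)) (by
    rintro (a | ⟨a, a'⟩) (b | ⟨b, b'⟩) hab <;> simp_all)
  have h2 : (fun w : ℕ × I → ℝ => Φ (fun i => w (0, i), fun a => w (a.1 + 1, a.2)))
      = Φ ∘ fun w => (fun i => w (0, i), fun a => w (a.1 + 1, a.2)) := rfl
  rw [h2, ← Measure.map_map hΦ (by fun_prop)]
  unfold innovLaw
  rw [h1]
  ext s hs
  rw [Measure.map_apply hΦ hs, Measure.prod_apply (hΦ hs)]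
  have h3 : ∀ᵐ T ∂(Measure.infinitePi fun _ : I => unif),
      (Measure.infinitePi fun _ : ℕ × I => unif) (Prod.mk T ⁻¹' (Φ ⁻¹' s)) = ν s := by
    filter_upwards [ae_injective I] with T hT
    have hm : Measurable fun v => Φ (T, v) := hΦ.comp measurable_prodMk_left
    rw [← h T hT, Measure.map_apply hm hs]
    rfl
  rw [lintegral_congr_ae h3]
  simp

/-- The rule with the order labels read from the same family. -/
noncomputable def out2 {I : Type*} [DecidableEq I] (q : Finset I → ℝ) (Fs : I → ℕ → Finset I)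
    (w : ℕ × I → ℝ) : I → Bool :=
  out q Fs (fun i => w (0, i)) (fun a => w (a.1 + 1, a.2))

lemma out2_map {I I' : Type*} [DecidableEq I] [DecidableEq I'] (τ : I' ↪ I)
    (q : Finset I → ℝ) (q' : Finset I' → ℝ) (hq : ∀ S, q' S = q (S.map τ))
    (Fs : I → ℕ → Finset I) (Fs' : I' → ℕ → Finset I')
    (hF : ∀ i k, (Fs' i k).map τ = Fs (τ i) k) (w : ℕ × I → ℝ) (i : I') :
    out2 q' Fs' (fun a => w (a.1, τ a.2)) i = out2 q Fs w (τ i) :=
  out_map τ q q' hq Fs Fs' hF (fun i => w (0, i)) (fun a => w (a.1 + 1, a.2)) i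

lemma measurable_out2 {Θ I : Type*} [MeasurableSpace Θ] [DecidableEq I] [Countable I]
    {q : Θ → Finset I → ℝ} {Fs : Θ → I → ℕ → Finset I} (hq : ∀ S, Measurable fun θ => q θ S)
    (hF : ∀ i k F, MeasurableSet {θ | Fs θ i k = F})
    {w : Θ → ℕ × I → ℝ} (hw : ∀ a, Measurable fun θ => w θ a) :
    Measurable fun θ => out2 (q θ) (Fs θ) (w θ) :=
  measurable_out hq hF (fun _ => hw _) (fun _ => hw _)

theorem map_out2 {I : Type*} [DecidableEq I] [Countable I] (ν : Measure (I → Bool))
    [IsProbabilityMeasure ν] {Fs : I → ℕ → Finset I}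
    (hP : ∀ i k, ProbAt (incl ν) (Fs i k) i) (hL : ∀ i k, LipAt (incl ν) (Fs i k) i)
    (hmono : ∀ i, Monotone (Fs i)) (hex : ∀ i j, ∃ k, j ∈ Fs i k) :
    (innovLaw I).map (out2 (incl ν) Fs) = ν :=
  map_of_split ν (fun p => out (incl ν) Fs p.1 p.2)
    (measurable_out (q := fun _ => incl ν) (Fs := fun _ => Fs) (fun _ => measurable_const)
      (fun _ _ _ => MeasurableSet.const _) (fun _ => by fun_prop) (fun _ => by fun_prop))
    fun T hT => map_out ν hP hL hmono hex T hT

lemma exists_expand : ∃ f : unitInterval → ℕ → ℝ, Measurable f ∧ ∀ (V : Type*),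
    (Crest.ProbabilityR.Labels.labelMeasure V).map
      (fun x (a : ℕ × V) => f (x a.2) a.1) = innovLaw V := by
  obtain ⟨f, hf, hmap⟩ :=
    Measure.exists_measurable_map_eq (Measure.infinitePi fun _ : ℕ => unif)
  refine ⟨f, hf, fun V => ?_⟩
  have h1 := Measure.infinitePi_map_pi (fun _ : V => (volume : Measure unitInterval))
    (f := fun _ => f) fun _ => hf
  simp only [hmap] at h1
  have h2 := Measure.infinitePi_map_curry_symm (fun (_ : V) (_ : ℕ) => unif)
  have h3 := Measure.map_infinitePi_infinitePi_of_inj (P := fun _ : V × ℕ => unif)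
    (f := fun a : ℕ × V => (a.2, a.1)) (by
      rintro ⟨a, b⟩ ⟨c, d⟩ h; simp_all)
  unfold innovLaw Crest.ProbabilityR.Labels.labelMeasure
  rw [← h3, ← h2, ← h1, Measure.map_map (MeasurableEquiv.measurable _) (by fun_prop),
    Measure.map_map (by fun_prop) ((MeasurableEquiv.measurable _).comp (by fun_prop))]
  rfl

end Crest.Agent.FIID
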