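import Crest.Agent.FIID.Limit
import Crest.Agent.FIID.Labels

/-!
The data of the free uniform spanning forest attached equivariantly and measurably to a graph.
-/

open MeasureTheory Filter Topology Crest.ProbabilityR.SpanningTrees

namespace Crest.Agent.FIID

/-! ### Definitions -/

open scoped Classical in
/-- Inclusion probability in a finite piece, `1` if the piece is not admissible. -/
noncomputable def qq (S : Finset ℕ) (E F : Finset (Sym2 ℕ)) : ℝ :=
  if S.Nonempty ∧ Conn S E ∧ F ⊆ E then pr S E F else 1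

/-- Inclusion probabilities of the free uniform spanning forest. -/
noncomputable def qG (G : SimpleGraph ℕ) (F : Finset (Sym2 ℕ)) : ℝ :=
  ⨅ S : Finset ℕ, qq S (edgesIn G S) F

/-- Vertex balls around a pair. -/
def vb (G : SimpleGraph ℕ) (e : Sym2 ℕ) : ℕ → Set ℕ
  | 0 => {u | u ∈ e}
  | k + 1 => vb G e k ∪ {w | ∃ u, u ∈ vb G e k ∧ G.Adj u w}

/-- Edge balls around a pair. -/
def eb (G : SimpleGraph ℕ) (e : Sym2 ℕ) (k : ℕ) : Set (Sym2 ℕ) :=
  {f | f ∈ G.edgeSet ∧ ∀ w, w ∈ f → w ∈ vb G e k}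

open scoped Classical in
/-- A set as a finset, empty when infinite. -/
noncomputable def toFin {α : Type*} (s : Set α) : Finset α :=
  if h : s.Finite then h.toFinset else ∅

/-- The windows. -/
noncomputable def FsG (G : SimpleGraph ℕ) (e : Sym2 ℕ) (k : ℕ) : Finset (Sym2 ℕ) :=
  toFin (eb G e k)

/-- Rank of `v` among the neighbours of `u`. -/
noncomputable def rk (G : SimpleGraph ℕ) (o : ℕ → ℝ) (u v : ℕ) : ℕ :=
  {w | G.Adj u w ∧ o w < o v}.ncard

/-- Edge labels read at the owner endpoint. -/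
noncomputable def lab (G : SimpleGraph ℕ) (o : ℕ → ℝ) (y : ℕ × ℕ → ℝ) (a : ℕ × Sym2 ℕ) : ℝ :=
  Sym2.lift ⟨fun u v => if o v < o u then y (Nat.pair a.1 (rk G o u v), u)
    else if o u < o v then y (Nat.pair a.1 (rk G o v u), v) else 0, by
      intro u v
      rcases lt_trichotomy (o u) (o v) with h | h | h
      · simp [h, h.not_gt]
      · simp [h]
      · simp [h, h.not_gt]⟩ a.2

/-- The rule on real labels. -/
noncomputable def ruleG (G : SimpleGraph ℕ) (w : ℕ × ℕ → ℝ) : Sym2 ℕ → Bool :=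
  out2 (qG G) (FsG G) (lab G (fun v => w (0, v)) (fun b => w (b.1 + 1, b.2)))

/-! ### Measurability -/

section Meas

variable {Θ : Type*} [MeasurableSpace Θ] {G : Θ → SimpleGraph ℕ}

lemma measurable_mem_edgeSet (hG : ∀ u v, Measurable fun θ => (G θ).Adj u v) (e : Sym2 ℕ) :
    Measurable fun θ => e ∈ (G θ).edgeSet := by
  induction e using Sym2.ind with
  | _ a b => exact hG a b

lemma measurableSet_toFin {α : Type*} [Countable α] {s : Θ → Set α}
    (hs : ∀ a, Measurable fun θ => a ∈ s θ) (F : Finset α) :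
    MeasurableSet {θ | toFin (s θ) = F} := by
  have h1 : ∀ F : Finset α, Measurable fun θ => s θ = (F : Set α) := by
    intro F
    simp_rw [Set.ext_iff]
    exact Measurable.forall fun a => (hs a).iff measurable_const
  have : {θ | toFin (s θ) = F}
      = {θ | s θ = (F : Set α) ∨ ((¬ ∃ F' : Finset α, s θ = (F' : Set α)) ∧ F = ∅)} := by
    ext θ
    simp only [Set.mem_ofPred_eq, toFin]
    split_ifs with h
    · constructor
      · rintro rfl; left; simp
      · rintro (h' | ⟨h', _⟩)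
        · ext a; simp [h']
        · exact absurd ⟨h.toFinset, by simp⟩ h'
    · constructor
      · rintro rfl
        exact Or.inr ⟨fun ⟨F', hF'⟩ => h (hF' ▸ F'.finite_toSet), rfl⟩
      · rintro (h' | ⟨_, h'⟩)
        · exact absurd (h' ▸ F.finite_toSet) h
        · exact h'.symm
  rw [this]
  exact ((h1 F).or ((Measurable.exists h1).not.and measurable_const)).setOf

lemma measurable_vb (hG : ∀ u v, Measurable fun θ => (G θ).Adj u v) (e : Sym2 ℕ) (k : ℕ) :
    ∀ w, Measurable fun θ => w ∈ vb (G θ) e k := by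
  induction k with
  | zero => intro w; exact measurable_const
  | succ k ih =>
    intro w
    exact (ih w).or (Measurable.exists fun u => (ih u).and (hG u w))

lemma measurableSet_FsG (hG : ∀ u v, Measurable fun θ => (G θ).Adj u v) (e : Sym2 ℕ) (k : ℕ)
    (F : Finset (Sym2 ℕ)) : MeasurableSet {θ | FsG (G θ) e k = F} :=
  measurableSet_toFin (fun f => (measurable_mem_edgeSet hG f).and
    (Measurable.forall fun w => measurable_const.imp (measurable_vb hG e k w))) F

lemma measurable_qG (hG : ∀ u v, Measurable fun θ => (G θ).Adj u v) (F : Finset (Sym2 ℕ)) :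
    Measurable fun θ => qG (G θ) F := by
  refine Measurable.iInf fun S => ?_
  refine measurable_select (F := fun θ => edgesIn (G θ) S) (g := fun E _ => qq S E F) ?_
    fun _ => measurable_const
  intro E
  simp_rw [Finset.ext_iff, mem_edgesIn]
  exact (Measurable.forall fun e =>
    (measurable_const.and (measurable_mem_edgeSet hG e)).iff measurable_const).setOf

lemma measurable_rk (hG : ∀ u v, Measurable fun θ => (G θ).Adj u v) {o : Θ → ℕ → ℝ}
    (ho : ∀ v, Measurable fun θ => o θ v) (u v : ℕ) : Measurable fun θ => rk (G θ) (o θ) u v := by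
  refine measurable_ncard.comp (measurable_set_iff.2 fun w => (hG u w).and ?_)
  exact measurableSet_setOfPred.1 (measurableSet_lt (ho w) (ho v))

lemma measurable_lab (hG : ∀ u v, Measurable fun θ => (G θ).Adj u v) {o : Θ → ℕ → ℝ}
    (ho : ∀ v, Measurable fun θ => o θ v) {y : Θ → ℕ × ℕ → ℝ}
    (hy : ∀ b, Measurable fun θ => y θ b) (a : ℕ × Sym2 ℕ) :
    Measurable fun θ => lab (G θ) (o θ) (y θ) a := by
  obtain ⟨r, e⟩ := a
  have key : ∀ u v, Measurable fun θ => y θ (Nat.pair r (rk (G θ) (o θ) u v), u) := fun u v =>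
    measurable_select (F := fun θ => rk (G θ) (o θ) u v) (g := fun n θ => y θ (Nat.pair r n, u))
      (fun n => measurable_rk hG ho u v (measurableSet_singleton n)) fun _ => hy _
  induction e using Sym2.ind with
  | _ u v =>
    simp only [lab, Sym2.lift_mk]
    exact Measurable.ite (measurableSet_lt (ho v) (ho u)) (key u v)
      (Measurable.ite (measurableSet_lt (ho u) (ho v)) (key v u) measurable_const)

lemma measurable_ruleG (hG : ∀ u v, Measurable fun θ => (G θ).Adj u v) {w : Θ → ℕ × ℕ → ℝ}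
    (hw : ∀ b, Measurable fun θ => w θ b) : Measurable fun θ => ruleG (G θ) (w θ) :=
  measurable_out2 (measurable_qG hG) (measurableSet_FsG hG)
    (measurable_lab hG (fun _ => hw _) fun _ => hw _)

end Meas

/-! ### Equivariance -/

section Equiv

variable (σ : Equiv.Perm ℕ)

/-- The action on pairs. -/
def s2 : Sym2 ℕ ↪ Sym2 ℕ := ⟨Sym2.map σ, Sym2.map.injective σ.injective⟩

@[simp] lemma s2_mk (a b : ℕ) : s2 σ s(a, b) = s(σ a, σ b) := rfl

lemma s2_surjective : Function.Surjective (s2 σ) := by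
  intro e
  induction e using Sym2.ind with
  | _ a b => exact ⟨s(σ.symm a, σ.symm b), by simp⟩

lemma conn_map (S : Finset ℕ) (A : Finset (Sym2 ℕ)) :
    Conn (S.map σ.toEmbedding) (A.map (s2 σ)) ↔ Conn S A := by
  constructor
  · intro h φ hφ a ha b hb hφa
    have := h (fun w => φ (σ.symm w)) (by
      intro x y hxy
      refine hφ _ _ ?_
      rw [← Finset.mem_map' (s2 σ)]
      simpa using hxy) (σ a) (by simpa using ha) (σ b) (by simpa using hb)
    simpa using this (by simpa using hφa)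
  · intro h φ hφ a ha b hb hφa
    obtain ⟨a, ha', rfl⟩ := Finset.mem_map.1 ha
    obtain ⟨b, hb', rfl⟩ := Finset.mem_map.1 hb
    exact h (fun w => φ (σ w)) (fun x y hxy => hφ _ _ (Finset.mem_map_of_mem (s2 σ) hxy))
      a ha' b hb' hφa

lemma top_map {I I' : Type*} [DecidableEq I] [DecidableEq I'] (τ : I' ↪ I) (c : Finset I → ℝ)
    (E F : Finset I') : top c (E.map τ) (F.map τ) = top (fun A => c (A.map τ)) E F := by
  unfold top
  have : (E.map τ).powerset = E.powerset.map (Finset.mapEmbedding τ).toEmbedding := by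
    ext S
    simp only [Finset.mem_powerset, Finset.mem_map, RelEmbedding.coe_toEmbedding,
      Finset.mapEmbedding_apply]
    constructor
    · intro h
      obtain ⟨u, hu, rfl⟩ := Finset.subset_map_iff.1 h
      exact ⟨u, hu, rfl⟩
    · rintro ⟨u, hu, rfl⟩
      exact Finset.map_subset_map.2 hu
  rw [this, Finset.sum_filter, Finset.sum_filter, Finset.sum_map]
  simp [Finset.map_subset_map]

lemma qq_map (S : Finset ℕ) (E F : Finset (Sym2 ℕ)) :
    qq (S.map σ.toEmbedding) (E.map (s2 σ)) (F.map (s2 σ)) = qq S E F := by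
  have htw : (fun A : Finset (Sym2 ℕ) => tw (S.map σ.toEmbedding) (A.map (s2 σ))) = tw S := by
    ext A
    unfold tw Tr
    rw [conn_map, Finset.card_map, Finset.card_map]
  have h0 := top_map (s2 σ) (tw (S.map σ.toEmbedding)) E ∅
  rw [Finset.map_empty] at h0
  unfold qq pr
  rw [top_map, h0, htw]
  have hiff := and_congr (Finset.map_nonempty (s := S) (f := σ.toEmbedding))
    (and_congr (conn_map σ S E) (Finset.map_subset_map (f := s2 σ) (s₁ := F) (s₂ := E)))
  by_cases h : S.Nonempty ∧ Conn S E ∧ F ⊆ E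
  · rw [if_pos h, if_pos (hiff.2 h)]
  · rw [if_neg h, if_neg (fun h' => h (hiff.1 h'))]

lemma edgesIn_comap (G : SimpleGraph ℕ) (S : Finset ℕ) :
    (edgesIn (G.comap σ) S).map (s2 σ) = edgesIn G (S.map σ.toEmbedding) := by
  ext e
  obtain ⟨e, rfl⟩ := s2_surjective σ e
  rw [Finset.mem_map', mem_edgesIn, mem_edgesIn]
  induction e using Sym2.ind with
  | _ a b => simp

lemma qG_comap (G : SimpleGraph ℕ) (F : Finset (Sym2 ℕ)) :
    qG (G.comap σ) F = qG G (F.map (s2 σ)) := by
  unfold qG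
  conv_rhs => rw [← (Equiv.finsetCongr σ).iInf_comp]
  congr 1; ext S
  rw [Equiv.finsetCongr_apply, ← edgesIn_comap, qq_map]

lemma vb_comap (G : SimpleGraph ℕ) (e : Sym2 ℕ) (k : ℕ) :
    ∀ w, w ∈ vb (G.comap σ) e k ↔ σ w ∈ vb G (s2 σ e) k := by
  induction k with
  | zero =>
    intro w
    induction e using Sym2.ind with
    | _ a b => simp [vb]
  | succ k ih =>
    intro w
    simp only [vb, Set.mem_union, Set.mem_ofPred_eq, ih, SimpleGraph.comap_adj]
    refine or_congr Iff.rfl ⟨?_, ?_⟩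
    · rintro ⟨u, h1, h2⟩; exact ⟨σ u, h1, h2⟩
    · rintro ⟨u, h1, h2⟩; exact ⟨σ.symm u, by simpa using h1, by simpa using h2⟩

lemma eb_comap (G : SimpleGraph ℕ) (e : Sym2 ℕ) (k : ℕ) :
    eb (G.comap σ) e k = s2 σ ⁻¹' eb G (s2 σ e) k := by
  ext f
  induction f using Sym2.ind with
  | _ a b => simp [eb, vb_comap]

lemma toFin_preimage {α : Type*} (τ : α ↪ α) (hτ : Function.Surjective τ) (s : Set α) :
    (toFin (τ ⁻¹' s)).map τ = toFin s := by
  unfold toFin
  by_cases h : s.Finite
  · have h' : (τ ⁻¹' s).Finite := h.preimage τ.injective.injOn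
    rw [dif_pos h, dif_pos h']
    ext a
    obtain ⟨a, rfl⟩ := hτ a
    simp
  · have h' : ¬ (τ ⁻¹' s).Finite := fun h' => h (h'.of_preimage hτ)
    rw [dif_neg h, dif_neg h', Finset.map_empty]

lemma rk_comap (G : SimpleGraph ℕ) (o : ℕ → ℝ) (u v : ℕ) :
    rk (G.comap σ) (fun w => o (σ w)) u v = rk G o (σ u) (σ v) := by
  unfold rk
  conv_rhs => rw [← Set.ncard_preimage_of_injective_subset_range σ.injective (by simp)]
  rfl

lemma ruleG_comap (G : SimpleGraph ℕ) (w : ℕ × ℕ → ℝ) (e : Sym2 ℕ) :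
    ruleG (G.comap σ) (fun b => w (b.1, σ b.2)) e = ruleG G w (Sym2.map σ e) := by
  have h := out2_map (s2 σ) (qG G) (qG (G.comap σ)) (qG_comap σ G) (FsG G) (FsG (G.comap σ))
    (fun i k => by unfold FsG; rw [eb_comap, toFin_preimage _ (s2_surjective σ)])
    (lab G (fun v => w (0, v)) (fun b => w (b.1 + 1, b.2))) e
  refine Eq.trans ?_ h
  unfold ruleG
  congr 1
  ext ⟨r, f⟩
  induction f using Sym2.ind with
  | _ a b =>
    simp only [lab, s2_mk, Sym2.lift_mk]
    rw [rk_comap σ G (fun v => w (0, v)), rk_comap σ G (fun v => w (0, v))]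

end Equiv

/-! ### The law on a connected locally finite graph -/

section Law

variable {G : SimpleGraph ℕ}

lemma pr_nonneg (S : Finset ℕ) (E F : Finset (Sym2 ℕ)) : 0 ≤ pr S E F :=
  div_nonneg (top_nonneg (tw_nonneg S) _ _) (top_nonneg (tw_nonneg S) _ _)

lemma pr_le_one (S : Finset ℕ) (E F : Finset (Sym2 ℕ)) : pr S E F ≤ 1 :=
  div_le_one_of_le₀ (top_le (tw_nonneg S) _ _) (top_nonneg (tw_nonneg S) _ _)

lemma eventually_subset {S : ℕ → Finset ℕ} (hm : Monotone S) (hex : ∀ v, ∃ n, v ∈ S n)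
    (S₀ : Finset ℕ) : ∀ᶠ n in atTop, S₀ ⊆ S n := by
  have : ∀ v ∈ S₀, ∀ᶠ n in atTop, v ∈ S n := fun v _ => by
    obtain ⟨n, hn⟩ := hex v
    filter_upwards [eventually_ge_atTop n] with m hnm using hm hnm hn
  exact (Finset.eventually_all S₀).2 this

lemma eventually_edges {S : ℕ → Finset ℕ} (hm : Monotone S) (hex : ∀ v, ∃ n, v ∈ S n)
    {F : Finset (Sym2 ℕ)} (hF : (F : Set (Sym2 ℕ)) ⊆ G.edgeSet) :
    ∀ᶠ n in atTop, F ⊆ edgesIn G (S n) := by
  have : ∀ e ∈ F, ∀ᶠ n in atTop, e ∈ edgesIn G (S n) := fun e he => by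
    induction e using Sym2.ind with
    | _ a b =>
      filter_upwards [eventually_subset hm hex {a, b}] with n hn
      exact mem_edgesIn.2 ⟨Finset.mk_mem_sym2_iff.2 ⟨hn (by simp), hn (by simp)⟩, hF he⟩
  exact (Finset.eventually_all F).2 this

lemma tendsto_pr {S : ℕ → Finset ℕ} (hm : Monotone S) (hex : ∀ v, ∃ n, v ∈ S n)
    (hc : ∀ n, (S n).Nonempty ∧ Conn (S n) (edgesIn G (S n)))
    {F : Finset (Sym2 ℕ)} (hF : (F : Set (Sym2 ℕ)) ⊆ G.edgeSet) :
    Tendsto (fun n => pr (S n) (edgesIn G (S n)) F) atTop (𝓝 (qG G F)) := by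
  have hb : BddBelow (Set.range fun S : Finset ℕ => qq S (edgesIn G S) F) := by
    refine ⟨0, ?_⟩
    rintro _ ⟨S, rfl⟩
    simp only [qq]
    split_ifs
    · exact pr_nonneg _ _ _
    · exact zero_le_one
  refine tendsto_order.2 ⟨fun a ha => ?_, fun a ha => ?_⟩
  · filter_upwards [eventually_edges hm hex hF] with n hn
    refine ha.trans_le ((ciInf_le hb (S n)).trans (le_of_eq ?_))
    unfold qq
    rw [if_pos ⟨(hc n).1, (hc n).2, hn⟩]
  · obtain ⟨S₀, h₀⟩ := exists_lt_of_ciInf_lt ha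
    unfold qq at h₀
    split_ifs at h₀ with h
    · filter_upwards [eventually_subset hm hex S₀] with n hn
      exact (pr_mono G (hc n).2 F _ S₀ h.1 hn rfl h.2.1 h.2.2).trans_lt h₀
    · exact Eventually.of_forall fun n => (pr_le_one _ _ _).trans_lt h₀

lemma vb_mono (e : Sym2 ℕ) : Monotone (vb G e) :=
  monotone_nat_of_le_succ fun _ => Set.subset_union_left

lemma vb_finite (hfin : ∀ v, (G.neighborSet v).Finite) (e : Sym2 ℕ) (k : ℕ) :
    (vb G e k).Finite := by
  induction k with
  | zero =>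
    induction e using Sym2.ind with
    | _ a b => exact (Set.toFinite {a, b}).subset fun u hu => by simpa [vb] using hu
  | succ k ih =>
    refine ih.union ((ih.biUnion fun u _ => hfin u).subset ?_)
    rintro w ⟨u, h1, h2⟩
    exact Set.mem_biUnion h1 h2

lemma mem_FsG (hfin : ∀ v, (G.neighborSet v).Finite) (e : Sym2 ℕ) (k : ℕ) (f : Sym2 ℕ) :
    f ∈ FsG G e k ↔ f ∈ eb G e k := by
  have : (eb G e k).Finite := by
    refine (vb_finite hfin e k).toFinset.sym2.finite_toSet.subset fun f hf => ?_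
    rw [Finset.mem_coe, Finset.mem_sym2_iff]
    intro w hw
    simpa using hf.2 w hw
  unfold FsG toFin
  rw [dif_pos this, Set.Finite.mem_toFinset]

lemma vb_exhaust (hG : G.Connected) (e : Sym2 ℕ) (w : ℕ) : ∃ k, w ∈ vb G e k := by
  induction e using Sym2.ind with
  | _ a b =>
    have key : ∀ (p q : ℕ) (_ : G.Walk p q), (∃ k, p ∈ vb G s(a, b) k) →
        ∃ k, q ∈ vb G s(a, b) k := by
      intro p q w
      induction w with
      | nil => exact id
      | cons hadj _ ih =>
        rintro ⟨k, hk⟩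
        exact ih ⟨k + 1, Or.inr ⟨_, hk, hadj⟩⟩
    obtain ⟨p⟩ := hG.preconnected a w
    exact key _ _ p ⟨0, by simp [vb]⟩

lemma rk_inj (hfin : ∀ v, (G.neighborSet v).Finite) {o : ℕ → ℝ} (ho : Function.Injective o)
    {u v v' : ℕ} (hv : G.Adj u v) (hv' : G.Adj u v') (h : rk G o u v = rk G o u v') : v = v' := by
  have key : ∀ {v v' : ℕ}, G.Adj u v → o v < o v' → rk G o u v < rk G o u v' := by
    intro v v' hv hlt
    refine Set.ncard_lt_ncard ⟨fun w hw => ⟨hw.1, hw.2.trans hlt⟩, fun hsub => ?_⟩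
      ((hfin u).subset fun w hw => hw.1)
    exact lt_irrefl _ (hsub ⟨hv, hlt⟩).2
  rcases lt_trichotomy (o v) (o v') with h1 | h1 | h1
  · exact absurd h (key hv h1).ne
  · exact ho h1
  · exact absurd h (key hv' h1).ne'

lemma map_lab (hfin : ∀ v, (G.neighborSet v).Finite) {o : ℕ → ℝ} (ho : Function.Injective o) :
    (innovLaw ℕ).map (fun y (a : ℕ × G.edgeSet) => lab G o y (a.1, a.2)) = innovLaw G.edgeSet := by
  have h : ∀ a : ℕ × G.edgeSet, ∃ p : ℕ × ℕ, (∀ y, lab G o y (a.1, a.2) = y p) ∧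
      ∃ u v, (a.2 : Sym2 ℕ) = s(u, v) ∧ G.Adj u v ∧ p = (Nat.pair a.1 (rk G o u v), u) := by
    rintro ⟨r, e, he⟩
    induction e using Sym2.ind with
    | _ u v =>
      have hadj : G.Adj u v := he
      rcases lt_trichotomy (o u) (o v) with h | h | h
      · exact ⟨_, fun y => by simp [lab, h, h.not_gt], v, u, Sym2.eq_swap, hadj.symm, rfl⟩
      · exact absurd (ho h) hadj.ne
      · exact ⟨_, fun y => by simp [lab, h], u, v, rfl, hadj, rfl⟩
  choose ι h1 h2 using h
  have hinj : Function.Injective ι := by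
    rintro ⟨r, e⟩ ⟨r', e'⟩ hab
    obtain ⟨u, v, e1, a1, p1⟩ := h2 (r, e)
    obtain ⟨u', v', e2, a2, p2⟩ := h2 (r', e')
    rw [p1, p2, Prod.mk.injEq, Nat.pair_eq_pair] at hab
    obtain ⟨⟨hr, hk⟩, rfl⟩ := hab
    have := rk_inj hfin ho a1 a2 hk
    subst this
    exact Prod.ext hr (Subtype.ext (e1.trans e2.symm))
  simp only [h1]
  exact Measure.map_infinitePi_infinitePi_of_inj (P := fun _ : ℕ × ℕ => unif) hinj

theorem law_ruleG (hG : G.Connected) (hfin : ∀ v, (G.neighborSet v).Finite)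
    {S : ℕ → Finset ℕ} (hm : Monotone S) (hex : ∀ v, ∃ n, v ∈ S n)
    (hc : ∀ n, (S n).Nonempty ∧ Conn (S n) (edgesIn G (S n)))
    {F : Finset (Sym2 ℕ)} (hF : (F : Set (Sym2 ℕ)) ⊆ G.edgeSet) :
    ((innovLaw ℕ).map (ruleG G)).real {ω | ∀ e ∈ F, ω e = true} = qG G F := by
  classical
  let τ : G.edgeSet ↪ Sym2 ℕ := Function.Embedding.subtype _
  have hτ : ∀ A : Finset G.edgeSet, ((A.map τ : Finset (Sym2 ℕ)) : Set (Sym2 ℕ)) ⊆ G.edgeSet := by
    intro A e he
    obtain ⟨e', _, rfl⟩ := Finset.mem_map.1 (Finset.mem_coe.1 he)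
    exact e'.2
  choose μ hμ1 hμ2 using fun n => exists_finite_measure τ (tw_nonneg (S n)) (edgesIn G (S n))
    (top_tw_pos (hc n).1 (edgesIn_subset G _) (hc n).2)
  have hlim : ∀ A : Finset G.edgeSet, Tendsto (fun n => pr (S n) (edgesIn G (S n)) (A.map τ))
      atTop (𝓝 (qG G (A.map τ))) := fun A => tendsto_pr hm hex hc (hτ A)
  obtain ⟨ν, hν1, hν2⟩ := exists_limit_measure μ (fun A => qG G (A.map τ)) (by
    intro A; simp only [hμ2]; exact hlim A)
  let Fs : G.edgeSet → ℕ → Finset G.edgeSet := fun i k => (FsG G i k).subtype _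
  have hFs : ∀ i k, (Fs i k).map τ = FsG G (τ i) k := fun i k =>
    Finset.subtype_map_of_mem fun f hf => ((mem_FsG hfin _ _ _).1 hf).1
  have hmem : ∀ i k j, j ∈ Fs i k ↔ ∀ w, w ∈ (j : Sym2 ℕ) → w ∈ vb G i k := by
    intro i k j
    simp only [Fs, Finset.mem_subtype, mem_FsG hfin, eb, Set.mem_ofPred_eq, j.2, true_and]
  have hden : ∀ (A : Finset G.edgeSet) (z : G.edgeSet → ℝ), (∀ j, 0 < z j) →
      den (fun A => qG G (A.map τ)) A z ≠ 0 := fun A z hz => by
    rw [← hν2]; exact (den_incl_pos ν A hz).ne'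
  have hZ : ∀ n, 0 < top (tw (S n)) (edgesIn G (S n)) ∅ := fun n =>
    top_tw_pos (hc n).1 (edgesIn_subset G _) (hc n).2
  have hst : ∀ n, Stable (fun A => tw (S n) A / top (tw (S n)) (edgesIn G (S n)) ∅)
      (edgesIn G (S n)) := by
    intro n z hz h0
    refine stable_tw (hc n).1 (edgesIn_subset G _) (hc n).2 z hz ?_
    have : mp (fun A => tw (S n) A / top (tw (S n)) (edgesIn G (S n)) ∅) (edgesIn G (S n)) z
        = mp (tw (S n)) (edgesIn G (S n)) z / (top (tw (S n)) (edgesIn G (S n)) ∅ : ℝ) := by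
      simp only [mp, Finset.sum_div, Complex.ofReal_div]
      exact Finset.sum_congr rfl fun A _ => by ring
    rw [this, div_eq_zero_iff] at h0
    exact h0.resolve_right (by exact_mod_cast (hZ n).ne')
  have hq : ∀ n, ∀ A ⊆ edgesIn G (S n), pr (S n) (edgesIn G (S n)) A =
      ∑ B ∈ (edgesIn G (S n)).powerset with A ⊆ B,
        tw (S n) B / top (tw (S n)) (edgesIn G (S n)) ∅ := by
    intro n A _
    rw [← Finset.sum_div]; rfl
  have hev : ∀ (A : Finset G.edgeSet) (i : G.edgeSet), ∀ᶠ n in atTop,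
      A.map τ ⊆ edgesIn G (S n) ∧ τ i ∈ edgesIn G (S n) := by
    intro A i
    filter_upwards [eventually_edges hm hex (hτ A), eventually_edges hm hex (hτ {i})] with n h1 h2
    exact ⟨h1, h2 (by simp)⟩
  have hcore : (innovLaw G.edgeSet).map (out2 (incl ν) Fs) = ν := by
    refine map_out2 ν (fun i k => ?_) (fun i k => ?_) ?_ ?_
    · rw [hν2]
      refine probAt_of_tendsto hlim (hden _) ?_
      filter_upwards [hev (Fs i k) i] with n hn
      exact ProbAt.of_map τ (probAt_of_stable (fun A => div_nonneg (tw_nonneg _ _) (hZ n).le)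
        (hst n) hn.1 hn.2 _ (hq n))
    · rw [hν2]
      refine lipAt_of_tendsto hlim (hden _) ?_
      filter_upwards [hev (Fs i k) i] with n hn
      exact LipAt.of_map τ (lipAt_of_stable (fun A => div_nonneg (tw_nonneg _ _) (hZ n).le)
        (hst n) hn.1 hn.2 _ (hq n))
    · intro i k l hkl j hj
      rw [hmem] at hj ⊢
      exact fun w hw => vb_mono _ hkl (hj w hw)
    · rintro i ⟨j, hj⟩
      induction j using Sym2.ind with
      | _ a b =>
        obtain ⟨k, hk⟩ := vb_exhaust hG i a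
        obtain ⟨l, hl⟩ := vb_exhaust hG i b
        refine ⟨max k l, (hmem _ _ _).2 fun w hw => ?_⟩
        rcases Sym2.mem_iff.1 hw with rfl | rfl
        · exact vb_mono _ (le_max_left _ _) hk
        · exact vb_mono _ (le_max_right _ _) hl
  have hGm : ∀ {Θ : Type} [MeasurableSpace Θ] (u v : ℕ), Measurable fun _ : Θ => G.Adj u v :=
    fun _ _ => measurable_const
  have hout : Measurable (out2 (incl ν) Fs) :=
    measurable_out2 (q := fun _ => incl ν) (Fs := fun _ => Fs)
      (fun _ => measurable_const) (fun _ _ _ => MeasurableSet.const _)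
      (fun a => measurable_pi_apply a)
  have hΨ : Measurable fun p : (ℕ → ℝ) × (ℕ × ℕ → ℝ) =>
      out2 (incl ν) Fs (fun a : ℕ × G.edgeSet => lab G p.1 p.2 (a.1, a.2)) :=
    hout.comp (measurable_pi_iff.2 fun a => measurable_lab (G := fun _ => G) hGm
      (fun _ => by fun_prop) (fun _ => by fun_prop) _)
  have hlaw := map_of_split ν _ hΨ (by
    intro o ho
    have hm1 : Measurable fun (y : ℕ × ℕ → ℝ) (a : ℕ × G.edgeSet) => lab G o y (a.1, a.2) :=
      measurable_pi_iff.2 fun a => measurable_lab (G := fun _ => G) (o := fun _ => o) hGm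
        (fun _ => measurable_const) (fun _ => by fun_prop) _
    refine Eq.trans ?_ hcore
    rw [← map_lab hfin ho, Measure.map_map hout hm1]
    rfl)
  have hrule : Measurable (ruleG G) :=
    measurable_ruleG (G := fun _ => G) hGm fun b => measurable_pi_apply b
  have hF' : (F.subtype (· ∈ G.edgeSet)).map τ = F := Finset.subtype_map_of_mem fun f hf => hF hf
  have h1 := congrFun hν2 (F.subtype (· ∈ G.edgeSet))
  rw [hF'] at h1
  have hm2 : Measurable fun w : ℕ × ℕ → ℝ => out2 (incl ν) Fs (fun a : ℕ × G.edgeSet =>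
      lab G (fun i => w (0, i)) (fun a => w (a.1 + 1, a.2)) (a.1, a.2)) :=
    hout.comp (measurable_pi_iff.2 fun a => measurable_lab (G := fun _ => G) hGm
      (fun _ => by fun_prop) (fun _ => by fun_prop) _)
  have h3 := congrArg (fun ρ : Measure (G.edgeSet → Bool) =>
    ρ {ω | ∀ j ∈ F.subtype (· ∈ G.edgeSet), ω j = true}) hlaw
  simp only [Measure.map_apply hm2 (measurableSet_incl _)] at h3
  rw [← h1, incl, Measure.real, Measure.real, ← h3, Measure.map_apply hrule (measurableSet_incl _)]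
  congr 2
  ext w
  have h2 := out2_map τ (qG G) (incl ν) (fun A => by rw [hν2]) (FsG G) Fs hFs
    (lab G (fun v => w (0, v)) (fun b => w (b.1 + 1, b.2)))
  simp only [Set.mem_preimage, Set.mem_ofPred_eq]
  constructor
  · intro h j hj
    exact (h2 j).trans (h _ (Finset.mem_subtype.1 hj))
  · intro h e he
    exact (h2 ⟨e, hF he⟩).symm.trans (h _ (Finset.mem_subtype.2 he))

end Law

end Crest.Agent.FIID
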