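import Crest.Agent.FIID.MatrixTree
import Crest.Prelude.Def_SpanningTrees

/-!
Rayleigh monotonicity for uniform spanning trees.
-/

open Filter Topology

namespace Crest.Agent.FIID

section General

variable {I : Type*} [DecidableEq I]

/-- Total weight of the sets containing `F`. -/
noncomputable def top (c : Finset I → ℝ) (E F : Finset I) : ℝ := ∑ A ∈ E.powerset with F ⊆ A, c A

lemma top_empty (c : Finset I → ℝ) (E : Finset I) : top c E ∅ = mr c E (fun _ => 1) := by
  simp [top, mr]

lemma top_nonneg {c : Finset I → ℝ} (hc : ∀ A, 0 ≤ c A) (E F : Finset I) : 0 ≤ top c E F :=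
  Finset.sum_nonneg fun A _ => hc A

lemma top_le {c : Finset I → ℝ} (hc : ∀ A, 0 ≤ c A) (E F : Finset I) : top c E F ≤ top c E ∅ :=
  Finset.sum_le_sum_of_subset_of_nonneg (by intro A; simp +contextual) fun A _ _ => hc A

lemma top_split (c : Finset I → ℝ) {E F : Finset I} {d : I} (hd : d ∈ E) (hF : d ∉ F) :
    top c E F = top (fun A => c (insert d A)) (E.erase d) F + top c (E.erase d) F := by
  unfold top
  simp only [Finset.sum_filter]
  conv_lhs => rw [← Finset.insert_erase hd]
  rw [Finset.sum_powerset_insert (Finset.notMem_erase d E), add_comm]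
  simp only [Finset.subset_insert_iff_of_notMem hF]

lemma tendsto_top (c : Finset I → ℝ) (E F : Finset I) :
    Tendsto (fun t : ℝ => mr c E (fun j => if j ∈ F then t else 1) / t ^ F.card) atTop
      (𝓝 (top c E F)) := by
  unfold mr top
  simp only [Finset.sum_div, Finset.sum_filter]
  refine tendsto_finsetSum _ fun A _ => ?_
  simp only [Finset.prod_ite_mem, Finset.prod_const, mul_div_assoc]
  split_ifs with h
  · rw [Finset.inter_eq_right.2 h]
    refine tendsto_const_nhds.congr' ?_
    filter_upwards [eventually_gt_atTop 0] with t ht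
    rw [div_self (pow_pos ht _).ne', mul_one]
  · have : (A ∩ F).card < F.card := Finset.card_lt_card
      (Finset.ssubset_iff_subset_ne.2 ⟨Finset.inter_subset_right, fun h' =>
        h (Finset.inter_eq_right.1 h')⟩)
    simpa using (tendsto_pow_div_pow_atTop_zero (𝕜 := ℝ) this).const_mul (c A)

lemma rayleigh_delete {c : Finset I → ℝ} (hc : ∀ A, 0 ≤ c A) {E F : Finset I} (hs : Stable c E)
    {d : I} (hd : d ∈ E) (hF : d ∉ F) :
    top c E F * top c (E.erase d) ∅ ≤ top c (E.erase d) F * top c E ∅ := by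
  have h1 : top (fun A => c (insert d A)) (E.erase d) F * top c E ∅ ≤
      top (fun A => c (insert d A)) (E.erase d) ∅ * top c E F := by
    refine le_of_tendsto_of_tendsto ((tendsto_top _ _ F).mul_const _)
      ((tendsto_top _ _ F).const_mul _) ?_
    filter_upwards [eventually_ge_atTop 1] with t ht
    have h2 := mq_anti hc hs hd (x := fun _ => 1) (y := fun j => if j ∈ F then t else 1)
      (fun _ => one_pos) (fun j => by split_ifs <;> simp [ht])
    unfold mq at h2
    rw [div_le_div_iff₀ (mr_pos hc hs fun j => by split_ifs <;> linarith)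
      (mr_pos hc hs fun _ => one_pos)] at h2
    rw [top_empty, top_empty, div_mul_eq_mul_div, ← mul_div_assoc]
    gcongr
  have h2 := top_split c hd hF
  have h3 := top_split c hd (Finset.notMem_empty d)
  rw [h2, h3] at h1 ⊢
  nlinarith

end General

/-- Probability that the uniform spanning tree of `(S, E)` contains `F`. -/
noncomputable def pr (S : Finset ℕ) (E F : Finset (Sym2 ℕ)) : ℝ := top (tw S) E F / top (tw S) E ∅

lemma top_tw_pos {S : Finset ℕ} (hS : S.Nonempty) {E : Finset (Sym2 ℕ)} (hE : E ⊆ S.sym2)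
    (hc : Conn S E) : 0 < top (tw S) E ∅ := by
  rw [top_empty]
  exact mr_pos (tw_nonneg S) (stable_tw hS hE hc) fun _ => one_pos

lemma pr_mono_edges {S : Finset ℕ} (hS : S.Nonempty) {E E' F : Finset (Sym2 ℕ)}
    (hE' : E' ⊆ S.sym2) (hc : Conn S E) (hEE' : E ⊆ E') (hF : F ⊆ E) : pr S E' F ≤ pr S E F := by
  have key : ∀ D : Finset (Sym2 ℕ), D ⊆ E' → pr S (D ∪ E) F ≤ pr S E F := by
    intro D
    induction D using Finset.induction_on with
    | empty => simp
    | insert d D _ ih =>
      intro hD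
      have ih' := ih ((Finset.subset_insert _ _).trans hD)
      rw [Finset.insert_union]
      by_cases hd : d ∈ D ∪ E
      · rwa [Finset.insert_eq_of_mem hd]
      · refine le_trans ?_ ih'
        have hsub : insert d (D ∪ E) ⊆ S.sym2 := by
          rw [← Finset.insert_union]
          exact (Finset.union_subset hD hEE').trans hE'
        have hc1 : Conn S (D ∪ E) := hc.mono Finset.subset_union_right
        have hc2 : Conn S (insert d (D ∪ E)) := hc1.mono (Finset.subset_insert _ _)
        have h := rayleigh_delete (tw_nonneg S) (stable_tw hS hsub hc2) (F := F)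
          (Finset.mem_insert_self d _) (fun h => hd (Finset.mem_union_right _ (hF h)))
        rw [Finset.erase_insert hd] at h
        unfold pr
        rwa [div_le_div_iff₀ (top_tw_pos hS hsub hc2)
          (top_tw_pos hS ((Finset.subset_insert _ _).trans hsub) hc1)]
  have := key E' le_rfl
  rwa [Finset.union_eq_left.2 hEE'] at this

lemma conn_insert {S : Finset ℕ} {u v : ℕ} (hu : u ∈ S) {A : Finset (Sym2 ℕ)} (hc : Conn S A) :
    Conn (insert v S) (insert s(u, v) A) := by
  intro φ hφ a ha b hb hφa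
  have h1 := hc φ fun a b hab => hφ a b (Finset.mem_insert_of_mem hab)
  have h2 : φ u → φ v := hφ u v (Finset.mem_insert_self _ _)
  have h3 : φ v → φ u := hφ v u (by rw [Sym2.eq_swap]; exact Finset.mem_insert_self _ _)
  have h4 : φ u := by
    rcases Finset.mem_insert.1 ha with rfl | ha
    · exact h3 hφa
    · exact h1 a ha u hu hφa
  rcases Finset.mem_insert.1 hb with rfl | hb
  · exact h2 h4
  · exact h1 u hu b hb h4

lemma top_pendant {S : Finset ℕ} {u v : ℕ} (hu : u ∈ S) (hv : v ∉ S) {E F : Finset (Sym2 ℕ)}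
    (hE : E ⊆ S.sym2) (hF : F ⊆ E) :
    top (tw (insert v S)) (insert s(u, v) E) F = top (tw S) E F := by
  have hd : s(u, v) ∉ E := fun h => hv (Finset.mk_mem_sym2_iff.1 (hE h)).2
  rw [top_split _ (Finset.mem_insert_self _ _) (fun h => hd (hF h)), Finset.erase_insert hd]
  have h1 : top (tw (insert v S)) E F = 0 := by
    refine Finset.sum_eq_zero fun A hA => ?_
    have hAE := Finset.mem_powerset.1 (Finset.mem_filter.1 hA).1
    unfold tw
    rw [if_neg]
    rintro ⟨hc, _⟩
    have := hc (fun w => w = v) (by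
      rintro a b hab rfl
      exact absurd (Finset.mk_mem_sym2_iff.1 (hE (hAE hab))).1 hv) v (Finset.mem_insert_self _ _)
      u (Finset.mem_insert_of_mem hu) rfl
    exact hv (this ▸ hu)
  rw [h1, add_zero]
  refine Finset.sum_congr rfl fun A hA => ?_
  have hAE := Finset.mem_powerset.1 (Finset.mem_filter.1 hA).1
  have hdA : s(u, v) ∉ A := fun h => hd (hAE h)
  have : Tr (insert v S) (insert s(u, v) A) ↔ Tr S A := by
    unfold Tr
    rw [Finset.card_insert_of_notMem hdA, Finset.card_insert_of_notMem hv]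
    refine and_congr ⟨fun hc => ?_, conn_insert hu⟩ (by omega)
    intro φ hφ a ha b hb hφa
    have hav : a ≠ v := fun h => hv (h ▸ ha)
    have hbv : b ≠ v := fun h => hv (h ▸ hb)
    have huv : u ≠ v := fun h => hv (h ▸ hu)
    have := hc (Function.update φ v (φ u)) (by
      intro x y hxy
      rcases Finset.mem_insert.1 hxy with h | h
      · rcases Sym2.eq_iff.1 h with ⟨rfl, rfl⟩ | ⟨rfl, rfl⟩
        · simp [Function.update_of_ne huv]
        · simp [Function.update_of_ne huv]
      · have h' := Finset.mk_mem_sym2_iff.1 (hE (hAE h))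
        have hx : x ≠ v := fun h => hv (h ▸ h'.1)
        have hy : y ≠ v := fun h => hv (h ▸ h'.2)
        rw [Function.update_of_ne hx, Function.update_of_ne hy]
        exact hφ x y h) a (Finset.mem_insert_of_mem ha) b (Finset.mem_insert_of_mem hb)
    rw [Function.update_of_ne hav, Function.update_of_ne hbv] at this
    exact this hφa
  show tw _ _ = tw _ _
  unfold tw
  rw [this]

open Crest.ProbabilityR.SpanningTrees

lemma mem_edgesIn {G : SimpleGraph ℕ} {S : Finset ℕ} {e : Sym2 ℕ} :
    e ∈ edgesIn G S ↔ e ∈ S.sym2 ∧ e ∈ G.edgeSet := by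
  unfold edgesIn
  simp only [Finset.mem_filter]

lemma edgesIn_subset (G : SimpleGraph ℕ) (S : Finset ℕ) : edgesIn G S ⊆ S.sym2 :=
  fun _ h => (mem_edgesIn.1 h).1

lemma edgesIn_mono (G : SimpleGraph ℕ) {S S' : Finset ℕ} (h : S ⊆ S') :
    edgesIn G S ⊆ edgesIn G S' := fun _ he =>
  mem_edgesIn.2 ⟨Finset.sym2_mono h (mem_edgesIn.1 he).1, (mem_edgesIn.1 he).2⟩

theorem pr_mono (G : SimpleGraph ℕ) {S' : Finset ℕ} (hc' : Conn S' (edgesIn G S'))
    (F : Finset (Sym2 ℕ)) : ∀ (n : ℕ) (S : Finset ℕ), S.Nonempty → S ⊆ S' → (S' \ S).card = n →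
      Conn S (edgesIn G S) → F ⊆ edgesIn G S →
      pr S' (edgesIn G S') F ≤ pr S (edgesIn G S) F := by
  intro n
  induction n with
  | zero =>
    intro S _ hSS' hn _ _
    rw [Finset.card_eq_zero, Finset.sdiff_eq_empty_iff_subset] at hn
    rw [Finset.Subset.antisymm hSS' hn]
  | succ n ih =>
    intro S hS hSS' hn hc hF
    obtain ⟨u, v, huv, hu, hv⟩ : ∃ u v, s(u, v) ∈ edgesIn G S' ∧ u ∈ S ∧ v ∉ S := by
      by_contra hcon
      push Not at hcon
      obtain ⟨a, ha⟩ := hS
      obtain ⟨b, hb⟩ : (S' \ S).Nonempty := by rw [← Finset.card_pos]; omega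
      exact (Finset.mem_sdiff.1 hb).2
        (hc' (fun w => w ∈ S) hcon a (hSS' ha) b (Finset.mem_sdiff.1 hb).1 ha)
    have hv' : v ∈ S' := (Finset.mk_mem_sym2_iff.1 (mem_edgesIn.1 huv).1).2
    have hsub : insert s(u, v) (edgesIn G S) ⊆ edgesIn G (insert v S) := by
      refine Finset.insert_subset (mem_edgesIn.2 ⟨?_, (mem_edgesIn.1 huv).2⟩)
        (edgesIn_mono G (Finset.subset_insert _ _))
      rw [Finset.mk_mem_sym2_iff]
      exact ⟨Finset.mem_insert_of_mem hu, Finset.mem_insert_self _ _⟩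
    have hc1 := conn_insert (v := v) hu hc
    refine (ih (insert v S) (Finset.insert_nonempty _ _) (Finset.insert_subset hv' hSS') ?_
      (hc1.mono hsub) (hF.trans (edgesIn_mono G (Finset.subset_insert _ _)))).trans ?_
    · rw [Finset.sdiff_insert, Finset.card_erase_of_mem (Finset.mem_sdiff.2 ⟨hv', hv⟩), hn]
      rfl
    · refine (pr_mono_edges (Finset.insert_nonempty _ _) (edgesIn_subset G _) hc1 hsub
        (hF.trans (Finset.subset_insert _ _))).trans (le_of_eq ?_)
      unfold pr
      rw [top_pendant hu hv (edgesIn_subset G S) hF,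
        top_pendant hu hv (edgesIn_subset G S) (Finset.empty_subset _)]

lemma connected_induce_iff (G : SimpleGraph ℕ) (S : Finset ℕ) :
    (G.induce (S : Set ℕ)).Connected ↔ S.Nonempty ∧ Conn S (edgesIn G S) := by
  constructor
  · intro h
    obtain ⟨⟨x, hx⟩⟩ := h.nonempty
    refine ⟨⟨x, hx⟩, fun φ hφ a ha b hb => ?_⟩
    obtain ⟨w⟩ := h.preconnected ⟨a, ha⟩ ⟨b, hb⟩
    have : ∀ (p q : (S : Set ℕ)) (_ : (G.induce (S : Set ℕ)).Walk p q), φ p → φ q := by
      intro p q w
      induction w with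
      | nil => exact id
      | @cons p p' _ hadj _ ih =>
        refine fun hp => ih (hφ p p' (mem_edgesIn.2 ⟨?_, hadj⟩) hp)
        exact Finset.mk_mem_sym2_iff.2 ⟨p.2, p'.2⟩
    exact this _ _ w
  · rintro ⟨⟨x, hx⟩, hc⟩
    have : Nonempty (S : Set ℕ) := ⟨⟨x, hx⟩⟩
    refine ⟨fun p q => ?_⟩
    obtain ⟨_, h⟩ := hc (fun w => ∃ h : w ∈ (S : Set ℕ), (G.induce (S : Set ℕ)).Reachable p ⟨w, h⟩)
      (by
        rintro a b hab ⟨ha, hr⟩
        have h1 := mem_edgesIn.1 hab
        have hb : b ∈ (S : Set ℕ) := (Finset.mk_mem_sym2_iff.1 h1.1).2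
        exact ⟨hb, hr.trans (SimpleGraph.Adj.reachable (show G.Adj a b from h1.2))⟩)
      p p.2 q q.2 ⟨p.2, SimpleGraph.Reachable.refl _⟩
    exact h

lemma edgesIn_fromEdgeSet {G : SimpleGraph ℕ} {S : Finset ℕ} {A : Finset (Sym2 ℕ)}
    (hA : A ⊆ edgesIn G S) : edgesIn (SimpleGraph.fromEdgeSet (A : Set (Sym2 ℕ))) S = A := by
  ext e
  rw [mem_edgesIn, SimpleGraph.edgeSet_fromEdgeSet]
  constructor
  · rintro ⟨_, h, _⟩; exact h
  · intro h
    exact ⟨(mem_edgesIn.1 (hA h)).1, h, G.not_isDiag_of_mem_edgeSet (mem_edgesIn.1 (hA h)).2⟩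

lemma card_edgeSet_induce (G : SimpleGraph ℕ) (S : Finset ℕ) :
    Nat.card (G.induce (S : Set ℕ)).edgeSet = (edgesIn G S).card := by
  rw [← Set.ncard_coe_finset, Nat.card_coe_set_eq,
    ← Set.ncard_image_of_injective _ (Sym2.map.injective Subtype.val_injective)]
  congr 1
  ext e
  simp only [Set.mem_image, Finset.mem_coe, mem_edgesIn]
  constructor
  · rintro ⟨e', he', rfl⟩
    induction e' using Sym2.ind with
    | _ a b => exact ⟨Finset.mk_mem_sym2_iff.2 ⟨a.2, b.2⟩, he'⟩
  · rintro ⟨h1, h2⟩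
    induction e using Sym2.ind with
    | _ a b =>
      have := Finset.mk_mem_sym2_iff.1 h1
      exact ⟨s(⟨a, this.1⟩, ⟨b, this.2⟩), h2, rfl⟩

lemma isSpanningTreeOn_iff {G : SimpleGraph ℕ} {S : Finset ℕ} {A : Finset (Sym2 ℕ)}
    (hA : A ⊆ edgesIn G S) : IsSpanningTreeOn G S A ↔ Tr S A := by
  unfold IsSpanningTreeOn Tr
  rw [SimpleGraph.isTree_iff_connected_and_card, connected_induce_iff, card_edgeSet_induce,
    edgesIn_fromEdgeSet hA]
  simp only [hA, true_and, SetLike.coe_sort_coe, Nat.card_eq_fintype_card, Fintype.card_coe]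
  constructor
  · rintro ⟨⟨_, h1⟩, h2⟩; exact ⟨h1, h2⟩
  · rintro ⟨h1, h2⟩
    exact ⟨⟨Finset.card_pos.1 (by omega), h1⟩, h2⟩

lemma ustContains_eq (G : SimpleGraph ℕ) (S : Finset ℕ) (F : Finset (Sym2 ℕ)) :
    ustContains G S F = pr S (edgesIn G S) F := by
  classical
  unfold ustContains pr top tw
  simp only [Finset.card_filter, Finset.sum_filter, Nat.cast_sum, Nat.cast_ite, Nat.cast_one,
    Nat.cast_zero, Finset.empty_subset, if_true]
  congr 1
  · refine Finset.sum_congr rfl fun A hA => ?_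
    rw [← isSpanningTreeOn_iff (Finset.mem_powerset.1 hA)]
    by_cases h1 : IsSpanningTreeOn G S A <;> by_cases h2 : F ⊆ A <;> simp [h1, h2]
  · refine Finset.sum_congr rfl fun A hA => ?_
    rw [← isSpanningTreeOn_iff (Finset.mem_powerset.1 hA)]

end Crest.Agent.FIID
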