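import Crest.Agent.FIID.Bayes
import Crest.Agent.FIID.Rayleigh

/-!
Weak limits of laws on configurations.
-/

open MeasureTheory Filter Topology

namespace Crest.Agent.FIID

variable {I : Type*}

lemma isClopen_incl (S : Finset I) : IsClopen {ω : I → Bool | ∀ j ∈ S, ω j = true} := by
  have : {ω : I → Bool | ∀ j ∈ S, ω j = true} = ⋂ j ∈ S, (fun ω : I → Bool => ω j) ⁻¹' {true} := by
    ext; simp
  rw [this]
  exact isClopen_biInter_finset fun j _ => (isClopen_discrete _).preimage (continuous_apply j)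

lemma exists_limit_measure [Countable I] (μ : ℕ → Measure (I → Bool))
    [∀ n, IsProbabilityMeasure (μ n)] (q : Finset I → ℝ)
    (h : ∀ S, Tendsto (fun n => incl (μ n) S) atTop (𝓝 (q S))) :
    ∃ ν : Measure (I → Bool), IsProbabilityMeasure ν ∧ incl ν = q := by
  let P : ℕ → ProbabilityMeasure (I → Bool) := fun n => ⟨μ n, inferInstance⟩
  obtain ⟨ν, hν⟩ := exists_clusterPt_of_compactSpace (map P atTop)
  refine ⟨ν, inferInstance, funext fun S => ?_⟩
  have hc : Continuous fun ρ : ProbabilityMeasure (I → Bool) => incl (ρ : Measure (I → Bool)) S := by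
    have := ProbabilityMeasure.continuous_integral_boundedContinuousFunction
      (BoundedContinuousFunction.indicator _ (isClopen_incl S))
    convert this using 2 with ρ
    unfold incl
    rw [← integral_indicator_one (measurableSet_incl S)]
    rfl
  have h1 : ClusterPt (incl (ν : Measure (I → Bool)) S) (𝓝 (q S)) :=
    hν.map hc.continuousAt (h S)
  exact eq_of_nhds_neBot h1

variable [DecidableEq I]

lemma den_incl_pos (ν : Measure (I → Bool)) [IsProbabilityMeasure ν] (F : Finset I) {z : I → ℝ}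
    (hz : ∀ j, 0 < z j) : 0 < den (incl ν) F z := by
  have h1 : den (incl ν) F z = ∫ ω, ∑ S ∈ F.powerset,
      (if ∀ j ∈ S, ω j = true then (1 : ℝ) else 0) * ∏ j ∈ S, (z j - 1) ∂ν := by
    rw [integral_finsetSum]
    · unfold den
      refine Finset.sum_congr rfl fun S _ => ?_
      rw [integral_mul_const, integral_incl]
    · intro S _
      refine Integrable.mul_const (integrable_of_bdd (measurable_ite_incl S) 1 fun ω => ?_) _
      split_ifs <;> simp
  have h2 : ∀ ω : I → Bool, ∏ j ∈ F, min (z j) 1 ≤ ∑ S ∈ F.powerset,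
      (if ∀ j ∈ S, ω j = true then (1 : ℝ) else 0) * ∏ j ∈ S, (z j - 1) := by
    intro ω
    have : ∑ S ∈ F.powerset, (if ∀ j ∈ S, ω j = true then (1 : ℝ) else 0) * ∏ j ∈ S, (z j - 1)
        = ∏ j ∈ F, (1 + (if ω j = true then 1 else 0) * (z j - 1)) := by
      rw [Finset.prod_one_add]
      refine Finset.sum_congr rfl fun S _ => ?_
      rw [Finset.prod_mul_distrib, Finset.prod_ite_zero]
      simp
    rw [this]
    refine Finset.prod_le_prod (fun j _ => (lt_min (hz j) one_pos).le) fun j _ => ?_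
    split_ifs <;> simp
  have h3 : 0 < ∏ j ∈ F, min (z j) 1 := Finset.prod_pos fun j _ => lt_min (hz j) one_pos
  rw [h1]
  refine h3.trans_le ?_
  have h4 : ∏ j ∈ F, min (z j) 1 = ∫ _ω, ∏ j ∈ F, min (z j) 1 ∂ν := by simp
  rw [h4]
  refine integral_mono (integrable_const _) (integrable_finsetSum _ fun S _ => ?_) h2
  refine Integrable.mul_const (integrable_of_bdd (measurable_ite_incl S) 1 fun ω => ?_) _
  split_ifs <;> simp

lemma tendsto_ratio {qs : ℕ → Finset I → ℝ} {q : Finset I → ℝ}
    (h : ∀ S, Tendsto (fun n => qs n S) atTop (𝓝 (q S))) (F : Finset I) (i : I) {z : I → ℝ}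
    (hd : den q F z ≠ 0) : Tendsto (fun n => ratio (qs n) F i z) atTop (𝓝 (ratio q F i z)) := by
  unfold ratio
  refine Tendsto.div ?_ ?_ hd
  · exact tendsto_finsetSum _ fun S _ => (h _).mul_const _
  · exact tendsto_finsetSum _ fun S _ => (h _).mul_const _

lemma lipAt_of_tendsto {qs : ℕ → Finset I → ℝ} {q : Finset I → ℝ}
    (h : ∀ S, Tendsto (fun n => qs n S) atTop (𝓝 (q S))) {F : Finset I} {i : I}
    (hd : ∀ z : I → ℝ, (∀ j, 0 < z j) → den q F z ≠ 0) (hL : ∀ᶠ n in atTop, LipAt (qs n) F i) :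
    LipAt q F i := by
  intro z z' η hη hz hz' h1 h2
  refine le_of_tendsto ((tendsto_ratio h F i (hd z hz)).sub (tendsto_ratio h F i (hd z' hz'))).abs ?_
  filter_upwards [hL] with n hn
  exact hn z z' η hη hz hz' h1 h2

lemma probAt_of_tendsto {qs : ℕ → Finset I → ℝ} {q : Finset I → ℝ}
    (h : ∀ S, Tendsto (fun n => qs n S) atTop (𝓝 (q S))) {F : Finset I} {i : I}
    (hd : ∀ z : I → ℝ, (∀ j, 0 < z j) → den q F z ≠ 0) (hL : ∀ᶠ n in atTop, ProbAt (qs n) F i) :
    ProbAt q F i := by
  intro z hz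
  constructor
  · refine ge_of_tendsto (tendsto_ratio h F i (hd z hz)) ?_
    filter_upwards [hL] with n hn using (hn z hz).1
  · refine le_of_tendsto (tendsto_ratio h F i (hd z hz)) ?_
    filter_upwards [hL] with n hn using (hn z hz).2

section Map

variable {I' : Type*} [DecidableEq I'] (τ : I' ↪ I)

lemma ratio_extend (q : Finset I → ℝ) (F : Finset I') (i : I') (z : I' → ℝ) :
    ratio (fun S => q (S.map τ)) F i z = ratio q (F.map τ) (τ i) (Function.extend τ z 1) := by
  rw [← ratio_map τ q (fun S => q (S.map τ)) (fun _ => rfl), Function.extend_comp τ.injective]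

omit [DecidableEq I] [DecidableEq I'] in
lemma extend_cases (z z' : I' → ℝ) (P : ℝ → ℝ → Prop) (h : ∀ j, P (z j) (z' j)) (h1 : P 1 1)
    (j : I) : P (Function.extend τ z 1 j) (Function.extend τ z' 1 j) := by
  by_cases hj : ∃ a, τ a = j
  · obtain ⟨a, rfl⟩ := hj
    rw [τ.injective.extend_apply, τ.injective.extend_apply]
    exact h a
  · rw [Function.extend_apply' _ _ _ hj, Function.extend_apply' _ _ _ hj]
    exact h1

lemma LipAt.of_map {q : Finset I → ℝ} {F : Finset I'} {i : I'} (h : LipAt q (F.map τ) (τ i)) :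
    LipAt (fun S => q (S.map τ)) F i := by
  intro z z' η hη hz hz' h1 h2
  rw [ratio_extend, ratio_extend]
  exact h _ _ η hη (extend_cases τ z z (fun a _ => 0 < a) hz one_pos)
    (extend_cases τ z' z' (fun a _ => 0 < a) hz' one_pos)
    (extend_cases τ z z' (fun a b => a ≤ Real.exp η * b) h1 (by simpa using hη))
    (extend_cases τ z' z (fun a b => a ≤ Real.exp η * b) h2 (by simpa using hη))

lemma ProbAt.of_map {q : Finset I → ℝ} {F : Finset I'} {i : I'} (h : ProbAt q (F.map τ) (τ i)) :
    ProbAt (fun S => q (S.map τ)) F i := by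
  intro z hz
  rw [ratio_extend]
  exact h _ (extend_cases τ z z (fun a _ => 0 < a) hz one_pos)

omit [DecidableEq I'] in
lemma exists_finite_measure {c : Finset I → ℝ} (hc : ∀ A, 0 ≤ c A) (E : Finset I)
    (hZ : 0 < top c E ∅) : ∃ μ : Measure (I' → Bool), IsProbabilityMeasure μ ∧
      ∀ S, incl μ S = top c E (S.map τ) / top c E ∅ := by
  set μ : Measure (I' → Bool) := ∑ A ∈ E.powerset,
    ENNReal.ofReal (c A / top c E ∅) • Measure.dirac (fun e => decide (τ e ∈ A)) with hμ
  have key : ∀ S : Finset I', μ {ω | ∀ j ∈ S, ω j = true}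
      = ENNReal.ofReal (top c E (S.map τ) / top c E ∅) := by
    intro S
    rw [hμ, Measure.finsetSum_apply]
    conv_rhs => rw [top, Finset.sum_div, ENNReal.ofReal_sum_of_nonneg
      (fun A _ => div_nonneg (hc A) hZ.le), Finset.sum_filter]
    refine Finset.sum_congr rfl fun A _ => ?_
    rw [Measure.smul_apply, Measure.dirac_apply' _ (measurableSet_incl S)]
    have : (fun e => decide (τ e ∈ A)) ∈ {ω : I' → Bool | ∀ j ∈ S, ω j = true} ↔ S.map τ ⊆ A := by
      simp [Finset.subset_iff]
    by_cases h : S.map τ ⊆ A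
    · rw [Set.indicator_of_mem (this.2 h)]; simp [h]
    · rw [Set.indicator_of_notMem (fun h' => h (this.1 h'))]; simp [h]
  refine ⟨μ, ⟨?_⟩, fun S => ?_⟩
  · have := key ∅
    simpa [div_self hZ.ne'] using this
  · unfold incl Measure.real
    rw [key, ENNReal.toReal_ofReal (div_nonneg (top_nonneg hc _ _) hZ.le)]

end Map

end Crest.Agent.FIID
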