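import Crest.Agent.FIID.Stable

/-!
The weighted matrix-tree theorem and stability of the spanning tree polynomial.
-/

namespace Crest.Agent.FIID

open Matrix

/-- A Cauchy–Binet type expansion of the determinant of a weighted Gram matrix. -/
lemma det_gram_expand {V I R : Type*} [Fintype V] [DecidableEq V] [DecidableEq I] [CommRing R]
    (E : Finset I) (b : I → V → R) :
    ∃ c : Finset I → R,
      (∀ z : I → R, det (of fun u v => ∑ e ∈ E, z e * b e u * b e v)
        = ∑ A ∈ E.powerset, c A * ∏ e ∈ A, z e) ∧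
      (∀ A, A.card ≠ Fintype.card V → c A = 0) ∧
      (∀ A ⊆ E, ∀ φ : V ≃ A, c A = det (of fun u v => b (φ v) u) ^ 2) := by
  set D : (V → I) → R := fun f => (∏ v, b (f v) v) * det (of fun u v => b (f v) u) with hD
  have hD0 : ∀ f, ¬ Function.Injective f → D f = 0 := by
    intro f hf
    simp only [Function.Injective, not_forall] at hf
    obtain ⟨i, j, hij, hne⟩ := hf
    simp only [hD]
    rw [det_zero_of_column_eq hne (fun k => by simp [hij]), mul_zero]
  set c : Finset I → R := fun A =>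
    ∑ f ∈ Fintype.piFinset (fun _ : V => E) with Finset.univ.image f = A, D f with hc
  have h1 : ∀ z : I → R, det (of fun u v => ∑ e ∈ E, z e * b e u * b e v)
      = ∑ A ∈ E.powerset, c A * ∏ e ∈ A, z e := by
    intro z
    have e1 : det (of fun u v => ∑ e ∈ E, z e * b e u * b e v)
        = ∑ f ∈ Fintype.piFinset (fun _ : V => E), (∏ v, z (f v)) * D f := by
      simp only [det_apply', of_apply, Finset.prod_univ_sum, Finset.mul_sum, hD]
      rw [Finset.sum_comm]
      refine Finset.sum_congr rfl fun f _ => Finset.sum_congr rfl fun σ _ => ?_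
      simp only [Finset.prod_mul_distrib]
      ring
    rw [e1, ← Finset.sum_fiberwise_of_maps_to (t := E.powerset) (g := fun f => Finset.univ.image f)]
    · refine Finset.sum_congr rfl fun A _ => ?_
      simp only [hc, Finset.sum_mul]
      refine Finset.sum_congr rfl fun f hf => ?_
      by_cases hinj : Function.Injective f
      · rw [← (Finset.mem_filter.1 hf).2, Finset.prod_image fun x _ y _ h => hinj h, mul_comm]
      · simp [hD0 f hinj]
    · intro f hf
      rw [Finset.mem_powerset, Finset.image_subset_iff]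
      exact fun v _ => Fintype.mem_piFinset.1 hf v
  have h2 : ∀ A, A.card ≠ Fintype.card V → c A = 0 := by
    intro A hA
    refine Finset.sum_eq_zero fun f hf => hD0 f fun hinj => hA ?_
    rw [← (Finset.mem_filter.1 hf).2, Finset.card_image_of_injective _ hinj, Finset.card_univ]
  refine ⟨c, h1, h2, fun A hA φ => ?_⟩
  have hcard : A.card = Fintype.card V := by
    rw [Fintype.card_congr φ, Fintype.card_coe]
  have h3 := h1 (fun e => if e ∈ A then 1 else 0)
  rw [Finset.sum_eq_single A] at h3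
  · rw [Finset.prod_eq_one (fun e he => by simp [he]), mul_one] at h3
    rw [← h3, sq]
    conv_rhs => enter [2]; rw [← det_transpose]
    rw [← det_mul]
    congr 1
    ext u v
    simp only [of_apply, mul_apply, transpose_apply, ite_mul, one_mul, zero_mul]
    rw [Finset.sum_ite_mem, Finset.inter_eq_right.2 hA, ← Finset.sum_coe_sort A,
      ← φ.sum_comp]
  · intro B _ hBA
    by_cases hsub : B ⊆ A
    · rw [h2 B, zero_mul]
      rw [← hcard]
      exact (Finset.card_lt_card (Finset.ssubset_iff_subset_ne.2 ⟨hsub, hBA⟩)).ne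
    · obtain ⟨e, he, heA⟩ := Finset.not_subset.1 hsub
      rw [Finset.prod_eq_zero he (by simp [heA]), mul_zero]
  · intro h; exact absurd (Finset.mem_powerset.2 hA) h

/-- Connectivity of an edge set on a vertex set, through invariant predicates. -/
def Conn (S : Finset ℕ) (A : Finset (Sym2 ℕ)) : Prop :=
  ∀ φ : ℕ → Prop, (∀ a b, s(a, b) ∈ A → φ a → φ b) → ∀ a ∈ S, ∀ b ∈ S, φ a → φ b

lemma Conn.mono {S : Finset ℕ} {A B : Finset (Sym2 ℕ)} (h : Conn S A) (hAB : A ⊆ B) : Conn S B :=
  fun φ hφ => h φ fun a b hab => hφ a b (hAB hab)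

/-- Signed incidence vector. -/
def bz (e : Sym2 ℕ) (u : ℕ) : ℤ := (if u = e.inf then 1 else 0) - (if u = e.sup then 1 else 0)

lemma sum_bz {K : Type*} [CommRing K] {S : Finset ℕ} {r : ℕ} (g : ℕ → K) (hg : g r = 0)
    {e : Sym2 ℕ} (he : e ∈ S.sym2) :
    ∑ u : S.erase r, g u * (bz e u : K) = g e.inf - g e.sup := by
  have key : ∀ w ∈ S, ∑ u : S.erase r, g u * (if (u : ℕ) = w then 1 else 0) = g w := by
    intro w hw
    rw [Finset.sum_coe_sort (S.erase r) (fun u => g u * (if u = w then 1 else 0))]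
    simp only [mul_ite, mul_one, mul_zero, Finset.sum_ite_eq', Finset.mem_erase]
    split_ifs with h
    · rfl
    · have : w = r := by
        by_contra h'; exact h ⟨h', hw⟩
      rw [this, hg]
  induction e using Sym2.ind with
  | _ a b =>
    rw [Finset.mk_mem_sym2_iff] at he
    have h1 : s(a, b).inf ∈ S := by
      rw [Sym2.inf_mk]; rcases le_total a b with h | h <;> simp [h, he.1, he.2]
    have h2 : s(a, b).sup ∈ S := by
      rw [Sym2.sup_mk]; rcases le_total a b with h | h <;> simp [h, he.1, he.2]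
    rw [← key _ h1, ← key _ h2, ← Finset.sum_sub_distrib]
    refine Finset.sum_congr rfl fun u _ => ?_
    simp only [bz]
    push_cast
    ring

lemma eq_of_inf_sup {K : Type*} (g : ℕ → K) (a b : ℕ) :
    g s(a, b).inf = g s(a, b).sup ↔ g a = g b := by
  rw [Sym2.inf_mk, Sym2.sup_mk]
  rcases le_total a b with h | h <;> simp [h, eq_comm]

lemma ker_trivial {K : Type*} [CommRing K] {S : Finset ℕ} {r : ℕ} (hr : r ∈ S)
    {A : Finset (Sym2 ℕ)} (hA : A ⊆ S.sym2) (hc : Conn S A) (v : S.erase r → K)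
    (hv : ∀ e ∈ A, ∑ u : S.erase r, v u * (bz e u : K) = 0) : v = 0 := by
  set g : ℕ → K := fun w => if h : w ∈ S.erase r then v ⟨w, h⟩ else 0 with hg
  have hgr : g r = 0 := by simp [hg]
  have hgv : ∀ u : S.erase r, g u = v u := fun u => by simp only [hg, u.2, dif_pos]
  have h1 := hc (fun w => g w = 0) (by
    intro a b hab ha
    have h2 := sum_bz g hgr (hA hab)
    simp only [hgv] at h2
    rw [hv _ hab, eq_comm, sub_eq_zero, eq_of_inf_sup] at h2
    rw [← h2]; exact ha) r hr
  ext u
  rw [← hgv]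
  exact h1 u (Finset.mem_of_mem_erase u.2) hgr

lemma ker_nontrivial {K : Type*} [CommRing K] [Nontrivial K] {S : Finset ℕ} {r : ℕ}
    {A : Finset (Sym2 ℕ)} (hA : A ⊆ S.sym2) (hc : ¬ Conn S A) :
    ∃ v : S.erase r → K, v ≠ 0 ∧ ∀ e ∈ A, ∑ u : S.erase r, v u * (bz e u : K) = 0 := by
  classical
  simp only [Conn, not_forall] at hc
  obtain ⟨φ, hφ, a, ha, b, hb, hφa, hφb⟩ := hc
  set g : ℕ → K := fun w => if (φ w ↔ φ r) then 0 else 1 with hg
  have hgr : g r = 0 := by simp [hg]
  refine ⟨fun u => g u, fun h => ?_, fun e he => ?_⟩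
  · have key : ∀ w ∈ S, (φ w ↔ φ r) := by
      intro w hw
      by_cases hwr : w = r
      · rw [hwr]
      · have := congrFun h ⟨w, Finset.mem_erase.2 ⟨hwr, hw⟩⟩
        by_contra h'
        simp [hg, h'] at this
    exact hφb ((key b hb).2 ((key a ha).1 hφa))
  · rw [sum_bz g hgr (hA he), sub_eq_zero]
    induction e using Sym2.ind with
    | _ x y =>
      rw [eq_of_inf_sup]
      have : φ x ↔ φ y := ⟨hφ x y he, hφ y x (by rwa [Sym2.eq_swap])⟩
      simp only [hg, this]

lemma det_sq_eq {S : Finset ℕ} {r : ℕ} (hr : r ∈ S) {A : Finset (Sym2 ℕ)} (hA : A ⊆ S.sym2)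
    (φ : S.erase r ≃ A) [Decidable (Conn S A)] :
    det (of fun u v : S.erase r => bz (φ v) u) ^ 2 = if Conn S A then 1 else 0 := by
  split_ifs with hc
  · rw [sq_eq_one_iff, ← Int.isUnit_iff, Int.isUnit_iff_natAbs_eq]
    by_contra hne
    obtain ⟨p, hp, hdvd⟩ := Int.exists_prime_and_dvd hne
    have : Fact p.natAbs.Prime := ⟨Int.prime_iff_natAbs_prime.1 hp⟩
    have h0 : ((det (of fun u v : S.erase r => bz (φ v) u) : ℤ) : ZMod p.natAbs) = 0 := by
      rw [ZMod.intCast_zmod_eq_zero_iff_dvd]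
      simpa using hdvd
    rw [Int.cast_det, ← exists_vecMul_eq_zero_iff] at h0
    obtain ⟨v, hv0, hv⟩ := h0
    refine hv0 (ker_trivial hr hA hc v fun e he => ?_)
    have := congrFun hv (φ.symm ⟨e, he⟩)
    simpa [vecMul, dotProduct] using this
  · rw [sq_eq_zero_iff, ← exists_vecMul_eq_zero_iff]
    obtain ⟨v, hv0, hv⟩ := ker_nontrivial (K := ℤ) (r := r) hA hc
    refine ⟨v, hv0, ?_⟩
    ext w
    simpa [vecMul, dotProduct] using hv (φ w) (φ w).2

/-- Spanning trees, combinatorially. -/
def Tr (S : Finset ℕ) (A : Finset (Sym2 ℕ)) : Prop := Conn S A ∧ A.card + 1 = S.card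

open scoped Classical in
/-- Indicator of spanning trees. -/
noncomputable def tw (S : Finset ℕ) (A : Finset (Sym2 ℕ)) : ℝ := if Tr S A then 1 else 0

lemma tw_nonneg (S : Finset ℕ) (A : Finset (Sym2 ℕ)) : 0 ≤ tw S A := by
  unfold tw; split_ifs <;> norm_num

theorem matrix_tree {S : Finset ℕ} {r : ℕ} (hr : r ∈ S) {E : Finset (Sym2 ℕ)} (hE : E ⊆ S.sym2)
    (z : Sym2 ℕ → ℂ) :
    det (of fun u v : S.erase r => ∑ e ∈ E, z e * (bz e u : ℂ) * (bz e v : ℂ)) = mp (tw S) E z := by
  classical
  obtain ⟨c, h1, h2, h3⟩ := det_gram_expand E (fun e (u : S.erase r) => (bz e u : ℂ))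
  rw [h1]
  refine Finset.sum_congr rfl fun A hA => ?_
  congr 1
  have hAE := Finset.mem_powerset.1 hA
  have hcard : Fintype.card (S.erase r) + 1 = S.card := by
    rw [Fintype.card_coe, Finset.card_erase_add_one hr]
  by_cases hA' : A.card = Fintype.card (S.erase r)
  · have φ : S.erase r ≃ A := Fintype.equivOfCardEq (by rw [← hA', Fintype.card_coe])
    rw [h3 A hAE φ]
    have h4 := det_sq_eq hr (hAE.trans hE) φ
    have h5 : det (of fun u v : S.erase r => (bz (φ v) u : ℂ))
        = ((det (of fun u v : S.erase r => bz (φ v) u) : ℤ) : ℂ) := by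
      rw [Int.cast_det]; rfl
    rw [h5, ← Int.cast_pow, h4]
    unfold tw Tr
    rw [← hA'] at hcard
    by_cases hc : Conn S A <;> simp [hc, hcard]
  · rw [h2 A hA']
    unfold tw Tr
    rw [if_neg]
    · simp
    · rintro ⟨_, h⟩; omega

theorem stable_tw {S : Finset ℕ} (hS : S.Nonempty) {E : Finset (Sym2 ℕ)} (hE : E ⊆ S.sym2)
    (hc : Conn S E) : Stable (tw S) E := by
  obtain ⟨r, hr⟩ := hS
  intro z hz h0
  rw [← matrix_tree hr hE, ← exists_mulVec_eq_zero_iff] at h0
  obtain ⟨v, hv0, hv⟩ := h0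
  set β : Sym2 ℕ → ℂ := fun e => ∑ u : S.erase r, v u * (bz e u : ℂ) with hβ
  have h1 : ∑ e ∈ E, z e * (Complex.normSq (β e) : ℂ) = 0 := by
    have h2 : ∑ u : S.erase r, (starRingEnd ℂ) (v u) * (mulVec (of fun u v : S.erase r =>
        ∑ e ∈ E, z e * (bz e u : ℂ) * (bz e v : ℂ)) v) u = 0 := by
      rw [hv]; simp
    rw [← h2]
    simp only [mulVec, dotProduct, of_apply, Finset.sum_mul, Finset.mul_sum,
      Complex.normSq_eq_conj_mul_self, hβ, map_sum, map_mul, map_intCast]
    rw [Finset.sum_comm]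
    conv_rhs => rw [Finset.sum_comm]
    refine Finset.sum_congr rfl fun u _ => ?_
    rw [Finset.sum_comm]
    refine Finset.sum_congr rfl fun w _ => Finset.sum_congr rfl fun e _ => ?_
    ring
  have h3 := congrArg Complex.im h1
  simp only [Complex.im_sum, Complex.mul_im, Complex.ofReal_im, mul_zero, Complex.ofReal_re,
    zero_add, Complex.zero_im] at h3
  have h4 := (Finset.sum_eq_zero_iff_of_nonneg fun e he =>
    mul_nonneg (hz e he).le (Complex.normSq_nonneg (β e))).1 h3
  refine hv0 (ker_trivial hr hE hc v fun e he => ?_)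
  have := h4 e he
  rw [mul_eq_zero] at this
  rcases this with h | h
  · exact absurd h (hz e he).ne'
  · exact Complex.normSq_eq_zero.1 h

end Crest.Agent.FIID
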