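import Crest.Agent.FIID.Basic

/-!
One dimensional facts: the uniform law on `[-1,1]`, its linear tilts, and the probability integral
transform.
-/

open MeasureTheory Set

namespace Crest.Agent.FIID

/-- Uniform law on `[-1,1]`. -/
noncomputable def unif : Measure ℝ := (2⁻¹ : ENNReal) • volume.restrict (Icc (-1 : ℝ) 1)

/-- Tilted law with density `1 + s x / 20`. -/
noncomputable def lam (s : ℝ) : Measure ℝ :=
  unif.withDensity fun x => ENNReal.ofReal (1 + s * cl x / 20)

instance : IsProbabilityMeasure unif := by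
  constructor
  simp only [unif, Measure.smul_apply, MeasurableSet.univ, Measure.restrict_apply, univ_inter,
    Real.volume_Icc, smul_eq_mul]
  norm_num
  exact ENNReal.inv_mul_cancel (by norm_num) (by norm_num)

lemma integral_unif (g : ℝ → ℝ) : ∫ x, g x ∂unif = (∫ x in Icc (-1 : ℝ) 1, g x) / 2 := by
  unfold unif
  rw [integral_smul_measure]
  simp only [ENNReal.toReal_inv, ENNReal.toReal_ofNat, smul_eq_mul]
  ring

lemma ae_unif : ∀ᵐ x ∂unif, |x| ≤ 1 := by
  unfold unif
  refine Measure.ae_smul_measure ?_ _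
  filter_upwards [ae_restrict_mem measurableSet_Icc] with x hx
  exact abs_le.2 hx

lemma ae_lam (s : ℝ) : ∀ᵐ x ∂lam s, |x| ≤ 1 :=
  (withDensity_absolutelyContinuous _ _).ae_le ae_unif

lemma dens_pos {s : ℝ} (hs : |s| ≤ 1) (x : ℝ) : 0 < 1 + s * cl x / 20 := by
  have h1 : |s * cl x| ≤ 1 := by
    rw [abs_mul]
    exact mul_le_one₀ hs (abs_nonneg _) (abs_cl_le x)
  linarith [(abs_le.1 h1).1]

lemma dens_le {s : ℝ} (hs : |s| ≤ 1) (x : ℝ) : 1 + s * cl x / 20 ≤ 2 := by
  have h1 : |s * cl x| ≤ 1 := by
    rw [abs_mul]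
    exact mul_le_one₀ hs (abs_nonneg _) (abs_cl_le x)
  linarith [(abs_le.1 h1).2]

lemma integral_lam {s : ℝ} (hs : |s| ≤ 1) (g : ℝ → ℝ) :
    ∫ x, g x ∂lam s = ∫ x, (1 + s * cl x / 20) * g x ∂unif := by
  unfold lam
  rw [integral_withDensity_eq_integral_toReal_smul (by fun_prop) (by simp)]
  refine integral_congr_ae (Filter.Eventually.of_forall fun x => ?_)
  simp only [smul_eq_mul]
  rw [ENNReal.toReal_ofReal (dens_pos hs x).le]

/-- Probability integral transform. -/
lemma integral_pit {m : ℝ} (hm : |m| ≤ 1) (φ : ℝ → ℝ) :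
    ∫ x, (1 + m * cl x / 20) * φ (x - m * (1 - cl x ^ 2) / 40) ∂unif = ∫ x, φ x ∂unif := by
  rw [integral_unif, integral_unif]
  congr 1
  set f : ℝ → ℝ := fun x => x - m * (1 - x ^ 2) / 40 with hf
  have hm' := abs_le.1 hm
  have hd : ∀ x ∈ Icc (-1 : ℝ) 1, HasDerivWithinAt f (1 + m * x / 20) (Icc (-1 : ℝ) 1) x := by
    intro x _
    have : HasDerivAt f (1 - m * (0 - 2 * x ^ 1 * 1) / 40) x := by
      refine (hasDerivAt_id x).sub (HasDerivAt.div_const (HasDerivAt.const_mul m ?_) 40)
      exact (hasDerivAt_const x (1 : ℝ)).sub ((hasDerivAt_id x).pow 2)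
    have e : 1 + m * x / 20 = 1 - m * (0 - 2 * x ^ 1 * 1) / 40 := by ring
    rw [e]
    exact this.hasDerivWithinAt
  have hmono : StrictMonoOn f (Icc (-1 : ℝ) 1) := by
    intro x hx y hy hxy
    have : f y - f x = (y - x) * (1 + m * (x + y) / 40) := by simp only [hf]; ring
    have h2 : |m * (x + y)| ≤ 2 := by
      rw [abs_mul]
      have : |x + y| ≤ 2 := abs_le.2 ⟨by linarith [hx.1, hy.1], by linarith [hx.2, hy.2]⟩
      calc |m| * |x + y| ≤ 1 * 2 := mul_le_mul hm this (abs_nonneg _) (by norm_num)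
        _ = 2 := by norm_num
    have h3 : 0 < (y - x) * (1 + m * (x + y) / 40) :=
      mul_pos (by linarith) (by linarith [(abs_le.1 h2).1])
    linarith
  have him : f '' Icc (-1 : ℝ) 1 = Icc (-1 : ℝ) 1 := by
    have hc : ContinuousOn f (Icc (-1 : ℝ) 1) := by
      apply Continuous.continuousOn; simp only [hf]; fun_prop
    rw [hc.image_Icc_of_monotoneOn (by norm_num) hmono.monotoneOn]
    simp [hf]
  have := integral_image_eq_integral_abs_deriv_smul measurableSet_Icc hd hmono.injOn φ
  rw [him] at this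
  rw [this]
  refine setIntegral_congr_fun measurableSet_Icc fun x hx => ?_
  have hx' : |x| ≤ 1 := abs_le.2 hx
  have hp := dens_pos hm x
  simp only [smul_eq_mul, hf]
  rw [cl_of_abs_le hx'] at hp ⊢
  rw [abs_of_pos hp]

lemma isProbabilityMeasure_lam {s : ℝ} (hs : |s| ≤ 1) : IsProbabilityMeasure (lam s) := by
  constructor
  have h1 := integral_pit hs (fun _ => 1)
  simp only [mul_one, integral_const, probReal_univ, smul_eq_mul] at h1
  unfold lam
  rw [withDensity_apply _ MeasurableSet.univ, Measure.restrict_univ,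
    ← ofReal_integral_eq_lintegral_ofReal, h1]
  · simp
  · refine Integrable.of_bound (by fun_prop) 2 (Filter.Eventually.of_forall fun x => ?_)
    rw [Real.norm_eq_abs, abs_of_pos (dens_pos hs x)]
    exact dens_le hs x
  · exact Filter.Eventually.of_forall fun x => (dens_pos hs x).le

instance : IsProbabilityMeasure (lam 1) := isProbabilityMeasure_lam (by simp)

lemma cl_neg (x : ℝ) : cl (-x) = -cl x := by
  unfold cl
  rcases le_total x 1 with h | h <;> rcases le_total x (-1) with h' | h' <;>
    simp only [max_def, min_def] <;> split_ifs <;> linarith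

lemma unif_map_neg : unif.map (fun x => -x) = unif := by
  unfold unif
  rw [Measure.map_smul]
  congr 1
  have h := (Measure.measurePreserving_neg (volume : Measure ℝ)).restrict_preimage
    (measurableSet_Icc (a := (-1 : ℝ)) (b := 1))
  have e : (Neg.neg : ℝ → ℝ) ⁻¹' Icc (-1 : ℝ) 1 = Icc (-1 : ℝ) 1 := by
    ext x; simp only [mem_preimage, mem_Icc]; constructor <;> rintro ⟨h1, h2⟩ <;>
      constructor <;> linarith
  rw [e] at h
  exact h.map_eq

/-- The sign attached to a bit. -/
def sg (b : Bool) : ℝ := if b then 1 else -1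

lemma abs_sg (b : Bool) : |sg b| = 1 := by cases b <;> simp [sg]

@[fun_prop]
lemma measurable_sg : Measurable sg := measurable_from_top

lemma lam_map_sg (b : Bool) : (lam 1).map (fun t => sg b * t) = lam (sg b) := by
  cases b
  · simp only [sg, Bool.false_eq_true, if_false, neg_mul, one_mul]
    ext s hs
    rw [Measure.map_apply measurable_neg hs]
    unfold lam
    rw [withDensity_apply _ hs, withDensity_apply _ (measurable_neg hs)]
    conv_rhs => rw [← unif_map_neg]
    rw [setLIntegral_map hs (by fun_prop) measurable_neg]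
    simp [cl_neg]
  · simp [sg]

lemma integral_id_lam : ∫ x, x ∂lam 1 = 1 / 60 := by
  rw [integral_lam (by simp), integral_unif]
  have : ∫ x in Icc (-1 : ℝ) 1, (1 + 1 * cl x / 20) * x = ∫ x in Icc (-1 : ℝ) 1, (x + x ^ 2 / 20) := by
    refine setIntegral_congr_fun measurableSet_Icc fun x hx => ?_
    show (1 + 1 * cl x / 20) * x = x + x ^ 2 / 20
    rw [cl_of_abs_le (abs_le.2 hx)]
    ring
  rw [this, integral_Icc_eq_integral_Ioc, ← intervalIntegral.integral_of_le (by norm_num),
    intervalIntegral.integral_add (by simp) (Continuous.intervalIntegrable (by fun_prop) _ _),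
    intervalIntegral.integral_div]
  simp
  norm_num

end Crest.Agent.FIID
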