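import Crest.Agent.FIID.Basic

/-!
Stable multiaffine polynomials with nonnegative coefficients: negative correlation and a
Lipschitz bound for the tilted occupation probabilities.
-/

open Filter Topology

namespace Crest.Agent.FIID

variable {I : Type*}

/-- Multiaffine polynomial, complex evaluation. -/
noncomputable def mp (c : Finset I → ℝ) (E : Finset I) (z : I → ℂ) : ℂ :=
  ∑ A ∈ E.powerset, (c A : ℂ) * ∏ j ∈ A, z j

/-- Multiaffine polynomial, real evaluation. -/
noncomputable def mr (c : Finset I → ℝ) (E : Finset I) (x : I → ℝ) : ℝ :=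
  ∑ A ∈ E.powerset, c A * ∏ j ∈ A, x j

/-- Stability: no zero in the product of upper half planes. -/
def Stable (c : Finset I → ℝ) (E : Finset I) : Prop :=
  ∀ z : I → ℂ, (∀ j ∈ E, 0 < (z j).im) → mp c E z ≠ 0

lemma mp_ofReal (c : Finset I → ℝ) (E : Finset I) (x : I → ℝ) :
    mp c E (fun j => (x j : ℂ)) = (mr c E x : ℂ) := by
  simp [mp, mr]

lemma mp_congr (c : Finset I → ℝ) (E : Finset I) {z z' : I → ℂ} (h : ∀ j ∈ E, z j = z' j) :
    mp c E z = mp c E z' :=
  Finset.sum_congr rfl fun A hA => by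
    rw [Finset.prod_congr rfl fun j hj => h j (Finset.mem_powerset.1 hA hj)]

lemma mr_congr (c : Finset I → ℝ) (E : Finset I) {z z' : I → ℝ} (h : ∀ j ∈ E, z j = z' j) :
    mr c E z = mr c E z' :=
  Finset.sum_congr rfl fun A hA => by
    rw [Finset.prod_congr rfl fun j hj => h j (Finset.mem_powerset.1 hA hj)]

lemma mp_conj (c : Finset I → ℝ) (E : Finset I) (z : I → ℂ) :
    mp c E (fun j => (starRingEnd ℂ) (z j)) = (starRingEnd ℂ) (mp c E z) := by
  simp [mp]

lemma mr_nonneg {c : Finset I → ℝ} (hc : ∀ A, 0 ≤ c A) (E : Finset I) {x : I → ℝ}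
    (hx : ∀ j, 0 ≤ x j) : 0 ≤ mr c E x :=
  Finset.sum_nonneg fun A _ => mul_nonneg (hc A) (Finset.prod_nonneg fun j _ => hx j)

lemma mr_pos {c : Finset I → ℝ} (hc : ∀ A, 0 ≤ c A) {E : Finset I} (hs : Stable c E) {x : I → ℝ}
    (hx : ∀ j, 0 < x j) : 0 < mr c E x := by
  refine lt_of_le_of_ne (mr_nonneg hc E fun j => (hx j).le) fun h => ?_
  have h1 := (Finset.sum_eq_zero_iff_of_nonneg fun A _ =>
    mul_nonneg (hc A) (Finset.prod_nonneg fun j _ => (hx j).le)).1 h.symm
  refine hs (fun _ => Complex.I) (by simp) (Finset.sum_eq_zero fun A hA => ?_)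
  have h2 := h1 A hA
  rw [mul_eq_zero] at h2
  rcases h2 with h2 | h2
  · simp [h2]
  · exact absurd h2 (Finset.prod_pos fun j _ => hx j).ne'

lemma continuous_mp {X : Type*} [TopologicalSpace X] (c : Finset I → ℝ) (E : Finset I)
    {z : X → I → ℂ} (hz : ∀ j, Continuous fun t => z t j) : Continuous fun t => mp c E (z t) :=
  continuous_finsetSum _ fun _ _ => continuous_const.mul (continuous_finsetProd _ fun j _ => hz j)

lemma differentiable_mp (c : Finset I → ℝ) (E : Finset I)
    {z : ℂ → I → ℂ} (hz : ∀ j, Differentiable ℂ fun t => z t j) :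
    Differentiable ℂ fun t => mp c E (z t) := by
  unfold mp
  refine Differentiable.fun_sum fun A _ => Differentiable.const_mul ?_ _
  exact Differentiable.fun_finsetProd fun j _ => hz j

variable [DecidableEq I]

lemma mp_split (c : Finset I → ℝ) {E : Finset I} {i : I} (hi : i ∈ E) (z : I → ℂ) :
    mp c E z = z i * mp (fun A => c (insert i A)) (E.erase i) z + mp c (E.erase i) z := by
  unfold mp
  conv_lhs => rw [← Finset.insert_erase hi]
  rw [Finset.sum_powerset_insert (Finset.notMem_erase i E), add_comm, Finset.mul_sum]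
  congr 1
  refine Finset.sum_congr rfl fun A hA => ?_
  have : i ∉ A := fun h => Finset.notMem_erase i E (Finset.mem_powerset.1 hA h)
  rw [Finset.prod_insert this]; ring

lemma mr_split (c : Finset I → ℝ) {E : Finset I} {i : I} (hi : i ∈ E) (x : I → ℝ) :
    mr c E x = x i * mr (fun A => c (insert i A)) (E.erase i) x + mr c (E.erase i) x := by
  have := mp_split c hi (fun j => (x j : ℂ))
  simp only [mp_ofReal] at this
  exact_mod_cast this

lemma mr_update_affine (c : Finset I → ℝ) (E : Finset I) (x : I → ℝ) (j : I) :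
    ∃ α β : ℝ, ∀ t : ℂ, mp c E (Function.update (fun k => (x k : ℂ)) j t) = α * t + β := by
  by_cases hj : j ∈ E
  · refine ⟨mr (fun A => c (insert j A)) (E.erase j) x, mr c (E.erase j) x, fun t => ?_⟩
    rw [mp_split c hj, Function.update_self, ← mp_ofReal, ← mp_ofReal, mul_comm]
    congr 1
    · congr 1
      exact mp_congr _ _ fun k hk => Function.update_of_ne (Finset.ne_of_mem_erase hk) _ _
    · exact mp_congr _ _ fun k hk => Function.update_of_ne (Finset.ne_of_mem_erase hk) _ _
  · refine ⟨0, mr c E x, fun t => ?_⟩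
    rw [← mp_ofReal]
    simp only [Complex.ofReal_zero, zero_mul, zero_add]
    exact mp_congr _ _ fun k hk => Function.update_of_ne (by rintro rfl; exact hj hk) _ _

/-- The basic Pick inequality. -/
lemma im_mul_conj_nonneg {c : Finset I → ℝ} {E : Finset I} (hs : Stable c E) {i : I} (hi : i ∈ E)
    (z : I → ℂ) (hz : ∀ j, 0 ≤ (z j).im) :
    0 ≤ (mp c (E.erase i) z *
      (starRingEnd ℂ) (mp (fun A => c (insert i A)) (E.erase i) z)).im := by
  have key : ∀ z : I → ℂ, (∀ j, 0 < (z j).im) → 0 ≤ (mp c (E.erase i) z *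
      (starRingEnd ℂ) (mp (fun A => c (insert i A)) (E.erase i) z)).im := by
    intro z hz
    by_contra hneg
    push Not at hneg
    set a := mp (fun A => c (insert i A)) (E.erase i) z with ha
    set b := mp c (E.erase i) z with hb
    have ha0 : a ≠ 0 := by
      intro h; rw [h] at hneg; simp at hneg
    have hs0 : 0 < (-b / a).im := by
      have : -b / a = -(b * (starRingEnd ℂ) a) / (Complex.normSq a : ℂ) := by
        rw [Complex.normSq_eq_conj_mul_self]
        have : (starRingEnd ℂ) a ≠ 0 := by simpa using ha0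
        field_simp
      rw [this, Complex.div_ofReal_im, Complex.neg_im]
      exact div_pos (by linarith) (Complex.normSq_pos.2 ha0)
    refine hs (Function.update z i (-b / a)) ?_ ?_
    · intro j _
      by_cases hji : j = i
      · subst hji; simpa using hs0
      · rw [Function.update_of_ne hji]; exact hz j
    · have hu : ∀ k ∈ E.erase i, Function.update z i (-b / a) k = z k :=
        fun k hk => Function.update_of_ne (Finset.ne_of_mem_erase hk) _ _
      rw [mp_split c hi, Function.update_self, mp_congr _ _ hu, mp_congr c _ hu, ← ha, ← hb]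
      field_simp
      ring
  have hc : Continuous fun ε : ℝ => (mp c (E.erase i) (fun j => z j + ε * Complex.I) *
      (starRingEnd ℂ) (mp (fun A => c (insert i A)) (E.erase i)
        (fun j => z j + ε * Complex.I))).im := by
    refine Complex.continuous_im.comp (Continuous.mul ?_ (Complex.continuous_conj.comp ?_)) <;>
      exact continuous_mp _ _ fun j => by fun_prop
  have h1 := (hc.tendsto 0).mono_left (nhdsWithin_le_nhds (s := Set.Ioi 0))
  simp only [Complex.ofReal_zero, zero_mul, add_zero] at h1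
  refine ge_of_tendsto h1 ?_
  filter_upwards [self_mem_nhdsWithin] with ε hε
  refine key _ fun j => ?_
  simp only [Complex.add_im, Complex.mul_im, Complex.ofReal_re, Complex.I_im, mul_one,
    Complex.ofReal_im, Complex.I_re, mul_zero, add_zero]
  linarith [hz j, Set.mem_Ioi.1 hε]

/-- Negative correlation, one coordinate. -/
lemma rayleigh_one {c : Finset I → ℝ} {E : Finset I} (hs : Stable c E) {i : I} (hi : i ∈ E)
    (x : I → ℝ) (j : I) {t : ℝ} (ht : x j ≤ t) :
    mr (fun A => c (insert i A)) (E.erase i) (Function.update x j t) * mr c (E.erase i) x ≤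
      mr (fun A => c (insert i A)) (E.erase i) x * mr c (E.erase i) (Function.update x j t) := by
  obtain ⟨α, β, h1⟩ := mr_update_affine (fun A => c (insert i A)) (E.erase i) x j
  obtain ⟨γ, κ, h2⟩ := mr_update_affine c (E.erase i) x j
  have h3 := im_mul_conj_nonneg hs hi (Function.update (fun k => (x k : ℂ)) j Complex.I) (by
    intro k
    by_cases hk : k = j
    · subst hk; simp
    · rw [Function.update_of_ne hk]; simp)
  rw [h1, h2] at h3
  simp at h3
  have e : ∀ s : ℝ, Function.update (fun k => (x k : ℂ)) j (s : ℂ)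
      = fun k => ((Function.update x j s k : ℝ) : ℂ) := by
    intro s; ext k
    by_cases hk : k = j
    · subst hk; simp
    · simp [Function.update_of_ne hk]
  have a1 : ∀ s : ℝ, mr (fun A => c (insert i A)) (E.erase i) (Function.update x j s)
      = α * s + β := by
    intro s
    have := h1 s
    rw [e, mp_ofReal] at this
    exact_mod_cast this
  have a2 : ∀ s : ℝ, mr c (E.erase i) (Function.update x j s) = γ * s + κ := by
    intro s
    have := h2 s
    rw [e, mp_ofReal] at this
    exact_mod_cast this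
  have b1 := a1 (x j)
  have b2 := a2 (x j)
  rw [Function.update_eq_self] at b1 b2
  rw [a1, a2, b1, b2]
  nlinarith [mul_nonneg (sub_nonneg.2 ht) (sub_nonneg.2 h3)]

/-- The quotient `a / g`, where `g = x i * a + b`. -/
noncomputable def mq (c : Finset I → ℝ) (E : Finset I) (i : I) (x : I → ℝ) : ℝ :=
  mr (fun A => c (insert i A)) (E.erase i) x / mr c E x

lemma mq_nonneg {c : Finset I → ℝ} (hc : ∀ A, 0 ≤ c A) (E : Finset I) (i : I) {x : I → ℝ}
    (hx : ∀ j, 0 < x j) : 0 ≤ mq c E i x :=
  div_nonneg (mr_nonneg (fun _ => hc _) _ fun j => (hx j).le) (mr_nonneg hc _ fun j => (hx j).le)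

lemma mul_mq_le_one {c : Finset I → ℝ} (hc : ∀ A, 0 ≤ c A) {E : Finset I} (hs : Stable c E)
    {i : I} (hi : i ∈ E) {x : I → ℝ} (hx : ∀ j, 0 < x j) : x i * mq c E i x ≤ 1 := by
  unfold mq
  rw [← mul_div_assoc, div_le_one (mr_pos hc hs hx), mr_split c hi]
  linarith [mr_nonneg hc (E.erase i) fun j => (hx j).le]

/-- `mq` is antitone in every coordinate. -/
lemma mq_anti_one {c : Finset I → ℝ} (hc : ∀ A, 0 ≤ c A) {E : Finset I} (hs : Stable c E)
    {i : I} (hi : i ∈ E) {x : I → ℝ} (hx : ∀ j, 0 < x j) (j : I) {t : ℝ} (ht : x j ≤ t) :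
    mq c E i (Function.update x j t) ≤ mq c E i x := by
  have hy : ∀ k, 0 < Function.update x j t k := by
    intro k
    by_cases hk : k = j
    · subst hk; simpa using (hx k).trans_le ht
    · rw [Function.update_of_ne hk]; exact hx k
  have hxy : x i ≤ Function.update x j t i := by
    by_cases hk : i = j
    · subst hk; simpa using ht
    · rw [Function.update_of_ne hk]
  unfold mq
  rw [div_le_div_iff₀ (mr_pos hc hs hy) (mr_pos hc hs hx), mr_split c hi, mr_split c hi]
  have h1 := rayleigh_one hs hi x j ht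
  have h2 := mr_nonneg (c := fun A => c (insert i A)) (fun _ => hc _) (E.erase i)
    fun j => (hx j).le
  have h3 := mr_nonneg (c := fun A => c (insert i A)) (fun _ => hc _) (E.erase i)
    fun j => (hy j).le
  nlinarith [mul_le_mul_of_nonneg_left hxy (mul_nonneg h2 h3)]

lemma mq_congr (c : Finset I → ℝ) (E : Finset I) (i : I) {x y : I → ℝ} (h : ∀ j ∈ E, x j = y j) :
    mq c E i x = mq c E i y := by
  unfold mq
  rw [mr_congr c E h, mr_congr _ (E.erase i) fun j hj => h j (Finset.mem_of_mem_erase hj)]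

lemma mq_anti {c : Finset I → ℝ} (hc : ∀ A, 0 ≤ c A) {E : Finset I} (hs : Stable c E)
    {i : I} (hi : i ∈ E) {x y : I → ℝ} (hx : ∀ j, 0 < x j) (hxy : ∀ j, x j ≤ y j) :
    mq c E i y ≤ mq c E i x := by
  have key : ∀ U : Finset I, mq c E i (U.piecewise y x) ≤ mq c E i x := by
    intro U
    induction U using Finset.induction_on with
    | empty => simp
    | insert j U hj ih =>
      rw [Finset.piecewise_insert]
      refine le_trans (mq_anti_one hc hs hi ?_ j ?_) ih
      · intro k
        by_cases hk : k ∈ U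
        · rw [Finset.piecewise_eq_of_mem _ _ _ hk]; exact (hx k).trans_le (hxy k)
        · rw [Finset.piecewise_eq_of_notMem _ _ _ hk]; exact hx k
      · rw [Finset.piecewise_eq_of_notMem _ _ _ hj]; exact hxy j
  refine le_trans (le_of_eq (mq_congr c E i fun j hj => ?_)) (key E)
  rw [Finset.piecewise_eq_of_mem _ _ _ hj]

omit [DecidableEq I] in
lemma slit_bound {F : ℂ → ℂ} (hF : DifferentiableOn ℂ F (Metric.ball 0 1))
    (hS : ∀ w ∈ Metric.ball (0 : ℂ) 1, F w ∈ Complex.slitPlane) {c d δ : ℝ} (hc : 0 < c)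
    (hd : 0 < d) (hδ : 0 ≤ δ) (hδ1 : δ < 1) (h0 : F 0 = c) (h1 : F δ = d) :
    c ≤ Real.exp (2 * Real.pi * δ / (1 - δ)) * d := by
  have hb := Complex.borelCaratheodory_zero (f := fun w => -Complex.I * (Complex.log (F w) -
    Complex.log (F 0))) (M := Real.pi) (R := 1) (z := δ) Real.pi_pos
    (((hF.clog hS).sub_const _).const_mul _) (by
      intro w _
      simp only [Set.mem_ofPred_eq, h0, ← Complex.ofReal_log hc.le]
      simpa using Complex.log_im_le_pi (F w)) one_pos (by simpa [abs_of_nonneg hδ] using hδ1)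
    (by simp)
  simp only [h0, h1, ← Complex.ofReal_log hc.le, ← Complex.ofReal_log hd.le, norm_mul, norm_neg,
    Complex.norm_I, one_mul, ← Complex.ofReal_sub, Complex.norm_real, Real.norm_eq_abs,
    abs_of_nonneg hδ] at hb
  have h2 : Real.log c ≤ 2 * Real.pi * δ / (1 - δ) + Real.log d := by
    linarith [(abs_le.1 hb).1]
  calc c = Real.exp (Real.log c) := (Real.exp_log hc).symm
    _ ≤ Real.exp (2 * Real.pi * δ / (1 - δ) + Real.log d) := Real.exp_le_exp.2 h2
    _ = _ := by rw [Real.exp_add, Real.exp_log hd]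

/-- Radial estimate. -/
lemma mq_radial {c : Finset I → ℝ} (hc : ∀ A, 0 ≤ c A) {E : Finset I} (hs : Stable c E)
    {i : I} (hi : i ∈ E) {x : I → ℝ} (hx : ∀ j, 0 < x j) {δ : ℝ} (hδ : 0 ≤ δ) (hδ1 : δ < 1) :
    mq c E i x ≤ Real.exp (2 * Real.pi * δ / (1 - δ)) * mq c E i (fun j => (1 + δ) * x j) := by
  set a : ℂ → ℂ := fun t => mp (fun A => c (insert i A)) (E.erase i) (fun j => t * x j) with ha
  set b : ℂ → ℂ := fun t => mp c (E.erase i) (fun j => t * x j) with hb
  set g : ℂ → ℂ := fun t => mp c E (fun j => t * x j) with hg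
  have hab : ∀ t, g t = t * x i * a t + b t := fun t => mp_split c hi _
  have hconj : ∀ t, a ((starRingEnd ℂ) t) = (starRingEnd ℂ) (a t) ∧
      g ((starRingEnd ℂ) t) = (starRingEnd ℂ) (g t) := by
    intro t
    simp only [ha, hg, ← mp_conj, map_mul, Complex.conj_ofReal, and_self]
  have hreal : ∀ s : ℝ, 0 < s → g s ≠ 0 ∧ a s / g s = (mq c E i (fun j => s * x j) : ℂ) := by
    intro s hs0
    have h1 : g s = (mr c E (fun j => s * x j) : ℂ) := by
      simp only [hg, ← mp_ofReal, Complex.ofReal_mul]
    have h2 : a s = (mr (fun A => c (insert i A)) (E.erase i) (fun j => s * x j) : ℂ) := by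
      simp only [ha, ← mp_ofReal, Complex.ofReal_mul]
    refine ⟨?_, by rw [h1, h2, mq, Complex.ofReal_div]⟩
    rw [h1]
    exact_mod_cast (mr_pos hc hs fun j => mul_pos hs0 (hx j)).ne'
  have hup : ∀ t : ℂ, 0 < t.im → g t ≠ 0 ∧ (a t / g t).im ≤ 0 := by
    intro t ht
    have hz : ∀ j, 0 < (t * (x j : ℂ)).im := fun j => by
      simpa using mul_pos ht (hx j)
    have hg0 : g t ≠ 0 := hs _ fun j _ => hz j
    refine ⟨hg0, ?_⟩
    have h1 := im_mul_conj_nonneg hs hi _ fun j => (hz j).le
    have : a t / g t = (a t * (starRingEnd ℂ) (g t)) / (Complex.normSq (g t) : ℂ) := by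
      rw [Complex.normSq_eq_conj_mul_self]
      have : (starRingEnd ℂ) (g t) ≠ 0 := by simpa using hg0
      field_simp
    rw [this, Complex.div_ofReal_im]
    refine div_nonpos_of_nonpos_of_nonneg ?_ (Complex.normSq_nonneg _)
    change 0 ≤ (b t * (starRingEnd ℂ) (a t)).im at h1
    rw [hab]
    have h2 := mul_nonneg (mul_pos ht (hx i)).le (Complex.normSq_nonneg (a t))
    simp only [Complex.normSq_apply] at h2
    simp only [Complex.mul_im, Complex.conj_re, Complex.conj_im, Complex.add_re, Complex.add_im,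
      Complex.mul_re, Complex.ofReal_re, Complex.ofReal_im, map_add, map_mul,
      Complex.conj_ofReal] at h1 ⊢
    nlinarith
  have hre : ∀ w ∈ Metric.ball (0 : ℂ) 1, 0 < (1 + w).re := by
    intro w hw
    have := (Complex.abs_re_le_norm w).trans_lt (mem_ball_zero_iff.1 hw)
    simp only [Complex.add_re, Complex.one_re]
    linarith [(abs_lt.1 this).1]
  have hall : ∀ t : ℂ, 0 < t.re → g t ≠ 0 ∧
      ∀ ε : ℝ, 0 < ε → a t / g t + ε / t ∈ Complex.slitPlane := by
    intro t ht
    have ht0 : t ≠ 0 := by rintro rfl; simp at ht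
    have hn := Complex.normSq_pos.2 ht0
    rcases lt_trichotomy t.im 0 with h | h | h
    · have h1 := hup ((starRingEnd ℂ) t) (by simpa using h)
      rw [(hconj t).1, (hconj t).2, ← map_div₀, Complex.conj_im] at h1
      refine ⟨by simpa using h1.1, fun ε hε => Or.inr (ne_of_gt ?_)⟩
      have : 0 < ((ε : ℂ) / t).im := by
        rw [Complex.div_im]; simp only [Complex.ofReal_im, Complex.ofReal_re, zero_mul, zero_div,
          zero_sub, Left.neg_pos_iff]
        exact div_neg_of_neg_of_pos (mul_neg_of_pos_of_neg hε h) hn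
      rw [Complex.add_im]; linarith [h1.2]
    · have e : t = (t.re : ℂ) := Complex.ext (by simp) (by simp [h])
      have h1 := hreal t.re ht
      rw [← e] at h1
      refine ⟨h1.1, fun ε hε => Or.inl ?_⟩
      rw [h1.2, Complex.add_re, Complex.ofReal_re, e, ← Complex.ofReal_div, Complex.ofReal_re]
      have := mq_nonneg hc E i (x := fun j => t.re * x j) fun j => mul_pos ht (hx j)
      have := div_pos hε ht
      simp only [Complex.ofReal_re]
      linarith
    · have h1 := hup t h
      refine ⟨h1.1, fun ε hε => Or.inr (ne_of_lt ?_)⟩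
      have : ((ε : ℂ) / t).im < 0 := by
        rw [Complex.div_im]; simp only [Complex.ofReal_im, Complex.ofReal_re, zero_mul, zero_div,
          zero_sub, Left.neg_neg_iff]
        exact div_pos (mul_pos hε h) hn
      rw [Complex.add_im]; linarith [h1.2]
  have had : Differentiable ℂ a := differentiable_mp _ _ fun j => by fun_prop
  have hgd : Differentiable ℂ g := differentiable_mp _ _ fun j => by fun_prop
  have hε : ∀ ε : ℝ, 0 < ε → mq c E i x + ε ≤ Real.exp (2 * Real.pi * δ / (1 - δ)) *
      (mq c E i (fun j => (1 + δ) * x j) + ε / (1 + δ)) := by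
    intro ε hε
    refine slit_bound (F := fun w => a (1 + w) / g (1 + w) + ε / (1 + w)) ?_
      (fun w hw => (hall _ (hre w hw)).2 ε hε) ?_ ?_ hδ hδ1 ?_ ?_
    · intro w hw
      refine DifferentiableAt.differentiableWithinAt (DifferentiableAt.add ?_ ?_)
      · exact DifferentiableAt.div ((had _).comp w (by fun_prop)) ((hgd _).comp w (by fun_prop))
          (hall _ (hre w hw)).1
      · refine DifferentiableAt.div (by fun_prop) (by fun_prop) ?_
        intro h
        have := hre w hw
        rw [h] at this; simp at this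
    · linarith [mq_nonneg hc E i hx]
    · have := mq_nonneg hc E i (x := fun j => (1 + δ) * x j) fun j => mul_pos (by linarith) (hx j)
      have : 0 < ε / (1 + δ) := div_pos hε (by linarith)
      linarith
    · have := (hreal 1 one_pos).2
      simp only [Complex.ofReal_one, one_mul] at this
      simp [this]
    · have := (hreal (1 + δ) (by linarith)).2
      simp only [Complex.ofReal_add, Complex.ofReal_one] at this
      simp [this]
  have hcont : Continuous fun ε : ℝ => Real.exp (2 * Real.pi * δ / (1 - δ)) *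
      (mq c E i (fun j => (1 + δ) * x j) + ε / (1 + δ)) - (mq c E i x + ε) := by fun_prop
  have h1 := (hcont.tendsto 0).mono_left (nhdsWithin_le_nhds (s := Set.Ioi 0))
  simp only [zero_div, add_zero] at h1
  have h2 := ge_of_tendsto h1 (b := 0) (by
    filter_upwards [self_mem_nhdsWithin] with ε h
    linarith [hε ε h])
  linarith

/-- The Lipschitz bound. -/
lemma occ_lip {c : Finset I → ℝ} (hc : ∀ A, 0 ≤ c A) {E : Finset I} (hs : Stable c E)
    {i : I} (hi : i ∈ E) {x y : I → ℝ} (hx : ∀ j, 0 < x j) (hy : ∀ j, 0 < y j) {η : ℝ}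
    (hη : 0 ≤ η) (hxy : ∀ j, x j ≤ Real.exp η * y j) (hyx : ∀ j, y j ≤ Real.exp η * x j) :
    y i * mq c E i y - x i * mq c E i x ≤ 20 * η := by
  have p1 := mul_mq_le_one hc hs hi hy
  have p0 : 0 ≤ x i * mq c E i x := mul_nonneg (hx i).le (mq_nonneg hc E i hx)
  by_cases hη1 : 1 / 20 ≤ η
  · linarith
  push Not at hη1
  set δ := Real.exp η - 1 with hδ
  have hδ0 : 0 ≤ δ := by linarith [Real.one_le_exp hη]
  have hδ2 : δ ≤ 2 * η := by
    have := Real.abs_exp_sub_one_le (x := η) (by rw [abs_of_nonneg hη]; linarith)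
    rw [abs_of_nonneg hη] at this
    exact (le_abs_self _).trans this
  have h1 := mq_radial hc hs hi hy hδ0 (by linarith)
  have h2 : mq c E i (fun j => (1 + δ) * y j) ≤ mq c E i x :=
    mq_anti hc hs hi hx fun j => by simpa [hδ] using hxy j
  set K := 2 * Real.pi * δ / (1 - δ) with hK
  have hK2 : K ≤ 18 * η := by
    rw [hK, div_le_iff₀ (by linarith)]
    have := Real.pi_le_four
    nlinarith [mul_le_mul this hδ2 hδ0 (by norm_num : (0 : ℝ) ≤ 4)]
  have h3 : y i * mq c E i y ≤ Real.exp (η + K) * (x i * mq c E i x) := by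
    calc y i * mq c E i y ≤ (Real.exp η * x i) * (Real.exp K * mq c E i x) := by
          refine mul_le_mul (hyx i) (h1.trans ?_) (mq_nonneg hc E i hy)
            (mul_pos (Real.exp_pos _) (hx i)).le
          exact mul_le_mul_of_nonneg_left h2 (Real.exp_pos _).le
      _ = _ := by rw [Real.exp_add]; ring
  have h4 : Real.exp (-(η + K)) * (y i * mq c E i y) ≤ x i * mq c E i x := by
    rw [Real.exp_neg, inv_mul_le_iff₀ (Real.exp_pos _)]
    exact h3
  have h5 := Real.add_one_le_exp (-(η + K))
  have p2 : 0 ≤ y i * mq c E i y := mul_nonneg (hy i).le (mq_nonneg hc E i hy)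
  have hK0 : 0 ≤ K := div_nonneg (by positivity) (by linarith)
  nlinarith [mul_le_mul_of_nonneg_right h5 p2, mul_le_mul_of_nonneg_left p1 (add_nonneg hη hK0)]

/-! ### Passing to inclusion probabilities -/

lemma sum_incl_eq (c : Finset I → ℝ) (E F : Finset I) (z : I → ℝ) :
    ∑ S ∈ F.powerset, (∑ A ∈ E.powerset with S ⊆ A, c A) * ∏ j ∈ S, (z j - 1)
      = mr c E (fun j => if j ∈ F then z j else 1) := by
  unfold mr
  simp_rw [Finset.sum_filter, Finset.sum_mul]
  rw [Finset.sum_comm]
  refine Finset.sum_congr rfl fun A _ => ?_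
  have h1 : ∏ j ∈ A, (if j ∈ F then z j else 1) = ∏ j ∈ A ∩ F, (1 + (z j - 1)) := by
    rw [Finset.prod_ite_mem]; simp
  rw [h1, Finset.prod_one_add, Finset.mul_sum]
  have h2 : (A ∩ F).powerset = F.powerset.filter (· ⊆ A) := by
    ext S
    simp only [Finset.mem_powerset, Finset.subset_inter_iff, Finset.mem_filter, and_comm]
  rw [h2, Finset.sum_filter]
  refine Finset.sum_congr rfl fun S _ => ?_
  split_ifs <;> simp

lemma ratio_eq_mq (c : Finset I → ℝ) {E F : Finset I} (hF : F ⊆ E) {i : I} (hi : i ∈ E)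
    (q : Finset I → ℝ) (hq : ∀ S ⊆ E, q S = ∑ A ∈ E.powerset with S ⊆ A, c A) (z : I → ℝ) :
    ratio q F i z = (if i ∈ F then z i else 1) * mq c E i (fun j => if j ∈ F then z j else 1) := by
  unfold ratio mq
  have h1 : den q F z = mr c E (fun j => if j ∈ F then z j else 1) := by
    rw [← sum_incl_eq]
    refine Finset.sum_congr rfl fun S hS => ?_
    rw [hq S ((Finset.mem_powerset.1 hS).trans hF)]
  have h2 : num q F i z = mr (fun A => if i ∈ A then c A else 0) E
      (fun j => if j ∈ F then z j else 1) := by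
    rw [← sum_incl_eq]
    refine Finset.sum_congr rfl fun S hS => ?_
    rw [hq _ (Finset.insert_subset hi ((Finset.mem_powerset.1 hS).trans hF))]
    congr 1
    simp only [Finset.sum_filter, Finset.insert_subset_iff]
    refine Finset.sum_congr rfl fun A _ => ?_
    by_cases h : i ∈ A <;> simp [h]
  rw [h1, h2, mr_split _ hi, ← mul_div_assoc]
  congr 1
  have h3 : mr (fun A => if i ∈ A then c A else 0) (E.erase i)
      (fun j => if j ∈ F then z j else 1) = 0 := by
    refine Finset.sum_eq_zero fun A hA => ?_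
    have : i ∉ A := fun h => Finset.notMem_erase i E (Finset.mem_powerset.1 hA h)
    simp [this]
  rw [h3]
  simp

lemma probAt_of_stable {c : Finset I → ℝ} (hc : ∀ A, 0 ≤ c A) {E F : Finset I} (hs : Stable c E)
    (hF : F ⊆ E) {i : I} (hi : i ∈ E) (q : Finset I → ℝ)
    (hq : ∀ S ⊆ E, q S = ∑ A ∈ E.powerset with S ⊆ A, c A) : ProbAt q F i := by
  intro z hz
  have hx : ∀ j, 0 < (if j ∈ F then z j else 1) := fun j => by
    split_ifs
    · exact hz j
    · exact one_pos
  rw [ratio_eq_mq c hF hi q hq]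
  exact ⟨mul_nonneg (hx i).le (mq_nonneg hc E i hx), mul_mq_le_one hc hs hi hx⟩

lemma lipAt_of_stable {c : Finset I → ℝ} (hc : ∀ A, 0 ≤ c A) {E F : Finset I} (hs : Stable c E)
    (hF : F ⊆ E) {i : I} (hi : i ∈ E) (q : Finset I → ℝ)
    (hq : ∀ S ⊆ E, q S = ∑ A ∈ E.powerset with S ⊆ A, c A) : LipAt q F i := by
  intro z z' η hη hz hz' h1 h2
  have hpos : ∀ z : I → ℝ, (∀ j, 0 < z j) → ∀ j, 0 < (if j ∈ F then z j else 1) := fun z hz j => by
    split_ifs
    · exact hz j
    · exact one_pos
  have hle : ∀ z z' : I → ℝ, (∀ j, z j ≤ Real.exp η * z' j) →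
      ∀ j, (if j ∈ F then z j else 1) ≤ Real.exp η * (if j ∈ F then z' j else 1) := by
    intro z z' h j
    split_ifs
    · exact h j
    · simpa using hη
  rw [ratio_eq_mq c hF hi q hq, ratio_eq_mq c hF hi q hq, abs_le]
  have a1 := occ_lip hc hs hi (hpos z hz) (hpos z' hz') hη (hle _ _ h1) (hle _ _ h2)
  have a2 := occ_lip hc hs hi (hpos z' hz') (hpos z hz) hη (hle _ _ h2) (hle _ _ h1)
  constructor <;> linarith

end Crest.Agent.FIID
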